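import Vale.Agent.P244.A.Data

/-!
Basic consequences of the trap.
Plan `bas_I`: `τ ≤ 2 h` from `TrI.H` and `HH_eq`; `σ = τ + h² ≤ 3 h`; `|m| ≤ θ σ² / h * Am ≤
18 s Am θ` (`mm_eq`), `|Σ| ≤ AS θ h²` (`Sg_eq`, `f2_eq`); smallness by `ev_mul_s`; then `vt_eq`,
`aa_eq`, `bb_eq`, `kk_eq`; `ϱ³ = θ² h⁶ ≤ 4 h⁶`.
`bas_mono`: `dX K = k K > 0`, `dX h = b h ≥ 0` (`strictMonoOn_of_deriv_pos`, `cmp_le`).
`bas_G`: on `[s³, 1]` use `Tr.F2` and `data_H` (`e^{-6 A₀} = H₀`, `e^{3 β₀} = H₀`); on `[0, s³]`: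
`dX A = a - c ≤ 2 y ≤ dX (2 y)`, so `A t y ≥ A t (s³) - 2 s³` (`cmp_le`), `f² ≤ 2 h²`, `θ ≤ 2`.
`B`: `dY B ≤ 0`, `B t 1 = 0`, and `|dY B| ≤ 1800 A1² / y²` by `Tr.F1`, so `B - 1800 A1² / y` is
monotone on `[y, 1]`.
-/

namespace Vale.Agent.P244

open scoped ContDiff Topology
open Set Filter Real

/-- Pointwise facts in the inner region. -/
structure BasI (S : St) (t y : ℝ) : Prop where
  mem : y ∈ Icc (0 : ℝ) (1 / 1000)
  tau : S.τ₀ - t ≤ 2 * S.hh t y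
  sg : S.sg t y ≤ 3 * S.hh t y
  h : S.hh t y ≤ 1 / 5
  th : S.th t y ≤ 2
  m : |S.mm t y| ≤ S.th t y / 100
  Sg : |S.Sg t y| ≤ S.th t y / 100
  vt : |S.vt t y| ≤ S.th t y / 100
  a : 1 / 4 ≤ S.aa t y ∧ S.aa t y ≤ 1
  b : S.th t y / 2 ≤ S.bb t y ∧ S.bb t y ≤ S.th t y
  k : |S.kk t y - 2| ≤ S.th t y / 100
  rho : S.rho t y ≤ 2 * S.hh t y ^ 2

/-- Pointwise facts on `[0, 1]`. -/
structure BasG (κ : Cst) (S : St) (t y : ℝ) : Prop where
  w : exp (-2 * S.A t y) ≤ 100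
  psi : y * exp (2 * S.A t y) ≤ 100
  th : y * exp (2 * S.A t y - 2 * S.β t y) ≤ 200
  h : exp (S.β t y) ≤ 100
  B : 0 ≤ S.B t y ∧ y * S.B t y ≤ 1800 * κ.A1 ^ 2

variable {κ : Cst}

theorem bas_cube {s : ℝ} (h0 : 0 < s) (h : s ≤ 1 / 10) : s ^ 3 ≤ 1 / 1000 :=
  (pow_le_pow_left₀ h0.le h 3).trans (by norm_num)

theorem bas_div {x θ c : ℝ} (hθ : 0 ≤ θ) (hc : 0 ≤ c) (h : |x| ≤ 3 * c) : |x / (3 + θ)| ≤ c := by
  rw [abs_div, abs_of_pos (by linarith : 0 < 3 + θ), div_le_iff₀ (by linarith)]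
  nlinarith

theorem bas_I (hκ : κ.Adm) :
    ∀ᶠ r in fam κ, ∀ t ∈ r.I, ∀ y ∈ Icc 0 (r.s ^ 3), BasI r.S t y := by
  filter_upwards [ev_s κ (ε := 1 / 10) (by norm_num),
    ev_mul_s κ (18 * κ.Am) (ε := 1 / 100) (by norm_num),
    ev_mul_s κ κ.AS (ε := 1 / 100) (by norm_num)] with r s1 s2 s3 t ht y hy
  have T := (r.tr ht).I y hy
  have u2 : |r.S.u2 t y| ≤ 1 * κ.AS := T.u2
  have u1 : |r.S.u1 t y| ≤ 1 * κ.Am := T.u1
  have hs : r.S.hh t y ≤ (1 + 1) * r.s := T.h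
  have hθ2 : r.S.th t y ≤ 2 := by linarith [T.th]
  have hy1 : y ≤ 1 / 1000 := hy.2.trans (bas_cube r.hs s1)
  have hy' : y ∈ Icc (0 : ℝ) 1 := ⟨hy.1, by linarith⟩
  have hτ : t ≤ r.S.τ₀ := ht.2.trans r.sol.lt.le
  have h0 := r.S.hh_pos t y
  have hθ := r.S.th_nonneg (t := t) hy'
  have h5 : r.S.hh t y ≤ 1 / 5 := by linarith
  have tau : r.S.τ₀ - t ≤ 2 * r.S.hh t y := by
    refine (pow_le_pow_iff_left₀ (sub_nonneg.2 hτ) (by positivity) three_ne_zero).1 ?_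
    have := T.H
    rw [St.HH_eq] at this
    linarith
  have sg : r.S.sg t y ≤ 3 * r.S.hh t y := by
    rw [St.sg_eq]
    nlinarith
  have sg0 := r.S.sg_pos (y := y) hτ
  have hAm := hκ.Am
  have hAS := hκ.AS
  have m : |r.S.mm t y| ≤ r.S.th t y / 100 := by
    rw [r.S.mm_eq hτ, abs_mul, abs_of_nonneg (by positivity)]
    have a1 : r.S.sg t y ^ 2 / r.S.hh t y ≤ 18 * r.s := by
      rw [div_le_iff₀ h0]
      nlinarith [pow_le_pow_left₀ sg0.le sg 2]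
    have a2 : r.S.sg t y ^ 2 / r.S.hh t y * |r.S.u1 t y| ≤ 18 * r.s * (1 * κ.Am) :=
      mul_le_mul a1 u1 (abs_nonneg _) (by linarith [r.hs])
    rw [mul_div_assoc, mul_assoc]
    nlinarith [mul_le_mul_of_nonneg_left a2 hθ]
  have Sg : |r.S.Sg t y| ≤ r.S.th t y / 100 := by
    rw [r.S.Sg_eq (by linarith : y < 1).ne, St.f2_eq, abs_mul, abs_of_nonneg (by positivity)]
    have a1 : r.S.hh t y ^ 2 ≤ r.s := by nlinarith
    have a2 : r.S.hh t y ^ 2 * |r.S.u2 t y| ≤ r.s * (1 * κ.AS) :=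
      mul_le_mul a1 u2 (abs_nonneg _) r.hs.le
    rw [mul_assoc]
    nlinarith [mul_le_mul_of_nonneg_left a2 hθ]
  have m' := abs_le.1 m
  have Sg' := abs_le.1 Sg
  have vt : |r.S.vt t y| ≤ r.S.th t y / 100 := by
    rw [r.S.vt_eq hy']
    refine bas_div hθ (by positivity) (abs_le.2 ⟨?_, ?_⟩) <;> nlinarith [m'.1, m'.2, Sg'.1, Sg'.2]
  have vt' := abs_le.1 vt
  refine ⟨⟨hy.1, hy1⟩, tau, sg, h5, hθ2, m, Sg, vt, ?_, ?_, ?_, ?_⟩
  · rw [St.aa_eq]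
    constructor <;> linarith [vt'.1, vt'.2, Sg'.1, Sg'.2]
  · rw [St.bb_eq]
    constructor <;> linarith [vt'.1, vt'.2]
  · rw [r.S.kk_eq hy']
    refine bas_div hθ (by positivity) (abs_le.2 ⟨?_, ?_⟩) <;> linarith [m'.1, m'.2, Sg'.1, Sg'.2]
  · refine (pow_le_pow_iff_left₀ (r.S.rho_nonneg hy') (by positivity) three_ne_zero).1 ?_
    rw [r.S.rho_cube hy', St.KK_eq]
    have a1 : r.S.th t y ^ 2 ≤ 8 := by nlinarith
    have a2 : 0 < r.S.hh t y ^ 6 := by positivity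
    nlinarith

theorem bas_mono (hκ : κ.Adm) : ∀ᶠ r in fam κ, ∀ t ∈ r.I,
    StrictMonoOn (r.S.rho t) (Icc 0 (r.s ^ 3)) ∧ StrictMonoOn (r.S.KK t) (Icc 0 (r.s ^ 3)) ∧
      MonotoneOn (r.S.hh t) (Icc 0 (r.s ^ 3)) := by
  filter_upwards [bas_I hκ, ev_s κ (ε := 1 / 10) (by norm_num)] with r hr s1 t ht
  have s3 := bas_cube r.hs s1
  have sub : Icc 0 (r.s ^ 3) ⊆ Icc (0 : ℝ) 1 := Icc_subset_Icc_right (by linarith)
  have sub' : Ioo 0 (r.s ^ 3) ⊆ Ioo (0 : ℝ) 1 := Ioo_subset_Ioo_right (by linarith)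
  have hK : StrictMonoOn (r.S.KK t) (Icc 0 (r.s ^ 3)) := by
    refine strictMonoOn_of_deriv_pos (convex_Icc _ _)
      ((r.sol.sm_KK.slice ht).continuousOn.mono sub) fun x hx => ?_
    rw [interior_Icc] at hx
    have hx' := sub' hx
    have b := hr t ht x (Ioo_subset_Icc_self hx)
    have k0 : 0 < r.S.kk t x := by linarith [(abs_le.1 b.k).1, b.th]
    have e := r.sol.dX_KK ht (Ioo_subset_Icc_self hx')
    rw [(r.sol.sm_KK.hasY' ht hx').deriv]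
    have e2 : 0 < 2 * (x * (1 - x)) * dY r.S.KK t x := by
      rw [show 2 * (x * (1 - x)) * dY r.S.KK t x = _ from e]
      exact mul_pos k0 (r.S.KK_pos hx')
    exact (mul_pos_iff_of_pos_left (mul_pos two_pos (St.id0_v' hx'))).1 e2
  refine ⟨fun a ha b hb hab => ?_, hK, fun a ha b hb hab => ?_⟩
  · exact rpow_lt_rpow (r.S.KK_nonneg (sub ha)) (hK ha hb hab) (by norm_num)
  · have sub2 : Icc a b ⊆ Icc 0 (r.s ^ 3) := Icc_subset_Icc ha.1 hb.2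
    have := cmp_le (I := r.I) (g := fun _ _ => 0) (G := r.S.hh) ht ha.1 hab (by linarith [hb.2])
      continuousOn_const ((r.sol.sm_hh.slice ht).continuousOn.mono (sub2.trans sub))
      (fun z _ => smAt_const 0)
      (fun z hz => r.sol.sm_hh.smAt ht (sub (sub2 (Ioo_subset_Icc_self hz)))) fun z hz => by
        have hz' := sub2 (Ioo_subset_Icc_self hz)
        have b := hr t ht z hz'
        rw [dX_time r.ti ht (sub hz') fun _ => 0, r.sol.dX_hh ht (sub hz')]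
        exact mul_nonneg (by linarith [b.b.1, r.S.th_nonneg (t := t) (sub hz')])
          (r.S.hh_pos t z).le
    linarith

theorem bas_exp {x : ℝ} (n : ℕ) (h : x ≤ n) : exp x ≤ 3 ^ n := by
  refine (exp_le_exp.2 h).trans ?_
  rw [← mul_one (n : ℝ), exp_nat_mul]
  exact pow_le_pow_left₀ (exp_pos _).le (exp_one_lt_d9.le.trans (by norm_num)) n

theorem bas_out {S : St} {δ t y : ℝ} {c : Fin 3 → ℝ} (h : DOk δ S c) (hy : y ∈ Icc (0 : ℝ) 1)
    (hA : |S.A t y - S.A 0 y| ≤ 1) (hβ : |S.β t y - S.β 0 y| ≤ 1) :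
    exp (-2 * S.A t y) ≤ 18 ∧ y * exp (2 * S.A t y) ≤ 100 ∧
      y * exp (2 * S.A t y - 2 * S.β t y) ≤ 200 ∧ exp (S.β t y) ≤ 100 := by
  obtain ⟨d1, d2, d3⟩ := data_H h hy
  rw [St.HH_eq] at d1 d2
  have h0 := S.hh_pos 0 y
  have t3 : S.τ₀ ^ 3 ≤ 1 := pow_le_one₀ h.τ0.le (by linarith [h.τ1])
  have t0 : 0 < S.τ₀ ^ 3 := pow_pos h.τ0 3
  have h2 : S.hh 0 y ≤ 2 :=
    (pow_le_pow_iff_left₀ h0.le (by norm_num) three_ne_zero).1 (by linarith [hy.2])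
  have hA' := abs_le.1 hA
  have hβ' := abs_le.1 hβ
  have hy3 : y ≤ 2 * S.hh 0 y ^ 3 := by linarith
  refine ⟨?_, ?_, ?_, ?_⟩
  · have e : exp (-2 * S.A t y) = exp (-2 * (S.A t y - S.A 0 y)) * S.hh 0 y := by
      rw [St.hh, ← exp_add]
      congr 1
      linarith
    have b := bas_exp (x := -2 * (S.A t y - S.A 0 y)) 2 (by push_cast; linarith [hA'.1])
    rw [e]
    nlinarith [exp_pos (-2 * (S.A t y - S.A 0 y))]
  · have e : S.hh 0 y ^ 3 * exp (2 * S.A t y) = exp (2 * (S.A t y - S.A 0 y)) * S.hh 0 y ^ 2 := by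
      rw [St.hh, ← St.id0_three, ← St.id0_two, ← exp_add, ← exp_add]
      congr 1
      linarith
    have b := bas_exp (x := 2 * (S.A t y - S.A 0 y)) 2 (by push_cast; linarith [hA'.2])
    have b2 : S.hh 0 y ^ 2 ≤ 4 := by nlinarith
    have b3 := mul_le_mul b b2 (by positivity) (by positivity)
    nlinarith [mul_le_mul_of_nonneg_right hy3 (exp_pos (2 * S.A t y)).le]
  · have e : S.hh 0 y ^ 3 * exp (2 * S.A t y - 2 * S.β t y) =
        exp (2 * (S.A t y - S.A 0 y) - 2 * (S.β t y - S.β 0 y)) := by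
      rw [St.hh, ← St.id0_three, ← exp_add]
      congr 1
      linarith
    have b := bas_exp (x := 2 * (S.A t y - S.A 0 y) - 2 * (S.β t y - S.β 0 y)) 4
      (by push_cast; linarith [hA'.2, hβ'.1])
    nlinarith [mul_le_mul_of_nonneg_right hy3 (exp_pos (2 * S.A t y - 2 * S.β t y)).le]
  · have e : exp (S.β t y) = exp (S.β t y - S.β 0 y) * S.hh 0 y := by
      rw [St.hh, ← exp_add]
      congr 1
      linarith
    have b := bas_exp (x := S.β t y - S.β 0 y) 1 (by push_cast; linarith [hβ'.2])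
    rw [e]
    nlinarith [exp_pos (S.β t y - S.β 0 y)]

theorem bas_B {S : St} {t₁ t M : ℝ} (h : S.Sol t₁) (ht : t ∈ Icc 0 t₁)
    (hw : ∀ y ∈ Icc (0 : ℝ) 1, exp (-2 * S.A t y) ≤ 100)
    (hX : ∀ y ∈ Icc (0 : ℝ) 1, |XX S.A t y| ≤ M ∧ |XX S.β t y| ≤ M) {y : ℝ}
    (hy : y ∈ Icc (0 : ℝ) 1) : 0 ≤ S.B t y ∧ y * S.B t y ≤ 1800 * M ^ 2 := by
  have cB := (h.sm_B.slice ht).continuousOn
  have h1 : (1 : ℝ) ∈ Icc (0 : ℝ) 1 := ⟨zero_le_one, le_rfl⟩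
  have B1 := h.sol.one t ht
  constructor
  · have := antitoneOn_of_deriv_nonpos (convex_Icc 0 1) cB
      (((h.sm_B.slice ht).differentiableOn (by simp)).mono interior_subset) (fun x hx => ?_)
      hy h1 hy.2
    · rwa [B1] at this
    rw [interior_Icc] at hx
    rw [(h.sm_B.hasY' ht hx).deriv, h.sol.eqB t ht x (Ioo_subset_Icc_self hx)]
    have : 0 ≤ 2 * exp (-2 * S.A t x) * (4 * dY S.A t x ^ 2 + 5 * dY S.β t x ^ 2) := by positivity
    linarith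
  rcases hy.1.eq_or_lt with rfl | h0
  · rw [zero_mul]
    positivity
  have sub : Icc y 1 ⊆ Icc (0 : ℝ) 1 := Icc_subset_Icc_left hy.1
  have mono : MonotoneOn (fun z => S.B t z - 1800 * M ^ 2 * z⁻¹) (Icc y 1) := by
    refine monotoneOn_of_hasDerivWithinAt_nonneg (convex_Icc y 1)
      (f' := fun z => dY S.B t z - 1800 * M ^ 2 * (-(z ^ 2)⁻¹))
      ((cB.mono sub).sub (continuousOn_const.mul
        (continuousOn_inv₀.mono fun z hz => (h0.trans_le hz.1).ne'))) (fun x hx => ?_) fun x hx => ?_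
    · rw [interior_Icc] at hx
      have x0 : 0 < x := h0.trans hx.1
      exact ((h.sm_B.hasY' ht ⟨x0, hx.2⟩).sub ((hasDerivAt_inv x0.ne').const_mul _)).hasDerivWithinAt
    · rw [interior_Icc] at hx
      have x0 : 0 < x := h0.trans hx.1
      have hx' : x ∈ Icc (0 : ℝ) 1 := ⟨x0.le, hx.2.le⟩
      obtain ⟨a1, a2⟩ := hX x hx'
      have q1 : (x * dY S.A t x) ^ 2 ≤ M ^ 2 := sq_le_sq' (abs_le.1 a1).1 (abs_le.1 a1).2
      have q2 : (x * dY S.β t x) ^ 2 ≤ M ^ 2 := sq_le_sq' (abs_le.1 a2).1 (abs_le.1 a2).2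
      have q3 : exp (-2 * S.A t x) * (4 * (x * dY S.A t x) ^ 2 + 5 * (x * dY S.β t x) ^ 2) ≤
          100 * (9 * M ^ 2) := mul_le_mul (hw x hx') (by linarith) (by positivity) (by norm_num)
      have e : dY S.B t x - 1800 * M ^ 2 * (-(x ^ 2)⁻¹) = (1800 * M ^ 2 - 2 * (exp (-2 * S.A t x) *
          (4 * (x * dY S.A t x) ^ 2 + 5 * (x * dY S.β t x) ^ 2))) / x ^ 2 := by
        rw [h.sol.eqB t ht x hx']
        field_simp
        ring
      rw [e]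
      exact div_nonneg (by linarith) (by positivity)
  have := mono ⟨le_rfl, hy.2⟩ ⟨hy.2, le_rfl⟩ hy.2
  simp only [B1, inv_one, mul_one, zero_sub] at this
  have e : y * (1800 * M ^ 2 * y⁻¹) = 1800 * M ^ 2 := by field_simp
  nlinarith [mul_le_mul_of_nonneg_left this hy.1, mul_nonneg hy.1 (sq_nonneg M)]

theorem bas_G (hκ : κ.Adm) :
    ∀ᶠ r in fam κ, ∀ t ∈ r.I, ∀ y ∈ Icc (0 : ℝ) 1, BasG κ r.S t y := by
  filter_upwards [bas_I hκ, ev_dok hκ, ev_s κ (ε := 1 / 10) (by norm_num)] with r hr hd s1 t ht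
  have s3 := bas_cube r.hs s1
  have s0 : 0 < r.s ^ 3 := pow_pos r.hs 3
  have sub : Icc 0 (r.s ^ 3) ⊆ Icc (0 : ℝ) 1 := Icc_subset_Icc_right (by linarith)
  have out : ∀ y ∈ Icc (r.s ^ 3) 1, _ := fun y hy =>
    bas_out hd ⟨s0.le.trans hy.1, hy.2⟩ ((r.tr ht).F2 y hy).1 ((r.tr ht).F2 y hy).2
  have key : ∀ y ∈ Icc (0 : ℝ) 1, exp (-2 * r.S.A t y) ≤ 100 ∧ y * exp (2 * r.S.A t y) ≤ 100 ∧
      y * exp (2 * r.S.A t y - 2 * r.S.β t y) ≤ 200 ∧ exp (r.S.β t y) ≤ 100 := by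
    intro y hy
    rcases le_total (r.s ^ 3) y with hs | hs
    · obtain ⟨a1, a2⟩ := out y ⟨hs, hy.2⟩
      exact ⟨by linarith, a2⟩
    have b := hr t ht y ⟨hy.1, hs⟩
    have v : y ≤ 2 * (y * (1 - y)) := by nlinarith [hy.1, b.mem.2]
    have h0 := r.S.hh_pos t y
    refine ⟨?_, ?_, ?_, b.h.trans (by norm_num)⟩
    · have sub2 : Icc y (r.s ^ 3) ⊆ Icc 0 (r.s ^ 3) := Icc_subset_Icc_left hy.1
      have c := cmp_le (I := r.I) (g := r.S.A) (G := fun _ z => 2 * z) ht hy.1 hs (by linarith)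
        ((r.sol.sm_A.slice ht).continuousOn.mono (sub2.trans sub)) (by fun_prop)
        (fun z hz => r.sol.sm_A.smAt ht (sub (sub2 (Ioo_subset_Icc_self hz))))
        (fun z _ => (smAt_const 2).mul smAt_y) fun z hz => by
          have hz' := sub2 (Ioo_subset_Icc_self hz)
          have b := hr t ht z hz'
          have a : 1 - 2 * z + dX r.S.A t z ≤ 1 := b.a.2
          rw [dX_mul r.ti ht (sub hz') (smAt_const 2) smAt_y, dX_time r.ti ht (sub hz') fun _ => 2,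
            dX_y r.ti ht (sub hz')]
          nlinarith [b.mem.1, b.mem.2]
      have a1 := (out _ ⟨le_rfl, by linarith⟩).1
      have e : exp (-2 * r.S.A t y) =
          exp (2 * (r.S.A t (r.s ^ 3) - r.S.A t y)) * exp (-2 * r.S.A t (r.s ^ 3)) := by
        rw [← exp_add]
        congr 1
        ring
      have a2 := bas_exp (x := 2 * (r.S.A t (r.s ^ 3) - r.S.A t y)) 1
        (by push_cast; linarith [hy.1])
      rw [e]
      exact (mul_le_mul a2 a1 (exp_pos _).le (by positivity)).trans (by norm_num)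
    · have e : y * (1 - y) * exp (2 * r.S.A t y) = r.S.th t y * r.S.hh t y ^ 2 := r.S.f2_eq t y
      have a1 : r.S.hh t y ^ 2 ≤ 1 := pow_le_one₀ h0.le (by linarith [b.h])
      have a2 := mul_le_mul b.th a1 (by positivity) (by norm_num)
      nlinarith [mul_le_mul_of_nonneg_right v (exp_pos (2 * r.S.A t y)).le]
    · have a : y * (1 - y) * exp (2 * r.S.A t y - 2 * r.S.β t y) ≤ 2 := b.th
      nlinarith [mul_le_mul_of_nonneg_right v (exp_pos (2 * r.S.A t y - 2 * r.S.β t y)).le]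
  intro y hy
  obtain ⟨a1, a2, a3, a4⟩ := key y hy
  refine ⟨a1, a2, a3, a4, bas_B r.sol ht (fun z hz => (key z hz).1) (fun z hz => ?_) hy⟩
  obtain ⟨b1, -, b2, -⟩ := (r.tr ht).F1 z hz
  rw [one_mul] at b1 b2
  exact ⟨b1, b2⟩


end Vale.Agent.P244
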