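import Vale.Agent.P244.A.Id2

/-!
The equations of `u₁`, `u₂` and the equations in the coordinate `ϱ`.
Plan: `pop_u2`: `Σ = f² u₂` on `Ico 0 1` (`pop_congr ro_Ico`, `pop_mul`), cancel `f² > 0`, and
`(3 + θ) ϑ = θ h ζ`.  `pop_u1`: `n = f² σ² u₁`.  `hT_eq`: `u' = ϱ' D u` on the open set where
`k > 0`, so `u'' = ϱ'² D² u + ϱ'' D u`; `𝒫 ϱ` by `pop_comp` with `x ^ (2/3)`.
`hT_Dr`: both sides are `(u_t' - ϱ_t' D u) / ϱ' - ϱ_t D² u` (`dT_dX`, quotient rule in `t`).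
`hT_comp`: chain rule for `φ (t, ϱ)`.  `hT_Z0`: `hT_eq` for `E` with `pop_EE`, and `P` solves
`-P_τ = 16/9 ϱ P_ϱϱ + 40/9 P_ϱ`.  Then apply `D` (`D (ϱ Z) = Z + ϱ D Z`) three times.
-/

namespace Vale.Agent.P244

open scoped ContDiff Topology
open Set Filter Real

noncomputable section

namespace St

variable (S : St)

/-- `ζ = (3 + θ) ϑ / (θ h)`. -/
def ze : Fn := fun t y => S.sg t y ^ 2 / S.hh t y ^ 2 * S.u1 t y + 2 / 3 * S.th t y * S.hh t y * S.u2 t y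
/-- `σ' / σ`. -/
def ls : Fn := fun t y => 2 * S.bb t y * S.hh t y ^ 2 / S.sg t y
/-- `μ₀ = W - 4 - C₁'`. -/
def mu0 : Fn := fun t y => S.WW t y - 4 - dX S.C1 t y
/-- `𝔞`. -/
def ca : Fn := fun t y => 4 / 9 * S.kk t y ^ 2 * (S.rho t y / S.f2 t y)
/-- `𝔡`. -/
def cd : Fn := fun t y => S.rho t y / S.f2 t y *
  (8 / 3 * (2 + S.th t y) + 4 / 9 * S.kk t y ^ 2 + 2 / 3 * S.kk t y * S.C1 t y)
/-- The error in the cone equation. -/
def Err : Fn := fun t y => (S.ca t y - 16 / 9) * S.rho t y * S.Dr (S.Dr S.EE) t y +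
  (S.cd t y - 40 / 9) * S.Dr S.EE t y + S.cE t y * S.u2 t y * S.EE t y

namespace Sol

variable {S} {t₁ t y : ℝ} (h : S.Sol t₁) (ht : t ∈ Icc 0 t₁)
include h ht

theorem vt_ze (hy : y ∈ Ico (0 : ℝ) 1) :
    (3 + S.th t y) * S.vt t y = S.th t y * S.hh t y * S.ze t y := by
  have h3 : 0 < 3 + S.th t y := by linarith [S.th_nonneg (t := t) (Ico_subset_Icc_self hy)]
  have hh := S.hh_pos t y
  rw [S.vt_eq (Ico_subset_Icc_self hy), S.mm_eq (ht.2.trans h.lt.le), S.Sg_eq hy.2.ne, S.f2_eq]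
  simp only [ze]
  field_simp

variable (hy : y ∈ Ioo (0 : ℝ) 1)
include hy

theorem pop_u2 : S.Pop (Icc 0 t₁) S.u2 t y = 2 * S.aa t y * dX S.u2 t y +
    (8 - S.Gam t y / 3) * S.u2 t y -
    (27 + S.th t y) * S.th t y * S.ze t y ^ 2 / (3 + S.th t y) ^ 2 := by
  have hy' := Ioo_subset_Icc_self hy
  have hy'' := Ioo_subset_Ico_self hy
  have h3 : 0 < 3 + S.th t y := by linarith [S.th_nonneg (t := t) hy']
  have hf := S.f2_pos (t := t) hy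
  have e1 := pop_congr (u := S.Sg) (v := fun s z => S.f2 s z * S.u2 s z) h.ti ht hy' S ro_Ico hy''
    fun s _ z hz => S.Sg_eq hz.2.ne
  rw [pop_mul h.ti ht hy' S (h.sm_f2.smAt ht hy') (h.sm_u2 ht hy''), h.pop_Sg ht hy',
    h.pop_f2 ht hy', h.dX_f2 ht hy', h.dX_Sg ht hy'', S.Sg_eq hy.2.ne] at e1
  have e2 : S.vt t y = S.th t y * S.hh t y * S.ze t y / (3 + S.th t y) := by
    rw [← h.vt_ze ht hy'']; field_simp
  have e3 : S.vt t y ^ 2 = S.f2 t y * (S.th t y * S.ze t y ^ 2 / (3 + S.th t y) ^ 2) := by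
    rw [e2, S.f2_eq]; field_simp
  rw [e3] at e1
  refine mul_left_cancel₀ hf.ne' ?_
  linear_combination -e1

theorem pop_u1 : S.Pop (Icc 0 t₁) S.u1 t y =
    (S.C1 t y + 2 * S.aa t y + 4 * S.ls t y) * dX S.u1 t y +
    S.cE t y * S.EE t y / S.sg t y ^ 2 * dX S.u2 t y +
    (-S.mu0 t y + 2 * (9 * S.f2 t y + 4 * S.bb t y ^ 2 * S.hh t y ^ 2) / S.sg t y +
      2 * S.ls t y ^ 2 + 2 * (S.C1 t y + 2 * S.aa t y) * S.ls t y) * S.u1 t y +
    (dX S.cE t y * S.EE t y / S.sg t y ^ 2 + S.cE t y * S.f2 t y * S.u1 t y) * S.u2 t y := by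
  have hy' := Ioo_subset_Icc_self hy
  have hy'' := Ioo_subset_Ico_self hy
  have hf := S.f2_pos (t := t) hy
  have hτ := ht.2.trans h.lt.le
  have hs := S.sg_pos (y := y) hτ
  have sf := h.sm_f2.smAt ht hy'
  have ss := h.sm_sg.smAt ht hy'
  have su := h.sm_u1.smAt ht hy'
  have e0 : ∀ s ∈ Icc 0 t₁, EqOn (S.nn s) ((fun s z => S.f2 s z * S.sg s z * S.sg s z * S.u1 s z) s)
      (Icc 0 1) := fun s hs z _ => by
    rw [S.nn_eq (hs.2.trans h.lt.le)]; ring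
  have e1 := pop_congr h.ti ht hy' S ro_Icc hy' e0
  have e2 := dX_congr_on (u := S.nn)
    (v := fun s z => S.f2 s z * S.sg s z * S.sg s z * S.u1 s z) ro_Icc (e0 t ht) hy'
  rw [dX_mul h.ti ht hy' ((sf.mul ss).mul ss) su, dX_mul h.ti ht hy' (sf.mul ss) ss,
    dX_mul h.ti ht hy' sf ss, h.dX_f2 ht hy', h.dX_sg ht hy'] at e2
  rw [pop_mul h.ti ht hy' S ((sf.mul ss).mul ss) su, pop_mul h.ti ht hy' S (sf.mul ss) ss,
    pop_mul h.ti ht hy' S sf ss, dX_mul h.ti ht hy' (sf.mul ss) ss, dX_mul h.ti ht hy' sf ss,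
    h.pop_nn ht hy', h.pop_f2 ht hy', h.pop_sg ht hy', h.dX_f2 ht hy', h.dX_sg ht hy', e2,
    dX_mul h.ti ht hy' ((h.sm_cE.smAt ht hy').mul (h.sm_Sg.smAt ht hy')) (h.sm_EE.smAt ht hy'),
    dX_mul h.ti ht hy' (h.sm_cE.smAt ht hy') (h.sm_Sg.smAt ht hy'), h.dX_EE ht hy',
    h.dX_Sg ht hy'', S.Sg_eq hy.2.ne, S.nn_eq hτ] at e1
  simp only [ls, mu0]
  field_simp
  refine mul_left_cancel₀ hf.ne' ?_
  linear_combination -e1

theorem pop_rho : S.Pop (Icc 0 t₁) S.rho t y =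
    -S.rho t y * (8 / 3 * (2 + S.th t y) + 4 / 9 * S.kk t y ^ 2) := by
  have hy' := Ioo_subset_Icc_self hy
  have hK := S.KK_pos (t := t) hy
  have e := pop_comp h.ti ht hy' S (h.sm_KK.smAt ht hy') (φ := fun x => x ^ (2 / 3 : ℝ))
    (φ' := fun x => 2 / 3 * x ^ (2 / 3 - 1 : ℝ))
    (d := 2 / 3 * ((2 / 3 - 1) * S.KK t y ^ (2 / 3 - 1 - 1 : ℝ)))
    (by
      filter_upwards [lt_mem_nhds hK] with x hx
      exact hasDerivAt_rpow_const (Or.inl hx.ne'))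
    ((hasDerivAt_rpow_const (Or.inl hK.ne')).const_mul _)
  change S.Pop (Icc 0 t₁) S.rho t y = _ at e
  rw [e, h.pop_KK ht hy', h.dX_KK ht hy', rpow_sub_one hK.ne', rpow_sub_one hK.ne',
    rpow_sub_one hK.ne']
  simp only [rho]
  field_simp
  ring

variable (hk : 0 < S.kk t y)
include hk

theorem dX_dX_Dr {u : Fn} (hu : SmAt (Icc 0 t₁) u t y) : dX (dX u) t y =
    dX S.rho t y ^ 2 * S.Dr (S.Dr u) t y + dX (dX S.rho) t y * S.Dr u t y := by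
  have hy' := Ioo_subset_Icc_self hy
  have e := dX_congr_on (u := dX u) (v := fun s z => S.Dr u s z * dX S.rho s z) (h.ro_kk ht)
    (fun z hz => h.dX_eq_Dr ht u hz.1 hz.2.ne') ⟨hy, hk⟩
  rw [e, dX_mul h.ti ht hy' (h.sm_Dr ht hy hk.ne' hu) ((h.sm_rho ht hy).dX h.ti ht hy'),
    h.dX_eq_Dr ht (S.Dr u) hy hk.ne']
  ring

theorem hT_eq {u : Fn} (hu : SmAt (Icc 0 t₁) u t y) : S.f2 t y * S.hT (Icc 0 t₁) u t y =
    S.Pop (Icc 0 t₁) u t y + 4 / 9 * S.kk t y ^ 2 * S.rho t y ^ 2 * S.Dr (S.Dr u) t y +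
      S.rho t y * (8 / 3 * (2 + S.th t y) + 4 / 9 * S.kk t y ^ 2) * S.Dr u t y := by
  have e1 := h.pop_rho ht hy
  have e2 := h.dX_dX_Dr ht hy hk hu
  have e3 := h.dX_eq_Dr ht u hy hk.ne'
  have e4 := h.dX_rho ht hy
  simp only [Pop] at e1
  simp only [hT, Pop, e2, e3]
  rw [e4] at e1 ⊢
  linear_combination (-S.Dr u t y) * e1

theorem smAt_hT {u : Fn} (hu : SmAt (Icc 0 t₁) u t y) :
    SmAt (Icc 0 t₁) (S.hT (Icc 0 t₁) u) t y := by
  have hy' := Ioo_subset_Icc_self hy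
  exact (hu.dT h.ti ht hy').sub (((h.sm_rho ht hy).dT h.ti ht hy').mul (h.sm_Dr ht hy hk.ne' hu))

theorem hT_Dr {u : Fn} (hu : SmAt (Icc 0 t₁) u t y) :
    S.hT (Icc 0 t₁) (S.Dr u) t y = S.Dr (S.hT (Icc 0 t₁) u) t y := by
  have hy' := Ioo_subset_Icc_self hy
  have sr := h.sm_rho ht hy
  have hr : dX S.rho t y ≠ 0 := by
    rw [h.dX_rho ht hy]
    have := S.rho_pos (t := t) hy
    positivity
  have e1 : dT (Icc 0 t₁) (S.Dr u) t y =
      dT (Icc 0 t₁) (fun s z => dX u s z / dX S.rho s z) t y :=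
    dT_congr ht fun s hs => by rw [h.dX_rho hs hy]; simp only [Dr]; ring
  have e2 := dT_eq (u := fun s z => dX u s z / dX S.rho s z) h.ti ht
    (((hu.dX h.ti ht hy').hasT hy').div ((sr.dX h.ti ht hy').hasT hy') hr)
  rw [dT_dX h.ti ht hy' hu, dT_dX h.ti ht hy' sr] at e2
  have e3 := h.dX_eq_Dr ht (S.hT (Icc 0 t₁) u) hy hk.ne'
  have e4 : dX (S.hT (Icc 0 t₁) u) t y = _ := dX_sub h.ti ht hy' (hu.dT h.ti ht hy')
    ((sr.dT h.ti ht hy').mul (h.sm_Dr ht hy hk.ne' hu))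
  rw [dX_mul h.ti ht hy' (sr.dT h.ti ht hy') (h.sm_Dr ht hy hk.ne' hu),
    h.dX_eq_Dr ht (S.Dr u) hy hk.ne'] at e4
  refine mul_right_cancel₀ hr ?_
  rw [← e3, e4]
  simp only [hT]
  rw [e1, e2, h.dX_eq_Dr ht u hy hk.ne']
  field_simp
  ring

/-- `∂̂_t` of a product of a function of `t` and a function of `ϱ`. -/
theorem hT_comp {φ ψ : ℝ → ℝ} {d e : ℝ} (hφ : HasDerivAt φ d t) (hψ : HasDerivAt ψ e (S.rho t y)) :
    S.hT (Icc 0 t₁) (fun s z => φ s * ψ (S.rho s z)) t y = d * ψ (S.rho t y) := by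
  have hy' := Ioo_subset_Icc_self hy
  have e1 := dT_eq (u := fun s z => φ s * ψ (S.rho s z)) h.ti ht
    (hφ.hasDerivWithinAt.mul (hψ.comp_hasDerivWithinAt t ((h.sm_rho ht hy).hasT hy')))
  have e2 := h.Dr_comp ht hy hk.ne' (φ := fun s x => φ s * ψ x) (hψ.const_mul (φ t))
  simp only [hT]
  rw [e1, e2]
  ring

theorem smAt_Err : SmAt (Icc 0 t₁) S.Err t y := by
  have hy' := Ioo_subset_Icc_self hy
  have hf := S.f2_pos (t := t) hy
  have sk := h.sm_kk.smAt ht hy'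
  have sr := h.sm_rho ht hy
  have sq := sr.div (h.sm_f2.smAt ht hy') hf.ne'
  have sE := h.sm_EE.smAt ht hy'
  have s1 := h.sm_Dr ht hy hk.ne' sE
  have s2 := h.sm_Dr ht hy hk.ne' s1
  have sa : SmAt (Icc 0 t₁) S.ca t y := ((smAt_const _).mul (sk.pow 2)).mul sq
  have sd : SmAt (Icc 0 t₁) S.cd t y :=
    sq.mul ((((smAt_const _).mul ((smAt_const _).add (h.sm_th.smAt ht hy'))).add
      ((smAt_const _).mul (sk.pow 2))).add (((smAt_const _).mul sk).mul (h.sm_C1.smAt ht hy')))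
  exact ((((sa.sub (smAt_const _)).mul sr).mul s2).add ((sd.sub (smAt_const _)).mul s1)).add
    (((h.sm_cE.smAt ht hy').mul (h.sm_u2 ht (Ioo_subset_Ico_self hy))).mul sE)

theorem id3_Dr_congr {u v : Fn} (e : ∀ z ∈ Ioo (0 : ℝ) 1, 0 < S.kk t z → u t z = v t z) :
    S.Dr u t y = S.Dr v t y := by
  have := dX_congr_on (u := u) (v := v) (h.ro_kk ht) (fun z hz => e z hz.1 hz.2) ⟨hy, hk⟩
  simp only [Dr, this]

theorem id3_hT_congr {u v : Fn}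
    (e : ∀ s ∈ Icc 0 t₁, ∀ z ∈ Ioo (0 : ℝ) 1, 0 < S.kk s z → u s z = v s z) :
    S.hT (Icc 0 t₁) u t y = S.hT (Icc 0 t₁) v t y := by
  have hc : Tendsto (fun s => S.kk s y) (𝓝[Icc 0 t₁] t) (𝓝 (S.kk t y)) :=
    ((h.sm_kk.smAt ht (Ioo_subset_Icc_self hy)).hasT (Ioo_subset_Icc_self hy)).continuousWithinAt
  have e1 : dT (Icc 0 t₁) u t y = dT (Icc 0 t₁) v t y := by
    refine Filter.EventuallyEq.derivWithin_eq ?_ (e t ht y hy hk)
    filter_upwards [self_mem_nhdsWithin, hc.eventually (lt_mem_nhds hk)] with s h1 h2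
    exact e s h1 y hy h2
  simp only [hT, e1, h.id3_Dr_congr ht hy hk (e t ht)]

omit hk in
theorem id3_Dr_sub {u v : Fn} (hu : SmAt (Icc 0 t₁) u t y) (hv : SmAt (Icc 0 t₁) v t y) :
    S.Dr (fun s z => u s z - v s z) t y = S.Dr u t y - S.Dr v t y := by
  simp only [Dr, dX_sub h.ti ht (Ioo_subset_Icc_self hy) hu hv]
  ring

theorem id3_Dr_step {W Z F : Fn} (hW : SmAt (Icc 0 t₁) W t y) (hZ : SmAt (Icc 0 t₁) Z t y)
    (hF : SmAt (Icc 0 t₁) F t y) (a b : ℝ) :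
    S.Dr (fun s z => a * S.rho s z * W s z + b * Z s z + F s z) t y =
      a * S.rho t y * S.Dr W t y + a * W t y + b * S.Dr Z t y + S.Dr F t y := by
  have hy' := Ioo_subset_Icc_self hy
  have sr := h.sm_rho ht hy
  have hr := S.rho_pos (t := t) hy
  simp only [Dr]
  rw [dX_add h.ti ht hy' ((((smAt_const a).mul sr).mul hW).add ((smAt_const b).mul hZ)) hF,
    dX_add h.ti ht hy' (((smAt_const a).mul sr).mul hW) ((smAt_const b).mul hZ),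
    dX_mul h.ti ht hy' ((smAt_const a).mul sr) hW, dX_mul h.ti ht hy' (smAt_const a) sr,
    dX_mul h.ti ht hy' (smAt_const b) hZ, dX_time h.ti ht hy' (fun _ => a),
    dX_time h.ti ht hy' (fun _ => b), h.dX_rho ht hy]
  field_simp
  ring

theorem id3_Z2 : S.Z2 t y =
    S.Dr (S.Dr S.EE) t y - (243 / 1120 * (S.τ₀ - t) - 243 / 8960 * S.rho t y) := by
  have hy' := Ioo_subset_Icc_self hy
  have sr := h.sm_rho ht hy
  have st : SmAt (Icc 0 t₁) (fun s _ => S.τ₀ - s) t y := (smAt_const _).sub smAt_t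
  have sP : SmAt (Icc 0 t₁) (fun s z => PP1 (S.τ₀ - s) (S.rho s z)) t y :=
    (((smAt_const _).mul (st.pow 2)).add (((smAt_const _).mul st).mul sr)).sub
      ((smAt_const _).mul (sr.pow 2))
  have e1 := h.id3_Dr_congr ht hy hk (u := S.Z1)
    (v := fun s z => S.Dr S.EE s z - PP1 (S.τ₀ - s) (S.rho s z))
    fun z hz _ => h.Z1_eq ht (Ioo_subset_Icc_self hz)
  have hd : HasDerivAt (fun r => PP1 (S.τ₀ - t) r)
      (243 / 1120 * (S.τ₀ - t) - 243 / 8960 * S.rho t y) (S.rho t y) := by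
    refine HasDerivAt.congr_deriv ((((hasDerivAt_id (S.rho t y)).const_mul
      (243 / 1120 * (S.τ₀ - t))).const_add (-(27 / 40) * (S.τ₀ - t) ^ 2)).sub
      ((hasDerivAt_pow 2 (S.rho t y)).const_mul (243 / 17920))) ?_
    push_cast
    ring
  simp only [Z2]
  rw [e1, h.id3_Dr_sub ht hy (h.sm_Dr ht hy hk.ne' (h.sm_EE.smAt ht hy')) sP,
    h.Dr_comp ht hy hk.ne' (φ := fun s r => PP1 (S.τ₀ - s) r) hd]

theorem hT_Z0 : S.hT (Icc 0 t₁) S.Z0 t y =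
    16 / 9 * S.rho t y * S.Z2 t y + 40 / 9 * S.Z1 t y + S.Err t y := by
  have hy' := Ioo_subset_Icc_self hy
  have hf := S.f2_pos (t := t) hy
  have sr := h.sm_rho ht hy
  have sE := h.sm_EE.smAt ht hy'
  have eE := h.hT_eq ht hy hk sE
  have en : S.nn t y = S.Dr S.EE t y * (2 / 3 * S.kk t y * S.rho t y) := by
    rw [← h.dX_EE ht hy', h.dX_eq_Dr ht S.EE hy hk.ne', h.dX_rho ht hy]
  rw [h.pop_EE ht hy', en, S.Sg_eq hy.2.ne] at eE
  have eE' : S.hT (Icc 0 t₁) S.EE t y = 16 / 9 * S.rho t y * S.Dr (S.Dr S.EE) t y +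
      40 / 9 * S.Dr S.EE t y + S.Err t y := by
    refine mul_left_cancel₀ hf.ne' ?_
    rw [eE]
    simp only [Err, ca, cd]
    field_simp
    ring
  have hτ : HasDerivWithinAt (fun s => S.τ₀ - s) (-1) (Icc 0 t₁) t :=
    ((hasDerivAt_id t).const_sub S.τ₀).hasDerivWithinAt
  have hr := sr.hasT hy'
  have eT : dT (Icc 0 t₁) S.Z0 t y = _ := dT_eq h.ti ht ((sE.hasT hy').sub
    ((((hτ.pow 3).sub (((hτ.pow 2).const_mul (27 / 40)).mul hr)).add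
      ((hτ.const_mul (243 / 2240)).mul (hr.pow 2))).sub ((hr.pow 3).const_mul (81 / 17920))))
  simp only [hT] at eE' ⊢
  rw [eT, h.Dr_Z0 ht hy hk.ne', h.id3_Z2 ht hy hk, h.Z1_eq ht hy']
  simp only [PP1, Pi.pow_apply]
  push_cast
  linear_combination eE'

theorem hT_Z1 : S.hT (Icc 0 t₁) S.Z1 t y =
    16 / 9 * S.rho t y * S.Z3 t y + 56 / 9 * S.Z2 t y + S.Dr S.Err t y := by
  have s1 := h.sm_Z1 ht hy hk.ne'
  rw [h.id3_hT_congr ht hy hk (u := S.Z1) (v := S.Dr S.Z0)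
      fun s hs z hz hk => (h.Dr_Z0 hs hz hk.ne').symm,
    h.hT_Dr ht hy hk (h.sm_Z0 ht hy),
    h.id3_Dr_congr ht hy hk (v := fun s z => 16 / 9 * S.rho s z * S.Z2 s z + 40 / 9 * S.Z1 s z +
      S.Err s z) fun z hz hk => h.hT_Z0 ht hz hk,
    h.id3_Dr_step ht hy hk (W := S.Z2) (h.sm_Dr ht hy hk.ne' s1) s1 (h.smAt_Err ht hy hk)]
  simp only [Z3, Z2]
  ring

theorem hT_Z2 : S.hT (Icc 0 t₁) S.Z2 t y =
    16 / 9 * S.rho t y * S.Dr S.Z3 t y + 72 / 9 * S.Z3 t y + S.Dr (S.Dr S.Err) t y := by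
  have s1 := h.sm_Z1 ht hy hk.ne'
  have s2 : SmAt (Icc 0 t₁) S.Z2 t y := h.sm_Dr ht hy hk.ne' s1
  have s3 : SmAt (Icc 0 t₁) S.Z3 t y := h.sm_Dr ht hy hk.ne' s2
  have e : S.hT (Icc 0 t₁) S.Z2 t y = _ := h.hT_Dr ht hy hk s1
  rw [e, h.id3_Dr_congr ht hy hk (v := fun s z => 16 / 9 * S.rho s z * S.Z3 s z +
      56 / 9 * S.Z2 s z + S.Dr S.Err s z) fun z hz hk => h.hT_Z1 ht hz hk,
    h.id3_Dr_step ht hy hk s3 s2 (h.sm_Dr ht hy hk.ne' (h.smAt_Err ht hy hk))]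
  simp only [Z3]
  ring

theorem hT_Z3 : S.hT (Icc 0 t₁) S.Z3 t y =
    16 / 9 * S.rho t y * S.Dr (S.Dr S.Z3) t y + 88 / 9 * S.Dr S.Z3 t y +
      S.Dr (S.Dr (S.Dr S.Err)) t y := by
  have s1 := h.sm_Z1 ht hy hk.ne'
  have s2 : SmAt (Icc 0 t₁) S.Z2 t y := h.sm_Dr ht hy hk.ne' s1
  have s3 : SmAt (Icc 0 t₁) S.Z3 t y := h.sm_Dr ht hy hk.ne' s2
  have e : S.hT (Icc 0 t₁) S.Z3 t y = _ := h.hT_Dr ht hy hk s2
  rw [e, h.id3_Dr_congr ht hy hk (v := fun s z => 16 / 9 * S.rho s z * S.Dr S.Z3 s z +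
      72 / 9 * S.Z3 s z + S.Dr (S.Dr S.Err) s z) fun z hz hk => h.hT_Z2 ht hz hk,
    h.id3_Dr_step ht hy hk (h.sm_Dr ht hy hk.ne' s3) s3
      (h.sm_Dr ht hy hk.ne' (h.sm_Dr ht hy hk.ne' (h.smAt_Err ht hy hk)))]
  ring

theorem Z3_eq : S.Z3 t y = S.Dr (S.Dr (S.Dr S.EE)) t y + 243 / 8960 := by
  have hy' := Ioo_subset_Icc_self hy
  have sr := h.sm_rho ht hy
  have st : SmAt (Icc 0 t₁) (fun s _ => S.τ₀ - s) t y := (smAt_const _).sub smAt_t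
  have s2 := h.sm_Dr ht hy hk.ne' (h.sm_Dr ht hy hk.ne' (h.sm_EE.smAt ht hy'))
  have hd : HasDerivAt (fun r => 243 / 1120 * (S.τ₀ - t) - 243 / 8960 * r) (-(243 / 8960 * 1))
      (S.rho t y) := ((hasDerivAt_id (S.rho t y)).const_mul (243 / 8960)).const_sub _
  simp only [Z3]
  rw [h.id3_Dr_congr ht hy hk (v := fun s z => S.Dr (S.Dr S.EE) s z -
      (243 / 1120 * (S.τ₀ - s) - 243 / 8960 * S.rho s z)) fun z hz hk => h.id3_Z2 ht hz hk,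
    h.id3_Dr_sub ht hy s2 (((smAt_const _).mul st).sub ((smAt_const _).mul sr)),
    h.Dr_comp ht hy hk.ne' (φ := fun s r => 243 / 1120 * (S.τ₀ - s) - 243 / 8960 * r) hd]
  ring

end Sol

end St

end

end Vale.Agent.P244
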