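import Vale.Agent.P244.A.Fam
import Vale.Agent.P244.A.Id3
import Vale.Agent.P244.D.Good
import Vale.Agent.P244.D.Cong

/-!
BLOCK D (notes/P244.md, Part A-D): estimates for the initial data, uniform in `δ`, `τ₀`, `c`.
-/

namespace Vale.Agent.P244

open scoped ContDiff Topology
open Set Filter Real

/-- Admissible initial data. -/
structure DOk (δ : ℝ) (S : St) (c : Fin 3 → ℝ) : Prop where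
  δ0 : 0 < δ
  δ1 : δ ≤ 1 / 100
  τ0 : 0 < S.τ₀
  τ1 : S.τ₀ ≤ 1 / 100
  data : Data δ S c

theorem ev_dok {κ : Cst} (hκ : κ.Adm) : ∀ᶠ r in fam κ, DOk κ.δ r.S r.c := by
  filter_upwards [ev_tau κ (ε := fun _ => 1 / 100) fun _ _ => by norm_num] with r hr
  exact ⟨hκ.δ, hκ.δ', r.sol.pos.trans r.sol.lt, hr, r.data⟩

/-- The parameters of admissible data. -/
def DOk.par {δ : ℝ} {S : St} {c : Fin 3 → ℝ} (h : DOk δ S c) : Par :=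
  ⟨δ, S.τ₀, c, h.δ0, h.δ1, h.τ0, h.τ1, h.data.cube⟩

theorem DOk.eA {δ : ℝ} {S : St} {c : Fin 3 → ℝ} (h : DOk δ S c) :
    EqOn (S.A 0) (h.par.S.A 0) (Icc 0 1) := h.data.A

theorem DOk.eβ {δ : ℝ} {S : St} {c : Fin 3 → ℝ} (h : DOk δ S c) :
    EqOn (S.β 0) (h.par.S.β 0) (Icc 0 1) := h.data.β

theorem data_H {δ : ℝ} {S : St} {c : Fin 3 → ℝ} (h : DOk δ S c) {y : ℝ} (hy : y ∈ Icc (0 : ℝ) 1) :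
    (y + S.τ₀ ^ 3) / 2 ≤ S.HH 0 y ∧ S.HH 0 y ≤ 3 / 2 * y + 2 * S.τ₀ ^ 3 ∧
      2 * S.A 0 y + S.β 0 y = 0 := by
  rw [cong_HH h.eβ hy, h.par.S_HH hy, h.eA hy, h.eβ hy]
  exact ⟨h.par.H_lo hy, h.par.H_hi hy, S0_sum _ _ _ _ _⟩

theorem data_X (n : ℕ) : ∃ M, ∀ δ S c, DOk δ S c → ∀ i, 1 ≤ i → i ≤ n → ∀ y ∈ Icc (0 : ℝ) 1,
    |XX^[i] S.A 0 y| ≤ M ∧ |XX^[i] S.β 0 y| ≤ M := by
  obtain ⟨M, hM⟩ := x_est n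
  refine ⟨M, fun δ S c h i i1 i2 y hy => ?_⟩
  rw [XX_iter_congr h.eA i hy, XX_iter_congr h.eβ i hy]
  exact hM h.par i i1 i2 y hy

theorem data_u (n : ℕ) : ∃ M, ∀ δ S c, DOk δ S c → ∀ i ≤ n, ∀ y ∈ Icc (0 : ℝ) (1 / 4),
    |dX^[i] S.u1 0 y| ≤ M ∧ |dX^[i] S.u2 0 y| ≤ M := by
  obtain ⟨M, hM⟩ := u_est n
  refine ⟨M, fun δ S c h i hi y hy => ?_⟩
  have m : y ∈ Icc (0 : ℝ) 1 := ⟨hy.1, by linarith [hy.2]⟩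
  rw [dX_iter_congr (cong_u1 (S := S) (S' := h.par.S) rfl h.eA h.eβ) i m,
    dX_iter_congr (cong_u2 h.eA h.eβ) i m]
  exact hM h.par i hi y hy

theorem data_Z3 : ∃ M, ∀ δ S c, DOk δ S c → ∀ y ∈ Icc (S.τ₀ ^ 2) (1 / 4),
    |S.Z3 0 y| ≤ M * (S.τ₀ ^ 4 * S.rho 0 y ^ (-(7 / 2) : ℝ) + y + S.τ₀) := by
  obtain ⟨C, C0, hC⟩ := z_est
  refine ⟨C * 4, fun δ S c h y hy => ?_⟩
  have m : y ∈ Icc (0 : ℝ) 1 := ⟨(sq_nonneg _).trans hy.1, by linarith [hy.2]⟩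
  rw [cong_Z3 (S := S) (S' := h.par.S) rfl h.eA h.eβ m, cong_rho h.eA h.eβ m, h.par.S_rho, mul_assoc]
  exact (hC h.par y hy).2.2.trans (mul_le_mul_of_nonneg_left (h.par.wZ_le hy) C0)

theorem data_good : ∃ M, ∀ κ : Cst, κ.Adm → M ≤ κ.A1 → M ≤ κ.Am → M ≤ κ.AE → M ≤ κ.AS →
    ∃ s₀ > 0, ∀ s ∈ Ioc 0 s₀, ∃ τ₁ > 0, ∀ τ₀ ∈ Ioc 0 τ₁, GoodData (κ.ws s) τ₀ := by
  obtain ⟨M, hM⟩ := good_tr
  refine ⟨M, fun κ hκ a1 am ae as => ⟨1 / 2, by norm_num, fun s hs => ?_⟩⟩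
  have η1 : κ.η ≤ 1 / 1000 := (le_mul_of_one_le_right hκ.η.le hκ.Am).trans hκ.ηA
  obtain ⟨τ₁, τ1, hτ⟩ := good_ex (κ.ws s) hκ.η η1 hκ.δ hs.1 hs.2
  have s0 := hs.1
  refine ⟨min (min τ₁ (1 / 100)) (min (s / 2) (s ^ 2)), by positivity, fun τ₀ ht => ?_⟩
  obtain ⟨⟨t1, t2⟩, t3, t4⟩ : (τ₀ ≤ τ₁ ∧ τ₀ ≤ 1 / 100) ∧ τ₀ ≤ s / 2 ∧ τ₀ ≤ s ^ 2 := by
    simpa only [le_min_iff] using ht.2
  let p : Par := ⟨κ.δ, τ₀, fun _ => 0, hκ.δ, hκ.δ', ht.1, t2, fun _ => by simp⟩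
  refine ⟨fun c hc => (p.wc ⟨c, hc⟩).smooth, fun m => ?_, fun y hy => p.cont hy,
    fun c hc => hM (κ.ws s) a1 am ae as hs.1 hs.2 (p.wc ⟨c, hc⟩) t3, fun c => ?_, hτ p rfl t1⟩
  · obtain ⟨N, hN⟩ := p.cm m
    exact ⟨N, fun c hc => hN ⟨c, hc⟩⟩
  · rw [S0_rho]
    exact good_lev η1 ht.1 t4 hs.1 hs.2


end Vale.Agent.P244
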