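import Vale.Agent.P244.Good
import Vale.Agent.P244.Kit.Sy
import Vale.Agent.P244.Kit.MP

/-!
The filter of trapped runs: first the constants `κ` (without `s`), then `s` small, then `τ₀` small.
`∀ᶠ r in fam κ, p r` means: for all small `s`, for all small `τ₀`, every trapped run satisfies `p`.
Constants chosen before the filter do not depend on `s`, `τ₀`; constants of the form `C r.s` may
depend on `s`.
-/

namespace Vale.Agent.P244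

open scoped ContDiff Topology
open Set Filter Real

noncomputable section

/-- Replace `s`. -/
def Cst.ws (κ : Cst) (s : ℝ) : Cst := { κ with s := s }

/-- Admissible constants. -/
structure Cst.Adm (κ : Cst) : Prop where
  A1 : 1 ≤ κ.A1
  Am : 1 ≤ κ.Am
  AE : 1 ≤ κ.AE
  AS : 1 ≤ κ.AS
  η : 0 < κ.η
  ηA : κ.η * κ.Am ≤ 1 / 1000
  δ : 0 < κ.δ
  δ' : κ.δ ≤ 1 / 100

/-- A trapped run. -/
structure Rn (κ : Cst) where
  s : ℝ
  S : St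
  c : Fin 3 → ℝ
  t₁ : ℝ
  hs : 0 < s
  run : Run (κ.ws s) S c t₁

namespace Rn

variable {κ : Cst} (r : Rn κ)

/-- The time interval. -/
abbrev I : Set ℝ := Icc 0 r.t₁

/-- `τ`. -/
abbrev tau (t : ℝ) : ℝ := r.S.τ₀ - t

theorem sol : r.S.Sol r.t₁ := r.run.sol

theorem data : Data κ.δ r.S r.c := r.run.data

theorem ti : TI r.I := ti_Icc r.run.sol.pos

theorem tau_pos {t : ℝ} (ht : t ∈ r.I) : 0 < r.tau t := by
  have := r.run.sol.lt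
  have := ht.2
  simp only [tau]
  linarith

theorem tau_le {t : ℝ} (ht : t ∈ r.I) : r.tau t ≤ r.S.τ₀ := by
  have := ht.1
  simp only [tau]
  linarith

theorem tr {t : ℝ} (ht : t ∈ r.I) : Tr (κ.ws r.s) r.S 1 t := (r.run.trap t ht).1

theorem ex {t : ℝ} (ht : t ∈ r.I) : ∃ x, Ex (κ.ws r.s) r.S t x ∧ ∀ j, |x j| ≤ 1 :=
  (r.run.trap t ht).2

end Rn

/-- First `s` small, then `τ₀` small. -/
def fam (κ : Cst) : Filter (Rn κ) where
  sets := {U | ∃ s₀ > 0, ∀ s ∈ Ioc 0 s₀, ∃ τ₁ > 0, ∀ r : Rn κ, r.s = s → r.S.τ₀ ≤ τ₁ → r ∈ U}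
  univ_sets := ⟨1, one_pos, fun _ _ => ⟨1, one_pos, fun _ _ _ => trivial⟩⟩
  sets_of_superset := fun ⟨s₀, h0, h⟩ hUV => ⟨s₀, h0, fun s hs =>
    let ⟨τ₁, h1, h2⟩ := h s hs
    ⟨τ₁, h1, fun r e e' => hUV (h2 r e e')⟩⟩
  inter_sets := fun ⟨s₀, h0, h⟩ ⟨s₀', h0', h'⟩ => ⟨min s₀ s₀', lt_min h0 h0', fun s hs =>
    let ⟨τ₁, h1, h2⟩ := h s ⟨hs.1, hs.2.trans (min_le_left _ _)⟩
    let ⟨τ₁', h1', h2'⟩ := h' s ⟨hs.1, hs.2.trans (min_le_right _ _)⟩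
    ⟨min τ₁ τ₁', lt_min h1 h1', fun r e e' =>
      ⟨h2 r e (e'.trans (min_le_left _ _)), h2' r e (e'.trans (min_le_right _ _))⟩⟩⟩

theorem eventually_fam {κ : Cst} {p : Rn κ → Prop} : (∀ᶠ r in fam κ, p r) ↔
    ∃ s₀ > 0, ∀ s ∈ Ioc 0 s₀, ∃ τ₁ > 0, ∀ r : Rn κ, r.s = s → r.S.τ₀ ≤ τ₁ → p r := Iff.rfl

theorem ev_s (κ : Cst) {ε : ℝ} (h : 0 < ε) : ∀ᶠ r in fam κ, r.s ≤ ε :=
  ⟨ε, h, fun _ hs => ⟨1, one_pos, fun _ e _ => by simp only [mem_setOf_eq, e]; exact hs.2⟩⟩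

theorem ev_tau (κ : Cst) {ε : ℝ → ℝ} (h : ∀ s > 0, 0 < ε s) : ∀ᶠ r in fam κ, r.S.τ₀ ≤ ε r.s :=
  ⟨1, one_pos, fun s hs => ⟨ε s, h s hs.1, fun _ e e' => by simp only [mem_setOf_eq, e]; exact e'⟩⟩

theorem ev_mul_s (κ : Cst) (C : ℝ) {ε : ℝ} (h : 0 < ε) : ∀ᶠ r in fam κ, C * r.s ≤ ε := by
  filter_upwards [ev_s κ (div_pos h (by positivity : 0 < |C| + 1))] with r hr
  have h1 := r.hs
  rw [le_div_iff₀ (by positivity)] at hr
  nlinarith [le_abs_self C]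

theorem ev_mul_tau (κ : Cst) (C : ℝ → ℝ) {ε : ℝ → ℝ} (h : ∀ s > 0, 0 < ε s) :
    ∀ᶠ r in fam κ, C r.s * r.S.τ₀ ≤ ε r.s := by
  filter_upwards [ev_tau κ (ε := fun s => ε s / (|C s| + 1))
    fun s hs => div_pos (h s hs) (by positivity)] with r hr
  have h1 : 0 < r.S.τ₀ := r.run.sol.pos.trans r.run.sol.lt
  rw [le_div_iff₀ (by positivity)] at hr
  nlinarith [le_abs_self (C r.s)]

/-- Constants depending on `s`: it suffices to find them for each fixed `s`. -/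
theorem ev_choose {κ : Cst} {q : Rn κ → Prop} {p : ℝ → Rn κ → Prop} (hq : ∀ᶠ r in fam κ, q r)
    (h : ∀ s > 0, ∃ C, ∀ r, r.s = s → q r → p C r) :
    ∃ C : ℝ → ℝ, ∀ᶠ r in fam κ, p (C r.s) r := by
  choose! C hC using h
  exact ⟨C, hq.mono fun r hr => hC r.s r.hs r rfl hr⟩

/-- The index type (run with property `q`, time) for the symbol calculus. -/
abbrev Ix {κ : Cst} (q : Rn κ → Prop) : Type := {x : Rn κ × ℝ // q x.1 ∧ x.2 ∈ x.1.I}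

end

end Vale.Agent.P244
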