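import Vale.Agent.P244.A.P0
import Vale.Agent.P244.F.Der

/-!
BLOCK Far (notes/P244.md, Part A-F): away from `y = 0` nothing moves in time `τ₀`.
-/

namespace Vale.Agent.P244

open scoped ContDiff Topology
open Set Filter Real

variable {κ : Cst}

theorem far_bd (hκ : κ.Adm) (n : ℕ) : ∃ C : ℝ → ℝ, ∀ᶠ r in fam κ, ∀ i ≤ n, ∀ t ∈ r.I,
    ∀ y ∈ Icc (r.s ^ 3) 1, |dY^[i] r.S.A t y| ≤ C r.s ∧ |dY^[i] r.S.β t y| ≤ C r.s := by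
  exact far_bd' hκ n

theorem far_X (hκ : κ.Adm) {ε : ℝ} (hε : 0 < ε) : ∀ᶠ r in fam κ, ∀ i ≤ 2, ∀ t ∈ r.I,
    ∀ y ∈ Icc (r.s ^ 3) 1, |XX^[i] r.S.A t y - XX^[i] r.S.A 0 y| ≤ ε ∧
      |XX^[i] r.S.β t y - XX^[i] r.S.β 0 y| ≤ ε := by
  exact far_X' hκ hε

theorem far_u (hκ : κ.Adm) (n : ℕ) {ε : ℝ} (hε : 0 < ε) : ∀ᶠ r in fam κ, ∀ i ≤ n, ∀ t ∈ r.I,
    |dX^[i] r.S.u1 t (r.s ^ 3) - dX^[i] r.S.u1 0 (r.s ^ 3)| ≤ ε ∧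
      |dX^[i] r.S.u2 t (r.s ^ 3) - dX^[i] r.S.u2 0 (r.s ^ 3)| ≤ ε := by
  exact far_u' hκ n hε

theorem far_Z3 (hκ : κ.Adm) {ε : ℝ} (hε : 0 < ε) : ∀ᶠ r in fam κ, ∀ t ∈ r.I,
    |r.S.Z3 t (r.s ^ 3) - r.S.Z3 0 (r.s ^ 3)| ≤ ε := by
  exact far_Z3' hκ hε


end Vale.Agent.P244
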