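import Vale.Agent.P244.A.P1

/-!
Improvement of `F1` and of the bound on `h`.
Plan `f_F1`: on `[s³, 1]` use `far_X` with `ε = 1` and `data_X 2`.  On `[0, s³]`:
`2 (1 - y) X A = a - c`, `2 (1 - y) X β = b` are bounded by `BasI`; `a' = -θ'/3 + Σ'/3 - ϑ'`,
`b' = ϑ' + 2 θ'/3` (`aa_eq`, `bb_eq`, `dX_congr_on`), `|θ'| ≤ 2 * 2 * 2`, and `|Σ'| ≤ C f²`,
`|ϑ'| ≤ C θ (σ² / h + h²) ≤ C' s` (`IC.Sg`, `IC.vt` in the context `J = Ico 0 1`,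
`Ω = Icc 0 (s³)`, `N = 1`, built from `p0_ab`, `p1` with `sy_of_iter`), which is `≤ 1` for small `s`;
finally `dX (dX u) = 4 (1 - y) ((1 - y) X X u - y X u)` and `dX_aa`.
`f_h`: `h t (s³) ≤ e^{1/10} h 0 (s³)`, `h 0 (s³) ^ 3 ≤ 3/2 s³ + 2 τ₀³ ≤ 2 s³`, monotonicity of `h`;
`K t (s³) ≥ e^{-3/10} s³ (1 - s³) ≥ s³ / 2`, so `ϱ³ ≥ s⁶ / 4 > (2 η τ₀)³` for small `τ₀`.
-/

namespace Vale.Agent.P244

open scoped ContDiff Topology
open Set Filter Real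

/-- The inner context without top weight. -/
noncomputable def fin1_ctx {κ : Cst} (q : Rn κ → Prop) (hq : ∀ r, q r → r.s ^ 3 < 1) : Ctx (Ix q) :=
  ⟨fun y => 2 * (y * (1 - y)), fun _ => Ico 0 1, fun i => Icc 0 (i.1.1.s ^ 3), fun _ _ => 1,
    by fun_prop, fun _ => ro_Ico, fun i _ hy => ⟨hy.1, hy.2.trans_lt (hq _ i.2.1)⟩,
    fun _ _ _ => le_rfl⟩

theorem fin1_sy {κ : Cst} {q : Rn κ → Prop} {hq : ∀ r, q r → r.s ^ 3 < 1} {g : St → Fn} {C : ℝ}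
    (hs : ∀ r : Rn κ, ∀ t ∈ r.I, ∀ y ∈ Ico (0 : ℝ) 1, SmAt r.I (g r.S) t y)
    (hb : ∀ r, q r → ∀ i ≤ 1, ∀ t ∈ r.I, ∀ y ∈ Icc 0 (r.s ^ 3), |dX^[i] (g r.S) t y| ≤ C) :
    (fin1_ctx q hq).Sy (0 + 1) (fun _ _ => 1) (F g) := by
  refine ⟨fun i y hy => (hs _ _ i.2.2 y hy).slice i.2.2, ⟨max C 0, le_max_right _ _,
    fun i y hy => ?_⟩, max C 0, le_max_right _ _, fun i y hy => ?_⟩
  · rw [abs_one, mul_one]
    exact (hb _ i.2.1 0 zero_le_one _ i.2.2 y hy).trans (le_max_left _ _)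
  · have e : |(1 : ℝ) * (fin1_ctx q hq).N i y| = 1 := by simp [fin1_ctx]
    rw [e, mul_one]
    exact (hb _ i.2.1 1 le_rfl _ i.2.2 y hy).trans (le_max_left _ _)

theorem fin1_small {κ : Cst} (hκ : κ.Adm) : ∀ᶠ r in fam κ, ∀ t ∈ r.I, ∀ y ∈ Icc 0 (r.s ^ 3),
    |dX r.S.Sg t y| ≤ 1 ∧ |dX r.S.vt t y| ≤ 1 := by
  obtain ⟨C1, h1⟩ := p0_ab hκ 1
  obtain ⟨C2, h2⟩ := p1 hκ 1
  have hq := ((bas_I hκ).and (ev_s κ (ε := 1 / 2) (by norm_num))).and (h1.and h2)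
  generalize hqe : (fun r : Rn κ => _) = q at hq
  have hq' := fun r => (congrFun hqe r).mpr
  have hs : ∀ r, q r → r.s ^ 3 < 1 := fun r hr =>
    pow_lt_one₀ r.hs.le ((hq' r hr).1.2.trans_lt (by norm_num)) (by norm_num)
  have sub : ∀ r, q r → ∀ y ∈ Icc 0 (r.s ^ 3), y ∈ Icc (0 : ℝ) 1 := fun r hr y hy =>
    ⟨hy.1, hy.2.trans (hs r hr).le⟩
  have hc : IC (fin1_ctx q hs) 0 := ⟨rfl, fun _ => subset_rfl,
    fun i y hy => (hq' _ i.2.1).1.1 _ i.2.2 y hy,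
    fin1_sy (fun r t ht y hy => r.sol.sm_aa.smAt ht (Ico_subset_Icc_self hy))
      fun r hr i hi t ht y hy => ((hq' r hr).2.1 i hi t ht y (sub r hr y hy)).1,
    fin1_sy (fun r t ht y hy => r.sol.sm_bb.smAt ht (Ico_subset_Icc_self hy))
      fun r hr i hi t ht y hy => ((hq' r hr).2.1 i hi t ht y (sub r hr y hy)).2⟩
  have u1 : (fin1_ctx q hs).Sy (0 + 1) (fun _ _ => 1) (F St.u1) :=
    fin1_sy (fun r t ht y hy => r.sol.sm_u1.smAt ht (Ico_subset_Icc_self hy))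
      fun r hr i hi t ht y hy => ((hq' r hr).2.2 i hi t ht y hy).1
  have u2 : (fin1_ctx q hs).Sy (0 + 1) (fun _ _ => 1) (F St.u2) :=
    fin1_sy (fun r t ht y hy => r.sol.sm_u2 ht hy)
      fun r hr i hi t ht y hy => ((hq' r hr).2.2 i hi t ht y hy).2
  obtain ⟨C3, c3, h3⟩ := (hc.Sg le_rfl u2).D.top
  obtain ⟨C4, c4, h4⟩ := (hc.vt le_rfl u1 u2).D.top
  filter_upwards [hq, ev_mul_s κ (2 * C3) one_pos, ev_mul_s κ (40 * C4) one_pos]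
    with r hr s3 s4 t ht y hy
  have b := (hq' r hr).1.1 t ht y hy
  have a3 : |dX r.S.Sg t y| ≤ C3 * |r.S.f2 t y * 1| := h3 ⟨(r, t), hr, ht⟩ y hy
  have a4 : |dX r.S.vt t y| ≤
      C4 * |r.S.th t y * (r.S.sg t y ^ 2 / r.S.hh t y + r.S.hh t y ^ 2) * 1| :=
    h4 ⟨(r, t), hr, ht⟩ y hy
  have hh : r.S.hh t y ≤ (1 + 1) * r.s := ((r.tr ht).I y hy).h
  have h0 := r.S.hh_pos t y
  have t0 := r.S.th_nonneg (t := t) (sub r hr y hy)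
  have g0 := r.S.sg_pos (y := y) (sub_nonneg.1 (r.tau_pos ht).le)
  have e1 : r.S.hh t y ^ 2 ≤ r.S.hh t y / 5 := by nlinarith [b.h]
  have e2 : r.S.sg t y ^ 2 / r.S.hh t y ≤ 9 * r.S.hh t y := by
    rw [div_le_iff₀ h0]
    nlinarith [b.sg]
  rw [mul_one, abs_of_nonneg (r.S.f2_nonneg (sub r hr y hy)), St.f2_eq] at a3
  rw [mul_one, abs_of_nonneg (mul_nonneg t0 (by positivity))] at a4
  have e3 : r.S.th t y * r.S.hh t y ^ 2 ≤ 2 * r.s :=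
    (mul_le_mul b.th e1 (by positivity) two_pos.le).trans (by linarith)
  have e4 : r.S.th t y * (r.S.sg t y ^ 2 / r.S.hh t y + r.S.hh t y ^ 2) ≤ 40 * r.s :=
    (mul_le_mul b.th (add_le_add e2 e1) (by positivity) two_pos.le).trans (by linarith)
  exact ⟨by linarith [mul_le_mul_of_nonneg_left e3 c3], by linarith [mul_le_mul_of_nonneg_left e4 c4]⟩

theorem fin1_div {k Z a b : ℝ} (ha : 0 < a) (hk : a ≤ k) (h : |k * Z| ≤ a * b) : |Z| ≤ b := by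
  rw [abs_mul, abs_of_pos (ha.trans_le hk)] at h
  exact le_of_mul_le_mul_left ((mul_le_mul_of_nonneg_right hk (abs_nonneg Z)).trans h) ha

theorem fin1_two {I : Set ℝ} {u : Fn} {t y : ℝ} (h : SmAt I u t y) (hI : TI I) (ht : t ∈ I)
    (hy : y ∈ Icc (0 : ℝ) (1 / 1000)) (h1 : |dX u t y| ≤ 2) (h2 : |dX (dX u) t y| ≤ 11) :
    |XX u t y| ≤ 4 ∧ |XX (XX u) t y| ≤ 4 := by
  have hy' : y ∈ Icc (0 : ℝ) 1 := ⟨hy.1, hy.2.trans (by norm_num)⟩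
  have e : 4 * (1 - y) ^ 2 * XX (XX u) t y = dX (dX u) t y + 2 * y * dX u t y := by
    rw [St.XX_XX t y h hI ht hy', St.dX_dX t y h hI ht hy', dX]
    ring
  refine ⟨fin1_div one_pos (k := 2 * (1 - y)) (by linarith [hy.2]) ?_,
    fin1_div three_pos (k := 4 * (1 - y) ^ 2) (by nlinarith [hy.1, hy.2]) ?_⟩
  · rw [← St.dX_eq_XX]
    linarith
  · rw [e]
    refine (abs_add_le _ _).trans ?_
    rw [abs_mul, abs_of_nonneg (mul_nonneg two_pos.le hy.1)]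
    nlinarith [hy.1, hy.2, abs_nonneg (dX u t y)]

theorem fin1_inner {S : St} {t₁ t y : ℝ} (h : S.Sol t₁) (ht : t ∈ Icc 0 t₁) (b : BasI S t y)
    (h1 : |dX S.Sg t y| ≤ 1) (h2 : |dX S.vt t y| ≤ 1) :
    (|XX S.A t y| ≤ 4 ∧ |XX (XX S.A) t y| ≤ 4) ∧ |XX S.β t y| ≤ 4 ∧ |XX (XX S.β) t y| ≤ 4 := by
  have hy : y ∈ Icc (0 : ℝ) 1 := ⟨b.mem.1, b.mem.2.trans (by norm_num)⟩
  have e1 : dX S.Sg t y = 3 * (dX S.aa t y + dX S.bb t y) - dX S.th t y := by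
    rw [id1_dX (u := S.Sg) hy (((((h.sm_aa.hasY ht hy).add (h.sm_bb.hasY ht hy)).const_mul
      3).sub_const 3).sub (h.sm_th.hasY ht hy))]
    simp only [dX]
    ring
  have e2 : dX S.vt t y = dX S.bb t y - 2 / 3 * dX S.th t y := by
    rw [id1_dX (u := S.vt) hy ((h.sm_bb.hasY ht hy).sub ((h.sm_th.hasY ht hy).const_mul (2 / 3)))]
    simp only [dX]
    ring
  have t0 := S.th_nonneg (t := t) hy
  have t1 := b.th
  obtain ⟨a0, a1⟩ := b.a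
  obtain ⟨b0, b1⟩ := b.b
  have e3 : |dX S.th t y| ≤ 8 := by
    rw [h.dX_th ht hy, abs_le]
    constructor <;> nlinarith
  have e4 := h.dX_aa ht hy
  have e5 : S.aa t y = 1 - 2 * y + dX S.A t y := rfl
  have e6 : S.bb t y = dX S.β t y := rfl
  have e7 : dX S.bb t y = dX (dX S.β) t y := rfl
  have v0 := St.id0_v hy
  have v1 : y * (1 - y) ≤ 1 / 1000 := by nlinarith [b.mem.1, b.mem.2]
  obtain ⟨y0, y1⟩ := b.mem
  rw [abs_le] at h1 h2 e3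
  exact ⟨fin1_two (h.sm_A.smAt ht hy) h.ti ht b.mem (abs_le.2 ⟨by linarith, by linarith⟩)
      (abs_le.2 ⟨by linarith, by linarith⟩),
    fin1_two (h.sm_β.smAt ht hy) h.ti ht b.mem (abs_le.2 ⟨by linarith, by linarith⟩)
      (abs_le.2 ⟨by linarith, by linarith⟩)⟩

theorem f_F1 : ∃ M, ∀ κ : Cst, κ.Adm → ∀ᶠ r in fam κ, ∀ t ∈ r.I, ∀ y ∈ Icc (0 : ℝ) 1,
    |XX r.S.A t y| ≤ M ∧ |XX (XX r.S.A) t y| ≤ M ∧ |XX r.S.β t y| ≤ M ∧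
      |XX (XX r.S.β) t y| ≤ M := by
  obtain ⟨M, hM⟩ := data_X 2
  refine ⟨max (M + 1) 4, fun κ hκ => ?_⟩
  filter_upwards [fin1_small hκ, bas_I hκ, far_X hκ one_pos, ev_dok hκ] with r h1 h2 h3 h4 t ht y hy
  have m1 := le_max_left (M + 1) 4
  have m2 := le_max_right (M + 1) 4
  rcases le_total y (r.s ^ 3) with c | c
  · obtain ⟨⟨a1, a2⟩, a3, a4⟩ := fin1_inner r.sol ht (h2 t ht y ⟨hy.1, c⟩) (h1 t ht y ⟨hy.1, c⟩).1
      (h1 t ht y ⟨hy.1, c⟩).2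
    exact ⟨a1.trans m2, a2.trans m2, a3.trans m2, a4.trans m2⟩
  · have key : ∀ {a b : ℝ}, |a - b| ≤ 1 → |b| ≤ M → |a| ≤ max (M + 1) 4 := fun {a b} k1 k2 => by
      have := abs_sub_abs_le_abs_sub a b
      linarith
    have d1 := hM _ _ _ h4 1 le_rfl one_le_two y hy
    have d2 := hM _ _ _ h4 2 one_le_two le_rfl y hy
    have f1 := h3 1 one_le_two t ht y ⟨c, hy.2⟩
    have f2 := h3 2 le_rfl t ht y ⟨c, hy.2⟩
    exact ⟨key f1.1 d1.1, key f2.1 d2.1, key f1.2 d1.2, key f2.2 d2.2⟩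

theorem f_h {κ : Cst} (hκ : κ.Adm) : ∀ᶠ r in fam κ, ∀ t ∈ r.I,
    (∀ y ∈ Icc 0 (r.s ^ 3), r.S.hh t y ≤ 3 / 2 * r.s) ∧
      2 * κ.η * r.tau t < r.S.rho t (r.s ^ 3) := by
  filter_upwards [bas_mono hκ, far_X hκ (ε := 1 / 10) (by norm_num), ev_dok hκ,
    ev_s κ (ε := 1 / 10) (by norm_num), ev_tau κ (ε := fun s => s / 2) fun s hs => half_pos hs,
    ev_mul_tau κ (fun _ => 2 * κ.η) (ε := fun s => s ^ 2 / 2) fun s hs => by positivity]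
    with r h1 h2 h3 h4 h5 h6 t ht
  have s0 := r.hs
  have s3 : 0 < r.s ^ 3 := by positivity
  have s4 : r.s ^ 3 ≤ (1 / 10) ^ 3 := pow_le_pow_left₀ s0.le h4 3
  have hy : r.s ^ 3 ∈ Icc (0 : ℝ) 1 := ⟨s3.le, s4.trans (by norm_num)⟩
  obtain ⟨-, d1, d2⟩ := data_H h3 hy
  obtain ⟨f1, f2⟩ := h2 0 (Nat.zero_le _) t ht (r.s ^ 3) ⟨le_rfl, hy.2⟩
  simp only [Function.iterate_zero, id, abs_le] at f1 f2
  have t3 : r.S.τ₀ ^ 3 ≤ (r.s / 2) ^ 3 := pow_le_pow_left₀ h3.τ0.le h5 3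
  constructor
  · intro y hy'
    refine ((h1 t ht).2.2 hy' ⟨s3.le, le_rfl⟩ hy'.2).trans
      (le_of_pow_le_pow_left₀ (n := 3) (by norm_num) (by positivity) ?_)
    have e1 : r.S.HH t (r.s ^ 3) ≤ exp (3 / 10) * r.S.HH 0 (r.s ^ 3) := by
      rw [St.HH, St.HH, ← exp_add]
      exact exp_le_exp.2 (by linarith [f2.2])
    have e2 : exp (3 / 10) ≤ 1 / (1 - 3 / 10) :=
      exp_bound_div_one_sub_of_interval (by norm_num) (by norm_num)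
    have e3 := mul_le_mul e2 d1 (r.S.HH_pos _ _).le (by norm_num)
    rw [← St.HH_eq]
    nlinarith
  · have e1 : 7 / 10 ≤ exp (2 * r.S.A t (r.s ^ 3) + r.S.β t (r.s ^ 3)) := by
      linarith [add_one_le_exp (2 * r.S.A t (r.s ^ 3) + r.S.β t (r.s ^ 3)), f1.1, f2.1]
    have e2 : r.s ^ 3 * (9 / 10) * (7 / 10) ≤ r.S.KK t (r.s ^ 3) :=
      mul_le_mul (mul_le_mul_of_nonneg_left (by linarith) s3.le) e1 (by norm_num) (St.id0_v hy)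
    have e3 : 2 * κ.η * r.tau t ≤ r.s ^ 2 / 2 :=
      (mul_le_mul_of_nonneg_left (r.tau_le ht) (mul_pos two_pos hκ.η).le).trans h6
    refine e3.trans_lt (lt_of_pow_lt_pow_left₀ 3 (r.S.rho_nonneg hy) ?_)
    rw [r.S.rho_cube hy]
    have e4 := pow_le_pow_left₀ (by positivity) e2 2
    have e5 : 0 < r.s ^ 6 := by positivity
    nlinarith


end Vale.Agent.P244
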