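import Vale.Agent.P244.A.P1

/-!
The scalar curvature is bounded.
Plan: on `[s³, 1]` insert `far_bd 2` in the definition of `Rf` (`|A|, |β| ≤ C` bound the
exponentials).  On `(0, s³]`: `Rf_eq` divided by `f² > 0`, with `Σ = f² u₂`, `dX_Sg`,
`ϑ² / f² = θ ζ² / (3 + θ)²` (`vt_ze`, `f2_eq`), `|ζ| ≤ 9 Am + AS`, `p1 1`.  At `y = 0` by continuity
of `Rf t` on `[0, 1]` (`le_of_tendsto` along `𝓝[>] 0`, or `closure`).
-/

namespace Vale.Agent.P244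

open scoped ContDiff Topology
open Set Filter Real

theorem fin2_mul {a b A B : ℝ} (ha : |a| ≤ A) (hb : |b| ≤ B) : |a * b| ≤ A * B := by
  rw [abs_mul]
  exact mul_le_mul ha hb (abs_nonneg _) ((abs_nonneg _).trans ha)

theorem fin2_far {A β : Fn} {t y C : ℝ} (hy : y ∈ Icc (0 : ℝ) 1) (a0 : |A t y| ≤ C)
    (b0 : |β t y| ≤ C) (a1 : |dY A t y| ≤ C) (b1 : |dY β t y| ≤ C) (a2 : |dY (dY A) t y| ≤ C)
    (b2 : |dY (dY β) t y| ≤ C) :
    |Rf A β t y| ≤ exp (2 * C) * (140 + 320 * C + 360 * C ^ 2) := by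
  have e : ∀ x : ℝ, |x| ≤ C → |exp (-2 * x)| ≤ exp (2 * C) := fun x hx => by
    rw [abs_of_pos (exp_pos _)]
    exact exp_le_exp.2 (by linarith [(abs_le.1 hx).1])
  have hc : |1 - 2 * y| ≤ 1 := abs_le.2 ⟨by linarith [hy.2], by linarith [hy.1]⟩
  have hv : |y * (1 - y)| ≤ 1 := by
    rw [abs_of_nonneg (St.id0_v hy)]
    nlinarith [hy.1, hy.2]
  have h1 := abs_le.1 (fin2_mul hc ((abs_add_le _ _).trans (add_le_add a1 b1)))
  have h2 := abs_le.1 (fin2_mul hv ((abs_add_le _ _).trans (add_le_add a2 b2)))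
  have h3 := abs_le.1 (fin2_mul hv (fin2_mul a1 a1))
  have h4 := abs_le.1 (fin2_mul hv (fin2_mul a1 b1))
  have h5 := abs_le.1 (fin2_mul hv (fin2_mul b1 b1))
  have h6 : |120 - 120 * (1 - 2 * y) * (dY A t y + dY β t y) -
      40 * (y * (1 - y)) * (dY (dY A) t y + dY (dY β) t y) -
      y * (1 - y) * (80 * dY A t y ^ 2 + 160 * dY A t y * dY β t y + 120 * dY β t y ^ 2)| ≤
      120 + 320 * C + 360 * C ^ 2 :=
    abs_le.2 ⟨by linarith [h1.2, h2.2, h3.2, h4.2, h5.2],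
      by linarith [h1.1, h2.1, h3.1, h4.1, h5.1]⟩
  have h7 := abs_le.1 (fin2_mul (e _ a0) h6)
  have h8 := abs_le.1 (e _ b0)
  rw [Rf]
  exact abs_le.2 ⟨by linarith [h7.1, h8.1], by linarith [h7.2, h8.2]⟩

theorem fin2_in {S : St} {t₁ t y C : ℝ} (h : S.Sol t₁) (ht : t ∈ Icc 0 t₁) (hy : 0 < y)
    (hb : BasI S t y) (u1 : |S.u1 t y| ≤ C) (u2 : |S.u2 t y| ≤ C) (u3 : |dX S.u2 t y| ≤ C) :
    |Rf S.A S.β t y| ≤ 50 * C + 1000 * C ^ 2 := by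
  have y1 : y < 1 := by linarith [hb.mem.2]
  have hf := S.f2_pos (t := t) ⟨hy, y1⟩
  have hθ := S.th_pos (t := t) ⟨hy, y1⟩
  have hh := S.hh_pos t y
  have hσ := S.sg_pos (y := y) (ht.2.trans h.lt.le)
  have hC : 0 ≤ C := (abs_nonneg _).trans u1
  have e1 := h.Rf_eq ht ⟨hy.le, y1.le⟩
  have e2 := h.dX_Sg ht ⟨hy.le, y1⟩
  have e3 := h.vt_ze ht ⟨hy.le, y1⟩
  have e4 : S.vt t y ^ 2 = S.f2 t y * (S.th t y / (3 + S.th t y) ^ 2 * S.ze t y ^ 2) := by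
    have : S.vt t y = S.th t y * S.hh t y * S.ze t y / (3 + S.th t y) := by
      rw [← e3]
      field_simp
    rw [this, S.f2_eq]
    field_simp
  have e5 : Rf S.A S.β t y = -(10 / 3) * (dX S.u2 t y + 2 * (S.aa t y * S.u2 t y)) -
      20 / 3 * ((2 + S.th t y + S.Sg t y / 3) * S.u2 t y) -
      10 * (S.th t y / (3 + S.th t y) ^ 2 * S.ze t y ^ 2) := by
    refine mul_left_cancel₀ hf.ne' ?_
    rw [e1, e2, e4]
    linear_combination (-(20 / 3) * (2 + S.th t y + S.Sg t y / 3)) * S.Sg_eq (t := t) y1.ne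
  have z1 : |S.sg t y ^ 2 / S.hh t y ^ 2| ≤ 9 := by
    rw [abs_of_nonneg (by positivity), div_le_iff₀ (by positivity)]
    nlinarith [hb.sg]
  have z2 : |2 / 3 * S.th t y * S.hh t y| ≤ 1 := by
    rw [abs_of_nonneg (by positivity)]
    nlinarith [hb.th, hb.h]
  have z3 : |S.ze t y| ≤ 10 * C := by
    rw [St.ze]
    linarith [abs_add_le (S.sg t y ^ 2 / S.hh t y ^ 2 * S.u1 t y)
      (2 / 3 * S.th t y * S.hh t y * S.u2 t y), fin2_mul z1 u1, fin2_mul z2 u2]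
  have z4 : |S.th t y / (3 + S.th t y) ^ 2| ≤ 1 := by
    rw [abs_of_nonneg (by positivity), div_le_iff₀ (by positivity)]
    nlinarith
  have z5 := abs_le.1 (fin2_mul z4 (fin2_mul z3 z3))
  have z6 := abs_le.1 (fin2_mul (abs_le.2 ⟨by linarith [hb.a.1], hb.a.2⟩ : |S.aa t y| ≤ 1) u2)
  have z7 : |2 + S.th t y + S.Sg t y / 3| ≤ 5 := by
    have := abs_le.1 hb.Sg
    exact abs_le.2 ⟨by linarith [this.1, hb.th], by linarith [this.2, hb.th]⟩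
  have z8 := abs_le.1 (fin2_mul z7 u2)
  have z9 := abs_le.1 u3
  rw [e5, sq (S.ze t y)]
  exact abs_le.2 ⟨by linarith [z5.2, z6.2, z8.2, z9.2], by linarith [z5.1, z6.1, z8.1, z9.1]⟩

theorem fin2_cont {S : St} {t₁ t : ℝ} (h : S.Sol t₁) (ht : t ∈ Icc 0 t₁) :
    ContinuousOn (Rf S.A S.β t) (Icc 0 1) := by
  have a0 := (h.sm_A.slice ht).continuousOn
  have b0 := (h.sm_β.slice ht).continuousOn
  have a1 := ((h.sm_A.dY h.ti).slice ht).continuousOn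
  have b1 := ((h.sm_β.dY h.ti).slice ht).continuousOn
  have a2 := (((h.sm_A.dY h.ti).dY h.ti).slice ht).continuousOn
  have b2 := (((h.sm_β.dY h.ti).dY h.ti).slice ht).continuousOn
  unfold Rf
  fun_prop

theorem f_R {κ : Cst} (hκ : κ.Adm) : ∃ C : ℝ → ℝ, ∀ᶠ r in fam κ, ∀ t ∈ r.I, ∀ y ∈ Icc (0 : ℝ) 1,
    |Rf r.S.A r.S.β t y| ≤ C r.s := by
  obtain ⟨C, hC⟩ := far_bd hκ 2
  obtain ⟨D, hD⟩ := p1 hκ 1
  refine ⟨fun s => max (exp (2 * C s) * (140 + 320 * C s + 360 * C s ^ 2))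
    (50 * D + 1000 * D ^ 2), ?_⟩
  filter_upwards [hC, hD, bas_I hκ] with r h1 h2 h3 t ht y hy
  have hs : 0 < r.s ^ 3 := pow_pos r.hs 3
  have hin : ∀ z ∈ Ioc 0 (r.s ^ 3), |Rf r.S.A r.S.β t z| ≤ 50 * D + 1000 * D ^ 2 := fun z hz =>
    fin2_in r.sol ht hz.1 (h3 t ht z ⟨hz.1.le, hz.2⟩) (h2 0 (by norm_num) t ht z ⟨hz.1.le, hz.2⟩).1
      (h2 0 (by norm_num) t ht z ⟨hz.1.le, hz.2⟩).2 (h2 1 le_rfl t ht z ⟨hz.1.le, hz.2⟩).2
  rcases le_total (r.s ^ 3) y with hl | hl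
  · have m : y ∈ Icc (r.s ^ 3) 1 := ⟨hl, hy.2⟩
    exact (fin2_far hy (h1 0 (by norm_num) t ht y m).1 (h1 0 (by norm_num) t ht y m).2
      (h1 1 (by norm_num) t ht y m).1 (h1 1 (by norm_num) t ht y m).2 (h1 2 le_rfl t ht y m).1
      (h1 2 le_rfl t ht y m).2).trans (le_max_left _ _)
  refine le_trans ?_ (le_max_right _ _)
  rcases hy.1.eq_or_lt with rfl | h0
  · have c1 : Tendsto (Rf r.S.A r.S.β t) (𝓝[>] 0) (𝓝 (Rf r.S.A r.S.β t 0)) :=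
      (fin2_cont r.sol ht 0 hy).tendsto.mono_left
        (nhdsWithin_le_of_mem (mem_of_superset (Ioc_mem_nhdsGT one_pos) Ioc_subset_Icc_self))
    exact le_of_tendsto c1.abs (mem_of_superset (Ioc_mem_nhdsGT hs) hin)
  · exact hin y ⟨h0, hl⟩

end Vale.Agent.P244
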