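import Vale.Agent.P244.A.P1

/-!
The continuation norm is bounded as long as `τ ≥ ρ > 0`.
Plan: on `[s³, 1]` use `far_bd 2`.  On `[0, s³]`: `ρ / 2 ≤ h ≤ 1/5` bounds `β`.
`dX A = a - c = 2 y - θ/3 + Σ/3 - ϑ`, so `|dX A| ≤ 2 y + θ ≤ dX (2 y + 8 f² / ρ²)` (`θ = f² / h²`,
`dX f² = 2 a f² ≥ f² / 2`), and `cmp_abs` gives `|A t y| ≤ C s + 2 + 8 / ρ²`.
`3 H β_y = e^{2A} (u₁ σ² + k h) / 2` and `6 (A_y + β_y) = e^{2A} (u₂ + h⁻²) + 6 / (1 - y)` (unfold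
`u1`, `u2`) bound the first derivatives; applying `dX` to these two identities on `Ico 0 1`
(`dX_congr_on ro_Ico`, `dX (dY u) = 2 y (1 - y) dY (dY u)`) bounds the second ones, using `p1 1`,
`p0_ab 1`.  Either by hand or with `Kit/Sy` on the family of (run, time) with `s` fixed and
`ρ ≤ τ` (then choose `N s ρ`).
-/

namespace Vale.Agent.P244

open scoped ContDiff Topology
open Set Filter Real

theorem fin3_dA {S : St} {t y : ℝ} (h : BasI S t y) : |dX S.A t y| ≤ 2 * y + S.th t y := by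
  have e : dX S.A t y = S.aa t y - (1 - 2 * y) := by
    simp only [St.aa]
    ring
  have h0 := S.th_nonneg (t := t) (Icc_subset_Icc_right (by norm_num) h.mem)
  rw [e, S.aa_eq, abs_le]
  constructor <;> linarith [abs_le.1 h.Sg, abs_le.1 h.vt, h.mem.1]

theorem fin3_A {S : St} {T t b y ρ : ℝ} (h : S.Sol T) (ht : t ∈ Icc 0 T)
    (hb : ∀ z ∈ Icc 0 b, BasI S t z) (hρ : 0 < ρ) (hτ : ρ ≤ S.τ₀ - t) (hy : y ∈ Icc 0 b) :
    |S.A t b - S.A t y| ≤ 2 + 8 / ρ ^ 2 := by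
  have B := hb b ⟨hy.1.trans hy.2, le_rfl⟩
  have b1 : b < 1 := B.mem.2.trans_lt (by norm_num)
  have sub : Icc y b ⊆ Icc 0 1 := Icc_subset_Icc hy.1 b1.le
  have k0 : 0 < 8 / ρ ^ 2 := by positivity
  have sG : Sm (Icc 0 T) fun s z => 2 * z + 8 / ρ ^ 2 * S.f2 s z := fun p hp =>
    ((smAt_const 2).mul smAt_y).add ((smAt_const _).mul (h.sm_f2.smAt hp.1 hp.2))
  have c := cmp_abs ht hy.1 hy.2 b1 ((h.sm_A.slice ht).continuousOn.mono sub)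
    ((sG.slice ht).continuousOn.mono sub)
    (fun z hz => h.sm_A.smAt ht (sub (Ioo_subset_Icc_self hz)))
    (fun z hz => sG.smAt ht (sub (Ioo_subset_Icc_self hz))) fun z hz => by
      have hz' := sub (Ioo_subset_Icc_self hz)
      have Z := hb z ⟨hz'.1, hz.2.le⟩
      have e : dX (fun s z => 2 * z + 8 / ρ ^ 2 * S.f2 s z) t z =
          4 * (z * (1 - z)) + 8 / ρ ^ 2 * dX S.f2 t z := by
        rw [id1_dX (u := fun s z => 2 * z + 8 / ρ ^ 2 * S.f2 s z) hz'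
          (((hasDerivWithinAt_id z _).const_mul 2).add ((h.sm_f2.hasY ht hz').const_mul _))]
        simp only [dX]
        ring
      have a1 : ρ ^ 2 ≤ (2 * S.hh t z) ^ 2 := pow_le_pow_left₀ hρ.le (hτ.trans Z.tau) 2
      have a2 : 2 ≤ 8 / ρ ^ 2 * S.hh t z ^ 2 := by
        rw [div_mul_eq_mul_div, le_div_iff₀ (by positivity)]
        linarith
      have a3 := mul_le_mul_of_nonneg_left (mul_le_mul Z.a.1 a2 zero_le_two
        (by linarith [Z.a.1])) (S.th_nonneg (t := t) hz')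
      have a4 := mul_le_mul_of_nonneg_left Z.mem.2 hz'.1
      rw [e, h.dX_f2 ht hz', S.f2_eq]
      linarith [fin3_dA Z, hz'.1]
  have a1 : S.f2 t b ≤ 1 := by
    rw [S.f2_eq]
    have := mul_le_mul B.th (pow_le_pow_left₀ (S.hh_pos t b).le B.h 2) (sq_nonneg _) zero_le_two
    linarith
  have a2 := mul_le_mul_of_nonneg_left a1 k0.le
  have a3 := mul_nonneg k0.le (S.f2_nonneg (t := t) (sub ⟨le_rfl, hy.2⟩))
  linarith [hy.1]

/-- A family of points of solutions. -/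
structure Fin3F (ι : Type) where
  S : ι → St
  T : ι → ℝ
  t : ι → ℝ
  y : ι → ℝ
  sol : ∀ i, (S i).Sol (T i)
  ht : ∀ i, t i ∈ Icc 0 (T i)
  hy : ∀ i, y i ∈ Icc (0 : ℝ) 1

namespace Fin3F

variable {ι : Type} {X : Fin3F ι} {g g' : St → Fn}

/-- The value and the first derivative are bounded on the family. -/
def B (X : Fin3F ι) (g : St → Fn) : Prop :=
  ∃ C, ∀ i, SmAt (Icc 0 (X.T i)) (g (X.S i)) (X.t i) (X.y i) ∧
    |g (X.S i) (X.t i) (X.y i)| ≤ C ∧ |dX (g (X.S i)) (X.t i) (X.y i)| ≤ C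

theorem B.of {C C' : ℝ} (h : ∀ i, SmAt (Icc 0 (X.T i)) (g (X.S i)) (X.t i) (X.y i) ∧
    |g (X.S i) (X.t i) (X.y i)| ≤ C ∧ |dX (g (X.S i)) (X.t i) (X.y i)| ≤ C') : X.B g :=
  ⟨max C C', fun i => ⟨(h i).1, le_max_of_le_left (h i).2.1, le_max_of_le_right (h i).2.2⟩⟩

theorem B.const (X : Fin3F ι) (c : ℝ) : X.B fun _ _ _ => c :=
  B.of (C := |c|) (C' := 0) fun i => ⟨smAt_const c, le_rfl, by
    rw [dX_time (X.sol i).ti (X.ht i) (X.hy i) fun _ => c, abs_zero]⟩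

theorem B.add (h : X.B g) (h' : X.B g') : X.B fun S s z => g S s z + g' S s z := by
  obtain ⟨C, h⟩ := h
  obtain ⟨C', h'⟩ := h'
  refine ⟨C + C', fun i => ⟨(h i).1.add (h' i).1,
    (abs_add_le _ _).trans (add_le_add (h i).2.1 (h' i).2.1), ?_⟩⟩
  rw [dX_add (X.sol i).ti (X.ht i) (X.hy i) (h i).1 (h' i).1]
  exact (abs_add_le _ _).trans (add_le_add (h i).2.2 (h' i).2.2)

theorem B.mul (h : X.B g) (h' : X.B g') : X.B fun S s z => g S s z * g' S s z := by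
  obtain ⟨C, h⟩ := h
  obtain ⟨C', h'⟩ := h'
  have m : ∀ a b : ℝ, |a| ≤ C → |b| ≤ C' → |a * b| ≤ C * C' := fun a b ha hb => by
    rw [abs_mul]
    exact mul_le_mul ha hb (abs_nonneg _) ((abs_nonneg _).trans ha)
  refine B.of (C := C * C') (C' := C * C' + C * C') fun i =>
    ⟨(h i).1.mul (h' i).1, m _ _ (h i).2.1 (h' i).2.1, ?_⟩
  rw [dX_mul (X.sol i).ti (X.ht i) (X.hy i) (h i).1 (h' i).1]
  exact (abs_add_le _ _).trans (add_le_add (m _ _ (h i).2.2 (h' i).2.1) (m _ _ (h i).2.1 (h' i).2.2))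

theorem B.exp (h : X.B g) : X.B fun S s z => Real.exp (g S s z) := by
  obtain ⟨C, h⟩ := h
  have m : ∀ i, |Real.exp (g (X.S i) (X.t i) (X.y i))| ≤ Real.exp C := fun i => by
    rw [abs_of_pos (exp_pos _)]
    exact exp_le_exp.2 (le_of_abs_le (h i).2.1)
  refine B.of (C := Real.exp C) (C' := Real.exp C * C) fun i => ⟨(h i).1.exp, m i, ?_⟩
  rw [dX_comp (X.sol i).ti (X.ht i) (X.hy i) (h i).1 (Real.hasDerivAt_exp _), abs_mul]
  exact mul_le_mul (m i) (h i).2.2 (abs_nonneg _) (exp_pos _).le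

theorem B.cexp (h : X.B g) (c : ℝ) : X.B fun S s z => Real.exp (c * g S s z) :=
  ((B.const X c).mul h).exp

theorem B.congr (h : X.B g) (hs : ∀ i, SmAt (Icc 0 (X.T i)) (g' (X.S i)) (X.t i) (X.y i))
    (e : ∀ i z, g' (X.S i) (X.t i) z = g (X.S i) (X.t i) z) : X.B g' := by
  obtain ⟨C, h⟩ := h
  refine ⟨C, fun i => ⟨hs i, ?_, ?_⟩⟩
  · rw [e]
    exact (h i).2.1
  · rw [dX_congr_on ro_Icc (fun z _ => e i z) (X.hy i)]
    exact (h i).2.2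

theorem inner (X : Fin3F ι) {ρ CA C1 C2 : ℝ} (hρ : 0 < ρ)
    (hb : ∀ i, BasI (X.S i) (X.t i) (X.y i)) (hτ : ∀ i, ρ ≤ (X.S i).τ₀ - X.t i)
    (hA : ∀ i, |(X.S i).A (X.t i) (X.y i)| ≤ CA)
    (h1 : ∀ i, ∀ k ≤ 1, |dX^[k] (X.S i).aa (X.t i) (X.y i)| ≤ C1 ∧
      |dX^[k] (X.S i).bb (X.t i) (X.y i)| ≤ C1)
    (h2 : ∀ i, ∀ k ≤ 1, |dX^[k] (X.S i).u1 (X.t i) (X.y i)| ≤ C2 ∧
      |dX^[k] (X.S i).u2 (X.t i) (X.y i)| ≤ C2) :
    ∃ N, ∀ i, (|(X.S i).A (X.t i) (X.y i)| ≤ N ∧ |dY (X.S i).A (X.t i) (X.y i)| ≤ N ∧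
      |X.y i * (1 - X.y i) * dY (dY (X.S i).A) (X.t i) (X.y i)| ≤ N) ∧
      |(X.S i).β (X.t i) (X.y i)| ≤ N ∧ |dY (X.S i).β (X.t i) (X.y i)| ≤ N ∧
      |X.y i * (1 - X.y i) * dY (dY (X.S i).β) (X.t i) (X.y i)| ≤ N := by
  have y1 : ∀ i, X.y i ∈ Ico (0 : ℝ) 1 := fun i =>
    ⟨(X.hy i).1, (hb i).mem.2.trans_lt (by norm_num)⟩
  have bA : X.B St.A := B.of (C := CA) (C' := 4) fun i =>
    ⟨(X.sol i).sm_A.smAt (X.ht i) (X.hy i), hA i,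
      (fin3_dA (hb i)).trans (by linarith [(hb i).th, (X.hy i).2])⟩
  have bβ : X.B St.β := B.of (C := |log (ρ / 2)|) (C' := C1) fun i =>
    ⟨(X.sol i).sm_β.smAt (X.ht i) (X.hy i), by
      have a1 : log (ρ / 2) ≤ (X.S i).β (X.t i) (X.y i) :=
        (log_le_iff_le_exp (by positivity)).2 (by
          have := (hτ i).trans (hb i).tau
          simp only [St.hh] at this
          linarith)
      have a2 : (X.S i).β (X.t i) (X.y i) ≤ 0 :=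
        exp_le_one_iff.1 ((hb i).h.trans (by norm_num))
      rw [abs_of_nonpos a2]
      exact (neg_le_neg a1).trans (neg_le_abs _), (h1 i 0 zero_le_one).2⟩
  have baa : X.B St.aa := ⟨C1, fun i => ⟨(X.sol i).sm_aa.smAt (X.ht i) (X.hy i),
    (h1 i 0 zero_le_one).1, (h1 i 1 le_rfl).1⟩⟩
  have bbb : X.B St.bb := ⟨C1, fun i => ⟨(X.sol i).sm_bb.smAt (X.ht i) (X.hy i),
    (h1 i 0 zero_le_one).2, (h1 i 1 le_rfl).2⟩⟩
  have bu1 : X.B St.u1 := ⟨C2, fun i => ⟨(X.sol i).sm_u1.smAt (X.ht i) (X.hy i),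
    (h2 i 0 zero_le_one).1, (h2 i 1 le_rfl).1⟩⟩
  have bu2 : X.B St.u2 := ⟨C2, fun i => ⟨(X.sol i).sm_u2 (X.ht i) (y1 i),
    (h2 i 0 zero_le_one).2, (h2 i 1 le_rfl).2⟩⟩
  have bτ : X.B fun S s _ => S.τ₀ - s := B.of (C := 1) (C' := 0) fun i =>
    ⟨(smAt_const _).sub smAt_t, by
      rw [abs_of_nonneg (hρ.le.trans (hτ i))]
      linarith [(X.sol i).le, (X.ht i).1], by
      rw [dX_time (X.sol i).ti (X.ht i) (X.hy i) fun s => (X.S i).τ₀ - s, abs_zero]⟩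
  have bw : X.B fun _ _ z => 1 / (1 - z) := B.of (C := 2) (C' := 8) fun i => by
    have a0 : (1 : ℝ) / 2 ≤ 1 - X.y i := by linarith [(hb i).mem.2]
    have a1 : 0 < 1 - X.y i := by linarith
    have a2 : 1 / (1 - X.y i) ≤ 2 := by
      rw [div_le_iff₀ a1]
      linarith
    have a3 : 0 < 1 / (1 - X.y i) := by positivity
    refine ⟨(smAt_const 1).div ((smAt_const 1).sub smAt_y) a1.ne', by rwa [abs_of_pos a3], ?_⟩
    have d : HasDerivWithinAt (fun z : ℝ => 1 / (1 - z)) ((1 / (1 - X.y i)) ^ 2) (Icc 0 1)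
        (X.y i) :=
      ((hasDerivWithinAt_const (X.y i) _ (1 : ℝ)).div
        ((hasDerivWithinAt_id (X.y i) _).const_sub 1) a1.ne').congr_deriv (by simp)
    have v0 : 0 ≤ X.y i * (1 - X.y i) := mul_nonneg (X.hy i).1 a1.le
    have v1 : X.y i * (1 - X.y i) ≤ 1 := mul_le_one₀ (X.hy i).2 a1.le (sub_le_self _ (X.hy i).1)
    rw [id1_dX (u := fun _ z => 1 / (1 - z)) (X.hy i) d, abs_of_nonneg (by positivity)]
    linarith [mul_le_mul v1 (pow_le_pow_left₀ a3.le a2 2) (sq_nonneg _) zero_le_one]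
  have bsg : X.B St.sg := bτ.add (bβ.cexp 2)
  have bkk : X.B St.kk := ((B.const X 2).mul baa).add bbb
  have b1 : X.B fun S => dY S.β :=
    ((B.const X (1 / 6)).mul (((bA.cexp 2).mul (bβ.cexp (-3))).mul
      ((bu1.mul (bsg.mul bsg)).add (bkk.mul bβ.exp)))).congr
      (fun i => ((X.sol i).sm_β.dY (X.sol i).ti).smAt (X.ht i) (X.hy i)) fun i z => by
        have s0 := ((X.S i).sg_pos (t := X.t i) (y := z) (by linarith [hτ i])).ne'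
        simp only [St.u1, St.HH, exp_add, neg_mul, exp_neg]
        field_simp
        ring
  have b2 : X.B fun S => dY S.A :=
    ((((B.const X (1 / 6)).mul ((bA.cexp 2).mul (bu2.add (bβ.cexp (-2))))).add bw).add
      ((B.const X (-1)).mul b1)).congr
      (fun i => ((X.sol i).sm_A.dY (X.sol i).ti).smAt (X.ht i) (X.hy i)) fun i z => by
        have e := exp_ne_zero (2 * (X.S i).A (X.t i) z)
        simp only [St.u2, neg_mul, exp_neg, div_eq_mul_inv (6 : ℝ), one_div (1 - z)]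
        generalize (1 - z)⁻¹ = w
        field_simp
        ring
  obtain ⟨a1, k1⟩ := bA
  obtain ⟨a2, k2⟩ := bβ
  obtain ⟨a3, k3⟩ := b1
  obtain ⟨a4, k4⟩ := b2
  have half : ∀ (u : Fn) (t y C : ℝ), |dX u t y| ≤ C → |y * (1 - y) * dY u t y| ≤ C :=
    fun u t y C h => by
      rw [dX, mul_assoc, abs_mul, abs_two] at h
      linarith [abs_nonneg (y * (1 - y) * dY u t y)]
  refine ⟨max (max a1 a2) (max a3 a4), fun i => ⟨⟨?_, ?_, ?_⟩, ?_, ?_, ?_⟩⟩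
  · exact le_max_of_le_left (le_max_of_le_left (k1 i).2.1)
  · exact le_max_of_le_right (le_max_of_le_right (k4 i).2.1)
  · exact le_max_of_le_right (le_max_of_le_right (half _ _ _ _ (k4 i).2.2))
  · exact le_max_of_le_left (le_max_of_le_right (k2 i).2.1)
  · exact le_max_of_le_right (le_max_of_le_left (k3 i).2.1)
  · exact le_max_of_le_right (le_max_of_le_left (half _ _ _ _ (k3 i).2.2))

end Fin3F

theorem f_N {κ : Cst} (hκ : κ.Adm) : ∃ N : ℝ → ℝ → ℝ, ∀ᶠ r in fam κ, ∀ ρ > 0, ∀ t ∈ r.I,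
    ρ ≤ r.tau t → Nb r.S.A t (N r.s ρ) ∧ Nb r.S.β t (N r.s ρ) := by
  obtain ⟨C1, h1⟩ := p0_ab hκ 1
  obtain ⟨C2, h2⟩ := p1 hκ 1
  obtain ⟨C3, h3⟩ := far_bd hκ 2
  obtain ⟨q, hq, q0, q1, q2, q3⟩ : ∃ q : Rn κ → Prop, (∀ᶠ r in fam κ, q r) ∧
      (∀ r, q r → ∀ t ∈ r.I, ∀ y ∈ Icc 0 (r.s ^ 3), BasI r.S t y) ∧
      (∀ r, q r → ∀ i ≤ 1, ∀ t ∈ r.I, ∀ y ∈ Icc (0 : ℝ) 1,
        |dX^[i] r.S.aa t y| ≤ C1 ∧ |dX^[i] r.S.bb t y| ≤ C1) ∧
      (∀ r, q r → ∀ i ≤ 1, ∀ t ∈ r.I, ∀ y ∈ Icc 0 (r.s ^ 3),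
        |dX^[i] r.S.u1 t y| ≤ C2 ∧ |dX^[i] r.S.u2 t y| ≤ C2) ∧
      (∀ r, q r → ∀ i ≤ 2, ∀ t ∈ r.I, ∀ y ∈ Icc (r.s ^ 3) 1,
        |dY^[i] r.S.A t y| ≤ C3 r.s ∧ |dY^[i] r.S.β t y| ≤ C3 r.s) :=
    ⟨_, (bas_I hκ).and (h1.and (h2.and h3)), fun _ h => h.1, fun _ h => h.2.1,
      fun _ h => h.2.2.1, fun _ h => h.2.2.2⟩
  have key : ∀ s ρ : ℝ, ∃ N, 0 < ρ → ∀ r : Rn κ, r.s = s → q r → ∀ t ∈ r.I, ρ ≤ r.tau t →
      Nb r.S.A t N ∧ Nb r.S.β t N := fun s ρ => by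
    by_cases hρ : 0 < ρ
    swap
    · exact ⟨0, fun h => (hρ h).elim⟩
    let X : Fin3F {x : Rn κ × ℝ × ℝ // x.1.s = s ∧ q x.1 ∧ x.2.1 ∈ x.1.I ∧ ρ ≤ x.1.tau x.2.1 ∧
        x.2.2 ∈ Icc 0 (x.1.s ^ 3)} :=
      ⟨fun x => x.1.1.S, fun x => x.1.1.t₁, fun x => x.1.2.1, fun x => x.1.2.2,
        fun x => x.1.1.sol, fun x => x.2.2.2.1, fun x =>
          Icc_subset_Icc_right (by norm_num) (q0 _ x.2.2.1 _ x.2.2.2.1 _ x.2.2.2.2.2).mem⟩
    obtain ⟨N, hN⟩ := X.inner (CA := C3 s + (2 + 8 / ρ ^ 2)) (C1 := C1) (C2 := C2) hρ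
      (fun x => q0 _ x.2.2.1 _ x.2.2.2.1 _ x.2.2.2.2.2) (fun x => x.2.2.2.2.1)
      (fun ⟨⟨r, t, y⟩, e, hr, ht, hτ, hy⟩ => by
        have b0 : (r.s ^ 3 : ℝ) ∈ Icc 0 (r.s ^ 3) := ⟨hy.1.trans hy.2, le_rfl⟩
        have a1 := fin3_A r.sol ht (q0 r hr t ht) hρ hτ hy
        have a2 : |r.S.A t (r.s ^ 3)| ≤ C3 r.s :=
          (q3 r hr 0 (by norm_num) t ht _ ⟨le_rfl, (q0 r hr t ht _ b0).mem.2.trans (by norm_num)⟩).1
        have a3 := abs_sub (r.S.A t (r.s ^ 3)) (r.S.A t (r.s ^ 3) - r.S.A t y)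
        rw [sub_sub_cancel] at a3
        have e' : r.s = s := e
        exact a3.trans (add_le_add (a2.trans_eq (congrArg C3 e')) a1))
      (fun x k hk => q1 _ x.2.2.1 k hk _ x.2.2.2.1 _ (X.hy x))
      (fun x k hk => q2 _ x.2.2.1 k hk _ x.2.2.2.1 _ x.2.2.2.2.2)
    refine ⟨max N (C3 s), fun _ r e hr t ht hτ => ?_⟩
    have far : ∀ y ∈ Icc (0 : ℝ) 1, ∀ d : ℝ, |d| ≤ C3 r.s → |y * (1 - y) * d| ≤ max N (C3 s) :=
      fun y hy d hd => by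
        rw [abs_mul, abs_of_nonneg (mul_nonneg hy.1 (sub_nonneg.2 hy.2))]
        refine (mul_le_of_le_one_left (abs_nonneg _) ?_).trans (le_max_of_le_right (e ▸ hd))
        exact mul_le_one₀ hy.2 (sub_nonneg.2 hy.2) (sub_le_self _ hy.1)
    rw [Nb, Nb, ← forall₂_and]
    intro y hy
    rcases le_total y (r.s ^ 3) with h | h
    · obtain ⟨⟨a1, a2, a3⟩, a4, a5, a6⟩ := hN ⟨(r, t, y), e, hr, ht, hτ, hy.1, h⟩
      exact ⟨⟨le_max_of_le_left a1, le_max_of_le_left a2, le_max_of_le_left a3⟩,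
        le_max_of_le_left a4, le_max_of_le_left a5, le_max_of_le_left a6⟩
    · have a0 := q3 r hr 0 (by norm_num) t ht y ⟨h, hy.2⟩
      have a1 := q3 r hr 1 (by norm_num) t ht y ⟨h, hy.2⟩
      have a2 := q3 r hr 2 le_rfl t ht y ⟨h, hy.2⟩
      exact ⟨⟨le_max_of_le_right (e ▸ a0.1), le_max_of_le_right (e ▸ a1.1), far y hy _ a2.1⟩,
        le_max_of_le_right (e ▸ a0.2), le_max_of_le_right (e ▸ a1.2), far y hy _ a2.2⟩
  choose N hN using key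
  exact ⟨N, hq.mono fun r hr ρ hρ t ht hτ => hN r.s ρ hρ r rfl hr t ht hτ⟩


end Vale.Agent.P244
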