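import Vale.Agent.P244.Kit.SmJ

/-!
Smoothness, positivity and algebraic identities of the quantities of `Q.lean`.
Plan: `Sm` is `ContDiffOn`, so use `SmAt.add`, `.mul`, `.exp`, `.div`, `Sm.dY` pointwise; the
algebraic identities follow by unfolding, `Real.exp_add`, `field_simp`, `ring`.
-/

namespace Vale.Agent.P244

open scoped ContDiff Topology
open Set Filter Real

namespace St

section alg

variable (S : St) (t y : ℝ)

theorem hh_pos : 0 < S.hh t y := exp_pos _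
theorem HH_pos : 0 < S.HH t y := exp_pos _
theorem id0_two (x : ℝ) : exp (2 * x) = exp x ^ 2 := by rw [two_mul, exp_add, sq]
theorem id0_three (x : ℝ) : exp (3 * x) = exp x ^ 3 := by
  rw [show 3 * x = 2 * x + x by ring, exp_add, id0_two, ← pow_succ]
theorem id0_neg (x : ℝ) : exp (-2 * x) = (exp x ^ 2)⁻¹ := by rw [neg_mul, exp_neg, id0_two]
theorem id0_v {y : ℝ} (hy : y ∈ Icc (0 : ℝ) 1) : 0 ≤ y * (1 - y) :=
  mul_nonneg hy.1 (sub_nonneg.2 hy.2)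
theorem id0_v' {y : ℝ} (hy : y ∈ Ioo (0 : ℝ) 1) : 0 < y * (1 - y) :=
  mul_pos hy.1 (sub_pos.2 hy.2)

theorem HH_eq : S.HH t y = S.hh t y ^ 3 := by
  exact id0_three _
theorem sg_eq : S.sg t y = S.τ₀ - t + S.hh t y ^ 2 := by
  simp only [sg, hh, id0_two]
theorem f2_eq : S.f2 t y = S.th t y * S.hh t y ^ 2 := by
  have := exp_ne_zero (S.β t y)
  simp only [f2, th, hh, exp_sub, id0_two]
  field_simp
theorem KK_eq : S.KK t y = S.th t y * S.hh t y ^ 3 := by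
  have := exp_ne_zero (S.β t y)
  simp only [KK, th, hh, exp_sub, exp_add, id0_two]
  field_simp
theorem EE_eq : S.EE t y = (1 - S.th t y) * S.hh t y ^ 3 := by
  simp only [EE, HH_eq, KK_eq]
  ring
theorem dX_eq_XX (u : Fn) : dX u t y = 2 * (1 - y) * XX u t y := by
  simp only [dX, XX]
  ring
theorem XX_XX {I : Set ℝ} {u : Fn} (h : SmAt I u t y) (hI : TI I) (ht : t ∈ I)
    (hy : y ∈ Icc (0 : ℝ) 1) : XX (XX u) t y = y * dY u t y + y ^ 2 * dY (dY u) t y := by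
  have e := dY_eq (u := XX u) hy ((hasDerivWithinAt_id y _).mul ((h.dY hI ht hy).hasY ht))
  show y * dY (XX u) t y = _
  rw [e]
  simp only [id]
  ring
theorem dX_dX {I : Set ℝ} {u : Fn} (h : SmAt I u t y) (hI : TI I) (ht : t ∈ I)
    (hy : y ∈ Icc (0 : ℝ) 1) : dX (dX u) t y =
      4 * (y * (1 - y)) * ((1 - 2 * y) * dY u t y + y * (1 - y) * dY (dY u) t y) := by
  have e := dY_eq (u := dX u) hy ((((hasDerivWithinAt_id y _).mul
    ((hasDerivWithinAt_id y _).const_sub 1)).const_mul 2).mul ((h.dY hI ht hy).hasY ht))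
  show 2 * (y * (1 - y)) * dY (dX u) t y = _
  rw [e]
  simp only [id, Pi.mul_apply]
  ring

variable {t y}

theorem th_nonneg (hy : y ∈ Icc (0 : ℝ) 1) : 0 ≤ S.th t y := by
  exact mul_nonneg (id0_v hy) (exp_pos _).le
theorem f2_nonneg (hy : y ∈ Icc (0 : ℝ) 1) : 0 ≤ S.f2 t y := by
  exact mul_nonneg (id0_v hy) (exp_pos _).le
theorem KK_nonneg (hy : y ∈ Icc (0 : ℝ) 1) : 0 ≤ S.KK t y := by
  exact mul_nonneg (id0_v hy) (exp_pos _).le
theorem th_pos (hy : y ∈ Ioo (0 : ℝ) 1) : 0 < S.th t y := by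
  exact mul_pos (id0_v' hy) (exp_pos _)
theorem f2_pos (hy : y ∈ Ioo (0 : ℝ) 1) : 0 < S.f2 t y := by
  exact mul_pos (id0_v' hy) (exp_pos _)
theorem KK_pos (hy : y ∈ Ioo (0 : ℝ) 1) : 0 < S.KK t y := by
  exact mul_pos (id0_v' hy) (exp_pos _)
theorem rho_pos (hy : y ∈ Ioo (0 : ℝ) 1) : 0 < S.rho t y := by
  exact rpow_pos_of_pos (S.KK_pos hy) _
theorem rho_nonneg (hy : y ∈ Icc (0 : ℝ) 1) : 0 ≤ S.rho t y := by
  exact rpow_nonneg (S.KK_nonneg hy) _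
theorem rho_zero : S.rho t 0 = 0 := by
  simp [rho, KK]
theorem rho_cube (hy : y ∈ Icc (0 : ℝ) 1) : S.rho t y ^ 3 = S.KK t y ^ 2 := by
  rw [rho, ← rpow_natCast, ← rpow_mul (S.KK_nonneg hy), ← rpow_natCast]
  norm_num
theorem sg_pos (ht : t ≤ S.τ₀) : 0 < S.sg t y := by
  exact add_pos_of_nonneg_of_pos (sub_nonneg.2 ht) (exp_pos _)
theorem nn_eq (ht : t ≤ S.τ₀) : S.nn t y = S.f2 t y * S.sg t y ^ 2 * S.u1 t y := by
  have h1 := (S.sg_pos (y := y) ht).ne'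
  have h2 := exp_ne_zero (S.A t y)
  simp only [nn, f2, u1, bb, dX, KK, exp_add, id0_two, id0_neg]
  field_simp
theorem mm_eq (ht : t ≤ S.τ₀) : S.mm t y = S.th t y * S.sg t y ^ 2 / S.hh t y * S.u1 t y := by
  have h1 := (S.hh_pos t y).ne'
  rw [mm, S.nn_eq ht, f2_eq, HH_eq]
  field_simp
theorem Sg_eq (hy : y ≠ 1) : S.Sg t y = S.f2 t y * S.u2 t y := by
  have h1 : 1 - y ≠ 0 := sub_ne_zero.2 hy.symm
  have h2 := exp_ne_zero (S.A t y)
  have h3 := exp_ne_zero (S.β t y)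
  simp only [Sg, f2, u2, aa, bb, dX, th, exp_sub, id0_two, id0_neg]
  field_simp
  ring
theorem mm_eq' : S.mm t y = 3 * S.bb t y - S.kk t y * S.th t y := by
  have h1 := (S.hh_pos t y).ne'
  rw [mm, nn, KK_eq, HH_eq]
  field_simp
theorem kk_eq (hy : y ∈ Icc (0 : ℝ) 1) :
    S.kk t y - 2 = (2 * S.Sg t y - S.mm t y) / (3 + S.th t y) := by
  have h1 := S.th_nonneg (t := t) hy
  rw [eq_div_iff (by linarith), mm_eq']
  simp only [kk, Sg]
  ring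
theorem vt_eq (hy : y ∈ Icc (0 : ℝ) 1) :
    S.vt t y = (S.mm t y + 2 / 3 * S.th t y * S.Sg t y) / (3 + S.th t y) := by
  have h1 := S.th_nonneg (t := t) hy
  rw [eq_div_iff (by linarith), mm_eq']
  simp only [kk, Sg, vt]
  ring
theorem aa_eq : S.aa t y = 1 - S.th t y / 3 + S.Sg t y / 3 - S.vt t y := by
  simp only [Sg, vt]
  ring
theorem bb_eq : S.bb t y = S.vt t y + 2 / 3 * S.th t y := by
  simp only [vt]
  ring
theorem C1_eq (hy : y ∈ Icc (0 : ℝ) 1) : S.C1 t y = -16 * S.th t y / (3 + S.th t y) -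
    (S.kk t y - 2) * S.th t y - 3 * S.vt t y -
    S.th t y * (1 - S.th t y) * (S.kk t y - 2) / (3 + S.th t y) := by
  have h1 : 3 + S.th t y ≠ 0 := by linarith [S.th_nonneg (t := t) hy]
  simp only [C1, vt]
  field_simp
  ring

end alg

namespace Sol

variable {S : St} {t₁ : ℝ} (h : S.Sol t₁)
include h

theorem ti : TI (Icc 0 t₁) := ti_Icc h.pos
theorem sm_A : Sm (Icc 0 t₁) S.A := h.sol.smA
theorem sm_β : Sm (Icc 0 t₁) S.β := h.sol.smβ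
theorem sm_B : Sm (Icc 0 t₁) S.B := h.sol.smB
omit h in
theorem id0_sm {I : Set ℝ} {u : Fn} (hu : ∀ t ∈ I, ∀ y ∈ Icc (0 : ℝ) 1, SmAt I u t y) : Sm I u :=
  fun p hp => hu p.1 hp.1 p.2 hp.2
omit h in
theorem id0_vv {I : Set ℝ} {t y : ℝ} : SmAt I (fun _ z => z * (1 - z)) t y :=
  smAt_y.mul ((smAt_const 1).sub smAt_y)
omit h in
theorem id0_c {I : Set ℝ} {u : Fn} {t y : ℝ} (hu : SmAt I u t y) (c : ℝ) :
    SmAt I (fun s z => c * u s z) t y := (smAt_const c).mul hu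
omit h in
theorem id0_d {I : Set ℝ} {u : Fn} {t y : ℝ} (hu : SmAt I u t y) (c : ℝ) :
    SmAt I (fun s z => u s z / c) t y := ContDiffWithinAt.div_const hu c
omit h in
theorem id0_3 {t y : ℝ} (hy : y ∈ Icc (0 : ℝ) 1) : 3 + S.th t y ≠ 0 := by
  linarith [S.th_nonneg (t := t) hy]

theorem sm_f2 : Sm (Icc 0 t₁) S.f2 := by
  exact id0_sm fun t ht y hy => id0_vv.mul (id0_c (h.sm_A.smAt ht hy) 2).exp
theorem sm_hh : Sm (Icc 0 t₁) S.hh := by
  exact id0_sm fun t ht y hy => (h.sm_β.smAt ht hy).exp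
theorem sm_th : Sm (Icc 0 t₁) S.th := by
  exact id0_sm fun t ht y hy => id0_vv.mul
    ((id0_c (h.sm_A.smAt ht hy) 2).sub (id0_c (h.sm_β.smAt ht hy) 2)).exp
theorem sm_HH : Sm (Icc 0 t₁) S.HH := by
  exact id0_sm fun t ht y hy => (id0_c (h.sm_β.smAt ht hy) 3).exp
theorem sm_KK : Sm (Icc 0 t₁) S.KK := by
  exact id0_sm fun t ht y hy => id0_vv.mul
    ((id0_c (h.sm_A.smAt ht hy) 2).add (h.sm_β.smAt ht hy)).exp
theorem sm_EE : Sm (Icc 0 t₁) S.EE := by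
  exact id0_sm fun t ht y hy => (h.sm_HH.smAt ht hy).sub (h.sm_KK.smAt ht hy)
theorem sm_aa : Sm (Icc 0 t₁) S.aa := by
  exact id0_sm fun t ht y hy => ((smAt_const 1).sub (id0_c smAt_y 2)).add
    ((h.sm_A.smAt ht hy).dX h.ti ht hy)
theorem sm_bb : Sm (Icc 0 t₁) S.bb := by
  exact id0_sm fun t ht y hy => (h.sm_β.smAt ht hy).dX h.ti ht hy
theorem sm_kk : Sm (Icc 0 t₁) S.kk := by
  exact id0_sm fun t ht y hy => (id0_c (h.sm_aa.smAt ht hy) 2).add (h.sm_bb.smAt ht hy)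
theorem sm_WW : Sm (Icc 0 t₁) S.WW := by
  exact id0_sm fun t ht y hy => (id0_c ((h.sm_aa.smAt ht hy).pow 2) 4).add
    (id0_c ((h.sm_bb.smAt ht hy).pow 2) 5)
theorem sm_Sg : Sm (Icc 0 t₁) S.Sg := by
  exact id0_sm fun t ht y hy => ((id0_c ((h.sm_aa.smAt ht hy).add (h.sm_bb.smAt ht hy)) 3).sub
    (smAt_const 3)).sub (h.sm_th.smAt ht hy)
theorem sm_nn : Sm (Icc 0 t₁) S.nn := by
  exact id0_sm fun t ht y hy => ((id0_c (h.sm_bb.smAt ht hy) 3).mul (h.sm_HH.smAt ht hy)).sub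
    ((h.sm_kk.smAt ht hy).mul (h.sm_KK.smAt ht hy))
theorem sm_mm : Sm (Icc 0 t₁) S.mm := by
  exact id0_sm fun t ht y hy => (h.sm_nn.smAt ht hy).div (h.sm_HH.smAt ht hy) (S.HH_pos t y).ne'
theorem sm_vt : Sm (Icc 0 t₁) S.vt := by
  exact id0_sm fun t ht y hy => (h.sm_bb.smAt ht hy).sub (id0_c (h.sm_th.smAt ht hy) (2 / 3))
theorem sm_sg : Sm (Icc 0 t₁) S.sg := by
  exact id0_sm fun t ht y hy => ((smAt_const S.τ₀).sub smAt_t).add
    (id0_c (h.sm_β.smAt ht hy) 2).exp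
theorem sm_u1 : Sm (Icc 0 t₁) S.u1 := by
  exact id0_sm fun t ht y hy => ((id0_c (id0_c (h.sm_A.smAt ht hy) (-2)).exp 2).mul
    (((id0_c ((h.sm_β.smAt ht hy).dY h.ti ht hy) 3).mul (h.sm_HH.smAt ht hy)).sub
      ((id0_d (h.sm_kk.smAt ht hy) 2).mul
        ((id0_c (h.sm_A.smAt ht hy) 2).add (h.sm_β.smAt ht hy)).exp))).div
    ((h.sm_sg.smAt ht hy).pow 2) (pow_ne_zero 2 (S.sg_pos (ht.2.trans h.lt.le)).ne')
theorem sm_C1 : Sm (Icc 0 t₁) S.C1 := by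
  exact id0_sm fun t ht y hy => (((h.sm_kk.smAt ht hy).neg.mul (h.sm_th.smAt ht hy)).sub
    (id0_c (h.sm_bb.smAt ht hy) 3)).sub ((((h.sm_th.smAt ht hy).mul
      ((smAt_const 1).sub (h.sm_th.smAt ht hy))).mul ((h.sm_kk.smAt ht hy).add (smAt_const 2))).div
      ((smAt_const 3).add (h.sm_th.smAt ht hy)) (id0_3 hy))
theorem sm_cE : Sm (Icc 0 t₁) S.cE := by
  exact id0_sm fun t ht y hy => ((id0_c (h.sm_th.smAt ht hy) 2).mul
    ((h.sm_kk.smAt ht hy).add (smAt_const 2))).div ((smAt_const 3).add (h.sm_th.smAt ht hy))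
    (id0_3 hy)
theorem sm_Gam : Sm (Icc 0 t₁) S.Gam := by
  refine id0_sm fun t ht y hy => ?_
  have b := h.sm_bb.smAt ht hy
  have ab := (h.sm_aa.smAt ht hy).add b
  have th := h.sm_th.smAt ht hy
  have c := (smAt_const 1).add (id0_d th 3)
  exact (((id0_c (((ab.pow 2).add (ab.mul c)).add (c.pow 2)) 12).sub (smAt_const 12)).sub
    (b.mul ((id0_c ((ab.add (smAt_const 1)).add (id0_d th 3)) 24).sub (id0_c th 4)))).add
    (id0_c (b.pow 2) 27)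
theorem sm_u2 {t y : ℝ} (ht : t ∈ Icc 0 t₁) (hy : y ∈ Ico (0 : ℝ) 1) : SmAt (Icc 0 t₁) S.u2 t y := by
  have hy' := Ico_subset_Icc_self hy
  have a := h.sm_A.smAt ht hy'
  have b := h.sm_β.smAt ht hy'
  exact ((id0_c a (-2)).exp.mul ((id0_c ((a.dY h.ti ht hy').add (b.dY h.ti ht hy')) 6).sub
    ((smAt_const 6).div ((smAt_const 1).sub smAt_y) (sub_pos.2 hy.2).ne'))).sub (id0_c b (-2)).exp
theorem sm_rho {t y : ℝ} (ht : t ∈ Icc 0 t₁) (hy : y ∈ Ioo (0 : ℝ) 1) :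
    SmAt (Icc 0 t₁) S.rho t y := by
  exact (h.sm_KK.smAt ht (Ioo_subset_Icc_self hy)).rpow (S.KK_pos hy).ne' _
theorem cont_rho : ContinuousOn (fun p : ℝ × ℝ => S.rho p.1 p.2) (Icc 0 t₁ ×ˢ Icc 0 1) := by
  exact h.sm_KK.cont.rpow_const fun _ _ => Or.inr (by norm_num)
theorem sm_Dr {u : Fn} {t y : ℝ} (ht : t ∈ Icc 0 t₁) (hy : y ∈ Ioo (0 : ℝ) 1) (hk : S.kk t y ≠ 0)
    (hu : SmAt (Icc 0 t₁) u t y) : SmAt (Icc 0 t₁) (S.Dr u) t y := by
  have hy' := Ioo_subset_Icc_self hy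
  exact (id0_c (hu.dX h.ti ht hy') 3).div ((id0_c (h.sm_kk.smAt ht hy') 2).mul (h.sm_rho ht hy))
    (mul_ne_zero (mul_ne_zero two_ne_zero hk) (S.rho_pos hy).ne')
theorem sm_Z0 {t y : ℝ} (ht : t ∈ Icc 0 t₁) (hy : y ∈ Ioo (0 : ℝ) 1) :
    SmAt (Icc 0 t₁) S.Z0 t y := by
  have r := h.sm_rho ht hy
  have τ : SmAt (Icc 0 t₁) (fun s _ => S.τ₀ - s) t y := (smAt_const S.τ₀).sub smAt_t
  exact (h.sm_EE.smAt ht (Ioo_subset_Icc_self hy)).sub ((((τ.pow 3).sub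
    ((id0_c (τ.pow 2) (27 / 40)).mul r)).add ((id0_c τ (243 / 2240)).mul (r.pow 2))).sub
    (id0_c (r.pow 3) (81 / 17920)))
theorem sm_Z1 {t y : ℝ} (ht : t ∈ Icc 0 t₁) (hy : y ∈ Ioo (0 : ℝ) 1) (hk : S.kk t y ≠ 0) :
    SmAt (Icc 0 t₁) S.Z1 t y := by
  have hy' := Ioo_subset_Icc_self hy
  have r := h.sm_rho ht hy
  have τ : SmAt (Icc 0 t₁) (fun s _ => S.τ₀ - s) t y := (smAt_const S.τ₀).sub smAt_t
  exact ((id0_c (h.sm_nn.smAt ht hy') 3).div ((id0_c (h.sm_kk.smAt ht hy') 2).mul r)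
    (mul_ne_zero (mul_ne_zero two_ne_zero hk) (S.rho_pos hy).ne')).sub
    (((id0_c (τ.pow 2) (-(27 / 40))).add ((id0_c τ (243 / 1120)).mul r)).sub
      (id0_c (r.pow 2) (243 / 17920)))
/-- The set where `D` is defined is relatively open. -/
theorem ro_kk {t : ℝ} (ht : t ∈ Icc 0 t₁) : RO {y | y ∈ Ioo (0 : ℝ) 1 ∧ 0 < S.kk t y} := by
  intro y hy
  have hy' := Ioo_subset_Icc_self hy.1
  refine ⟨hy', ?_⟩
  filter_upwards [(ro_Ioo y hy.1).2,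
    ((h.sm_kk.hasY ht hy').continuousWithinAt).eventually (lt_mem_nhds hy.2)] with z h1 h2
  exact ⟨h1, h2⟩

end Sol

end St

end Vale.Agent.P244
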