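import Vale.Agent.P244.A.Id0

/-!
First order identities in space, and the scalar curvature.
Plan: `HasDerivWithinAt` calculus (`SmAt.hasY`, `dY_eq`) or the rules `dX_mul`, `dX_comp`, `dX_y`;
`dX (y (1 - y)) = 2 (1 - 2 y) y (1 - y)`.  For `Rf_eq` first compute `dX aa`, `dX bb` by `dX_dX`:
`f² R = -10 (a' + b') - 20 a² - 40 a b - 30 b² + 20 + 20 θ`, and `Σ' = 3 (a' + b') - 2 θ (a - b)`.
-/

namespace Vale.Agent.P244

open scoped ContDiff Topology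
open Set Filter Real

theorem id1_dX {u : Fn} {t y d : ℝ} (hy : y ∈ Icc (0 : ℝ) 1)
    (h : HasDerivWithinAt (u t) d (Icc 0 1) y) : dX u t y = 2 * (y * (1 - y)) * d := by
  simp only [dX, dY_eq hy h]

theorem id1_v (y : ℝ) : HasDerivWithinAt (fun z : ℝ => z * (1 - z)) (1 - 2 * y) (Icc 0 1) y :=
  ((hasDerivWithinAt_id y _).mul ((hasDerivWithinAt_id y _).const_sub 1)).congr_deriv (by
    simp only [id]
    ring)

theorem id1_c (y : ℝ) : HasDerivWithinAt (fun z : ℝ => 1 - 2 * z) (-2) (Icc 0 1) y :=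
  (((hasDerivWithinAt_id y _).const_mul 2).const_sub 1).congr_deriv (by ring)

theorem id1_PP (τ r : ℝ) : HasDerivAt (PP τ) (PP1 τ r) r := by
  have h1 := hasDerivAt_id r
  refine ((((h1.const_mul (27 / 40 * τ ^ 2)).const_sub (τ ^ 3)).add
    ((hasDerivAt_pow 2 r).const_mul (243 / 2240 * τ))).sub
    ((hasDerivAt_pow 3 r).const_mul (81 / 17920))).congr_deriv ?_
  simp only [PP1]
  push_cast
  ring

namespace St.Sol

variable {S : St} {t₁ t y : ℝ} (h : S.Sol t₁) (ht : t ∈ Icc 0 t₁)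
include h ht

theorem dX_f2 (hy : y ∈ Icc (0 : ℝ) 1) : dX S.f2 t y = 2 * S.aa t y * S.f2 t y := by
  rw [id1_dX (u := S.f2) hy ((id1_v y).mul ((h.sm_A.hasY ht hy).const_mul 2).exp)]
  simp only [St.aa, St.f2, dX]
  ring
theorem dX_hh (hy : y ∈ Icc (0 : ℝ) 1) : dX S.hh t y = S.bb t y * S.hh t y := by
  rw [id1_dX (u := S.hh) hy (h.sm_β.hasY ht hy).exp]
  simp only [St.bb, St.hh, dX]
  ring
theorem dX_th (hy : y ∈ Icc (0 : ℝ) 1) : dX S.th t y = 2 * (S.aa t y - S.bb t y) * S.th t y := by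
  rw [id1_dX (u := S.th) hy ((id1_v y).mul (((h.sm_A.hasY ht hy).const_mul 2).sub
    ((h.sm_β.hasY ht hy).const_mul 2)).exp)]
  simp only [St.aa, St.bb, St.th, dX, Pi.sub_apply]
  ring
theorem dX_HH (hy : y ∈ Icc (0 : ℝ) 1) : dX S.HH t y = 3 * S.bb t y * S.HH t y := by
  rw [id1_dX (u := S.HH) hy ((h.sm_β.hasY ht hy).const_mul 3).exp]
  simp only [St.bb, St.HH, dX]
  ring
theorem dX_KK (hy : y ∈ Icc (0 : ℝ) 1) : dX S.KK t y = S.kk t y * S.KK t y := by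
  rw [id1_dX (u := S.KK) hy ((id1_v y).mul (((h.sm_A.hasY ht hy).const_mul 2).add
    (h.sm_β.hasY ht hy)).exp)]
  simp only [St.kk, St.aa, St.bb, St.KK, dX, Pi.add_apply]
  ring
theorem dX_EE (hy : y ∈ Icc (0 : ℝ) 1) : dX S.EE t y = S.nn t y := by
  have e := dX_sub h.ti ht hy (h.sm_HH.smAt ht hy) (h.sm_KK.smAt ht hy)
  rw [h.dX_HH ht hy, h.dX_KK ht hy] at e
  exact e
theorem dX_sg (hy : y ∈ Icc (0 : ℝ) 1) : dX S.sg t y = 2 * S.bb t y * S.hh t y ^ 2 := by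
  rw [id1_dX (u := S.sg) hy (((h.sm_β.hasY ht hy).const_mul 2).exp.const_add (S.τ₀ - t))]
  have e : exp (2 * S.β t y) = exp (S.β t y) ^ 2 := by
    rw [sq, ← exp_add, two_mul]
  simp only [St.bb, St.hh, dX, e]
  ring
theorem dX_rho (hy : y ∈ Ioo (0 : ℝ) 1) : dX S.rho t y = 2 / 3 * S.kk t y * S.rho t y := by
  have hy' := Ioo_subset_Icc_self hy
  have k0 := (S.KK_pos (t := t) hy).ne'
  have e := dX_comp h.ti ht hy' (h.sm_KK.smAt ht hy')
    (Real.hasDerivAt_rpow_const (p := (2 / 3 : ℝ)) (Or.inl k0))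
  rw [h.dX_KK ht hy', Real.rpow_sub_one k0] at e
  refine e.trans ?_
  simp only [St.rho]
  field_simp
theorem dX_aa (hy : y ∈ Icc (0 : ℝ) 1) : dX S.aa t y = dX (dX S.A) t y - 4 * (y * (1 - y)) := by
  rw [id1_dX (u := S.aa) hy ((id1_c y).add (((h.sm_A.smAt ht hy).dX h.ti ht hy).hasY ht))]
  have e : dX (dX S.A) t y = 2 * (y * (1 - y)) * dY (dX S.A) t y := rfl
  rw [e]
  ring
theorem dX_Sg (hy : y ∈ Ico (0 : ℝ) 1) :
    dX S.Sg t y = S.f2 t y * (dX S.u2 t y + 2 * S.aa t y * S.u2 t y) := by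
  have hy' := Ico_subset_Icc_self hy
  rw [dX_congr_on (u := S.Sg) (v := fun s z => S.f2 s z * S.u2 s z) ro_Ico
    (fun z hz => S.Sg_eq hz.2.ne) hy, dX_mul h.ti ht hy' (h.sm_f2.smAt ht hy') (h.sm_u2 ht hy),
    h.dX_f2 ht hy']
  ring
/-- The drift coefficient of `𝒫`. -/
theorem dX_drift (hy : y ∈ Icc (0 : ℝ) 1) :
    dX (fun s z => S.f2 s z * S.B s z + 4 * (1 - 2 * z)) t y =
      2 * S.aa t y * (S.f2 t y * S.B t y + 4 * (1 - 2 * y)) - 4 - S.WW t y := by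
  have e1 : dX (fun _ z => 4 * (1 - 2 * z)) t y = 2 * (y * (1 - y)) * (4 * -2) :=
    id1_dX hy ((id1_c y).const_mul 4)
  have e2 : S.f2 t y * dX S.B t y = -(4 * dX S.A t y ^ 2 + 5 * S.bb t y ^ 2) := by
    have e : exp (2 * S.A t y) * exp (-2 * S.A t y) = 1 := by
      rw [← exp_add]
      simp
    simp only [St.f2, St.bb, dX, h.sol.eqB t ht y hy]
    linear_combination (-4 * (y * (1 - y)) ^ 2 * (4 * dY S.A t y ^ 2 + 5 * dY S.β t y ^ 2)) * e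
  rw [dX_add h.ti ht hy ((h.sm_f2.smAt ht hy).mul (h.sm_B.smAt ht hy))
    ((smAt_const 4).mul ((smAt_const 1).sub ((smAt_const 2).mul smAt_y))),
    dX_mul h.ti ht hy (h.sm_f2.smAt ht hy) (h.sm_B.smAt ht hy), h.dX_f2 ht hy, e1, e2]
  simp only [St.WW, St.aa]
  ring
theorem dX_eq_Dr (u : Fn) (hy : y ∈ Ioo (0 : ℝ) 1) (hk : S.kk t y ≠ 0) :
    dX u t y = S.Dr u t y * dX S.rho t y := by
  have r0 := (S.rho_pos (t := t) hy).ne'
  rw [h.dX_rho ht hy]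
  simp only [St.Dr]
  field_simp
/-- `D` of a function of `(t, ϱ)`. -/
theorem Dr_comp (hy : y ∈ Ioo (0 : ℝ) 1) (hk : S.kk t y ≠ 0) {φ : ℝ → ℝ → ℝ} {d : ℝ}
    (hφ : HasDerivAt (φ t) d (S.rho t y)) : S.Dr (fun s z => φ s (S.rho s z)) t y = d := by
  have r0 := (S.rho_pos (t := t) hy).ne'
  have e : dX (fun s z => φ s (S.rho s z)) t y = d * dX S.rho t y :=
    dX_comp h.ti ht (Ioo_subset_Icc_self hy) (h.sm_rho ht hy) hφ
  simp only [St.Dr]
  rw [e, h.dX_rho ht hy]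
  field_simp
theorem Dr_Z0 (hy : y ∈ Ioo (0 : ℝ) 1) (hk : S.kk t y ≠ 0) : S.Dr S.Z0 t y = S.Z1 t y := by
  have hy' := Ioo_subset_Icc_self hy
  have r0 := (S.rho_pos (t := t) hy).ne'
  have e : dX S.Z0 t y = dX S.EE t y - PP1 (S.τ₀ - t) (S.rho t y) * dX S.rho t y := by
    rw [id1_dX (u := S.Z0) hy' ((h.sm_EE.hasY ht hy').sub
      ((id1_PP (S.τ₀ - t) _).comp_hasDerivWithinAt y ((h.sm_rho ht hy).hasY ht)))]
    simp only [dX]
    ring
  simp only [St.Dr, St.Z1]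
  rw [e, h.dX_rho ht hy, h.dX_EE ht hy']
  field_simp
theorem Z1_eq (hy : y ∈ Icc (0 : ℝ) 1) :
    S.Z1 t y = S.Dr S.EE t y - PP1 (S.τ₀ - t) (S.rho t y) := by
  simp only [St.Dr, St.Z1, h.dX_EE ht hy]
theorem Rf_eq (hy : y ∈ Icc (0 : ℝ) 1) : S.f2 t y * Rf S.A S.β t y =
    -(10 / 3) * dX S.Sg t y - 20 / 3 * (2 + S.th t y + S.Sg t y / 3) * S.Sg t y -
      10 * S.vt t y ^ 2 := by
  have e1 : dX S.Sg t y = 3 * (dX S.aa t y + dX S.bb t y) - dX S.th t y := by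
    rw [id1_dX (u := S.Sg) hy (((((h.sm_aa.hasY ht hy).add (h.sm_bb.hasY ht hy)).const_mul
      3).sub_const 3).sub (h.sm_th.hasY ht hy))]
    simp only [dX]
    ring
  have e2 := St.dX_dX t y (h.sm_A.smAt ht hy) h.ti ht hy
  have e3 : dX S.bb t y = _ := St.dX_dX t y (h.sm_β.smAt ht hy) h.ti ht hy
  have a1 : exp (2 * S.A t y) * exp (-2 * S.A t y) = 1 := by
    rw [← exp_add]
    simp
  have a2 : exp (2 * S.A t y - 2 * S.β t y) = exp (2 * S.A t y) * exp (-2 * S.β t y) := by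
    rw [← exp_add]
    ring_nf
  rw [e1, h.dX_aa ht hy, h.dX_th ht hy, e2, e3]
  simp only [St.f2, Rf, St.Sg, St.vt, St.aa, St.bb, St.th, dX, a2]
  linear_combination (y * (1 - y) * (120 - 120 * (1 - 2 * y) * (dY S.A t y + dY S.β t y) -
    40 * (y * (1 - y)) * (dY (dY S.A) t y + dY (dY S.β) t y) -
    y * (1 - y) * (80 * dY S.A t y ^ 2 + 160 * dY S.A t y * dY S.β t y +
      120 * dY S.β t y ^ 2))) * a1

end St.Sol

end Vale.Agent.P244
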