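import Vale.Agent.P244.A.Id1

/-!
The parabolic identities (all checked with exact jets).
Plan: `pop_A`, `pop_β` from the equations (`dT_eq`, `dX_dX`); exponentials by `pop_comp`; the
function `v = y (1 - y)` has `𝒫 v = -(f² B + 4 c) 2 c v - (4 c² v - 8 v²)`; products by `pop_mul`.
`pop_dX`: apply `dX` to the definition of `Pop` (`dX_mul`, `dT_dX`, `dX_f2`, `dX_drift`).
`pop_aa`, `pop_bb` from `pop_dX` (use `dX_congr_on ro_Icc` to differentiate `pop_A`, `pop_β`).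
`pop_EE`, `pop_Sg`: linearity, then `field_simp; ring` after substituting `K = θ h³`, `H = h³`.
-/

namespace Vale.Agent.P244

open scoped ContDiff Topology
open Set Filter Real

namespace St.Sol

variable {S : St} {t₁ t y : ℝ} (h : S.Sol t₁) (ht : t ∈ Icc 0 t₁) (hy : y ∈ Icc (0 : ℝ) 1)
include h ht hy

theorem id2_sl (a b : ℝ) : SmAt (Icc 0 t₁) (fun s z => a * S.A s z + b * S.β s z) t y :=
  ((smAt_const a).mul (h.sm_A.smAt ht hy)).add ((smAt_const b).mul (h.sm_β.smAt ht hy))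
theorem id2_cm {u : Fn} (hu : SmAt (Icc 0 t₁) u t y) (a : ℝ) :
    dX (fun s z => a * u s z) t y = a * dX u t y ∧
      S.Pop (Icc 0 t₁) (fun s z => a * u s z) t y = a * S.Pop (Icc 0 t₁) u t y := by
  have e : dX (fun _ _ => a) t y = 0 := dX_time h.ti ht hy fun _ => a
  refine ⟨(dX_mul h.ti ht hy (smAt_const a) hu).trans (by rw [e]; ring),
    (pop_mul h.ti ht hy S (smAt_const a) hu).trans ?_⟩
  rw [e, pop_const h.ti ht hy]; ring
theorem id2_c : dX (fun _ z => 1 - 2 * z) t y = -4 * (y * (1 - y)) := by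
  have := dY_eq (u := fun _ z => 1 - 2 * z) (t := t) hy
    (((hasDerivAt_id y).const_mul 2).const_sub 1).hasDerivWithinAt
  simp only [dX, this]; ring
theorem id2_v : dX (fun _ z => z * (1 - z)) t y = 2 * (1 - 2 * y) * (y * (1 - y)) := by
  have := dY_eq (u := fun _ z => z * (1 - z)) (t := t) hy
    ((hasDerivAt_id y).mul ((hasDerivAt_id y).const_sub 1)).hasDerivWithinAt
  simp only [dX, this, id]; ring
theorem id2_sc : SmAt (Icc 0 t₁) (fun _ z => 1 - 2 * z) t y :=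
  (smAt_const 1).sub ((smAt_const 2).mul smAt_y)
theorem id2_sv : SmAt (Icc 0 t₁) (fun _ z => z * (1 - z)) t y :=
  smAt_y.mul ((smAt_const 1).sub smAt_y)
theorem id2_T (φ : ℝ → ℝ) : dT (Icc 0 t₁) (fun _ z => φ z) t y = 0 :=
  dT_eq h.ti ht (hasDerivWithinAt_const _ _ _)
theorem id2_pc : S.Pop (Icc 0 t₁) (fun _ z => 1 - 2 * z) t y =
    4 * (y * (1 - y)) * (S.f2 t y * S.B t y + 4 * (1 - 2 * y)) +
      8 * (1 - 2 * y) * (y * (1 - y)) := by
  have e1 : dX (dX fun _ z => 1 - 2 * z) t y = dX (fun _ z => -4 * (z * (1 - z))) t y :=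
    dX_congr_on ro_Icc (fun z hz => h.id2_c ht hz) hy
  have e2 := (h.id2_cm ht hy (h.id2_sv ht hy) (-4)).1
  have e3 := h.id2_T ht hy fun z => 1 - 2 * z
  simp only [St.Pop]
  rw [e1, e2, e3, h.id2_v ht hy, h.id2_c ht hy]; ring
theorem id2_pv : S.Pop (Icc 0 t₁) (fun _ z => z * (1 - z)) t y =
    -(S.f2 t y * S.B t y + 4 * (1 - 2 * y)) * (2 * (1 - 2 * y) * (y * (1 - y))) -
      (4 * (1 - 2 * y) ^ 2 * (y * (1 - y)) - 8 * (y * (1 - y)) ^ 2) := by
  have e1 : dX (dX fun _ z => z * (1 - z)) t y =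
      dX (fun _ z => 2 * ((1 - 2 * z) * (z * (1 - z)))) t y :=
    dX_congr_on ro_Icc (fun z hz => (h.id2_v ht hz).trans (by ring)) hy
  have e2 := (h.id2_cm ht hy ((h.id2_sc ht hy).mul (h.id2_sv ht hy)) 2).1
  have e3 := h.id2_T ht hy fun z => z * (1 - z)
  have e4 := dX_mul h.ti ht hy (h.id2_sc ht hy) (h.id2_sv ht hy)
  simp only [St.Pop]
  rw [e1, e2, e3, e4, h.id2_v ht hy, h.id2_c ht hy]; ring

theorem pop_A : S.Pop (Icc 0 t₁) S.A t y =
    S.f2 t y * S.B t y * (1 - 2 * y) - 20 * (y * (1 - y)) := by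
  have e := dT_eq h.ti ht (h.sol.eqA t ht y hy)
  have e2 := St.dX_dX t y (h.sm_A.smAt ht hy) h.ti ht hy
  have e3 : exp (2 * S.A t y) * exp (-2 * S.A t y) = 1 := by rw [← exp_add]; simp
  simp only [St.Pop]
  rw [e, e2]
  simp only [rhsA, DD, dX, St.f2]
  linear_combination (y * (1 - y) * (4 * (y * (1 - y)) * dY (dY S.A) t y +
    12 * (1 - 2 * y) * dY S.A t y - 20)) * e3
theorem pop_β : S.Pop (Icc 0 t₁) S.β t y = -4 * S.th t y := by
  have e := dT_eq h.ti ht (h.sol.eqβ t ht y hy)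
  have e2 := St.dX_dX t y (h.sm_β.smAt ht hy) h.ti ht hy
  have e3 : exp (2 * S.A t y) * exp (-2 * S.A t y) = 1 := by rw [← exp_add]; simp
  have e4 : exp (2 * S.A t y - 2 * S.β t y) = exp (2 * S.A t y) * exp (-2 * S.β t y) := by
    rw [← exp_add]; ring_nf
  simp only [St.Pop]
  rw [e, e2]
  simp only [rhsB, DD, dX, St.f2, St.th, e4]
  linear_combination (y * (1 - y) * (4 * (y * (1 - y)) * dY (dY S.β) t y +
    12 * (1 - 2 * y) * dY S.β t y)) * e3
theorem id2_e (a b : ℝ) :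
    dX (fun s z => exp (a * S.A s z + b * S.β s z)) t y =
      exp (a * S.A t y + b * S.β t y) * (a * dX S.A t y + b * S.bb t y) ∧
    S.Pop (Icc 0 t₁) (fun s z => exp (a * S.A s z + b * S.β s z)) t y =
      exp (a * S.A t y + b * S.β t y) * (a * (S.f2 t y * S.B t y * (1 - 2 * y) -
        20 * (y * (1 - y))) - 4 * b * S.th t y - (a * dX S.A t y + b * S.bb t y) ^ 2) := by
  have sA := h.sm_A.smAt ht hy
  have sβ := h.sm_β.smAt ht hy
  have e1 := dX_add h.ti ht hy ((smAt_const a).mul sA) ((smAt_const b).mul sβ)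
  have e2 := pop_add h.ti ht hy S ((smAt_const a).mul sA) ((smAt_const b).mul sβ)
  rw [(h.id2_cm ht hy sA a).1, (h.id2_cm ht hy sβ b).1] at e1
  rw [(h.id2_cm ht hy sA a).2, (h.id2_cm ht hy sβ b).2, h.pop_A ht hy, h.pop_β ht hy] at e2
  refine ⟨(dX_comp h.ti ht hy (h.id2_sl ht hy a b) (hasDerivAt_exp _)).trans (by rw [e1]; rfl),
    (pop_comp h.ti ht hy S (h.id2_sl ht hy a b) (φ' := exp)
      (Eventually.of_forall hasDerivAt_exp) (hasDerivAt_exp _)).trans ?_⟩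
  rw [e1, e2, St.bb]; ring
theorem id2_ve (b : ℝ) :
    S.Pop (Icc 0 t₁) (fun s z => z * (1 - z) * exp (2 * S.A s z + b * S.β s z)) t y =
      y * (1 - y) * exp (2 * S.A t y + b * S.β t y) *
        (-8 - 4 * b * S.th t y - (2 * S.aa t y + b * S.bb t y) ^ 2) := by
  refine (pop_mul h.ti ht hy S (h.id2_sv ht hy) (h.id2_sl ht hy 2 b).exp).trans ?_
  rw [(h.id2_e ht hy 2 b).1, (h.id2_e ht hy 2 b).2, h.id2_pv ht hy, h.id2_v ht hy]
  simp only [St.aa]; ring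
theorem id2_h (b : ℝ) : S.Pop (Icc 0 t₁) (fun s z => exp (b * S.β s z)) t y =
    exp (b * S.β t y) * (-4 * b * S.th t y - b ^ 2 * S.bb t y ^ 2) := by
  have := (h.id2_e ht hy 0 b).2
  simp only [zero_mul, zero_add] at this
  rw [this]; ring
theorem pop_f2 : S.Pop (Icc 0 t₁) S.f2 t y = S.f2 t y * (-8 - 4 * S.aa t y ^ 2) := by
  have := h.id2_ve ht hy 0
  simp only [zero_mul, add_zero] at this
  exact this.trans (by simp only [St.f2]; ring)
theorem pop_hh : S.Pop (Icc 0 t₁) S.hh t y = S.hh t y * (-4 * S.th t y - S.bb t y ^ 2) := by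
  have := h.id2_h ht hy 1
  simp only [one_mul] at this
  exact this.trans (by simp only [St.hh]; ring)
theorem pop_hh_zpow (q : ℤ) : S.Pop (Icc 0 t₁) (fun s z => S.hh s z ^ q) t y =
    S.hh t y ^ q * (-4 * q * S.th t y - q ^ 2 * S.bb t y ^ 2) := by
  have e : ∀ s z, S.hh s z ^ q = exp (q * S.β s z) := fun s z => by
    rw [mul_comm, exp_mul, rpow_intCast]; rfl
  simp only [e]
  exact h.id2_h ht hy q
theorem pop_HH : S.Pop (Icc 0 t₁) S.HH t y = -12 * S.KK t y - 9 * S.bb t y ^ 2 * S.HH t y := by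
  refine (h.id2_h ht hy 3).trans ?_
  rw [S.KK_eq, ← S.HH_eq]
  simp only [St.HH]; ring
theorem pop_KK : S.Pop (Icc 0 t₁) S.KK t y = S.KK t y * (-8 - 4 * S.th t y - S.kk t y ^ 2) := by
  have := h.id2_ve ht hy 1
  simp only [one_mul] at this
  exact this.trans (by simp only [St.KK, St.kk]; ring)
theorem pop_th : S.Pop (Icc 0 t₁) S.th t y =
    S.th t y * (-8 + 8 * S.th t y - 4 * (S.aa t y - S.bb t y) ^ 2) := by
  have := h.id2_ve ht hy (-2)
  simp only [neg_mul, ← sub_eq_add_neg] at this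
  exact this.trans (by simp only [St.th]; ring)
theorem pop_sg : S.Pop (Icc 0 t₁) S.sg t y =
    -9 * S.f2 t y - 4 * S.bb t y ^ 2 * S.hh t y ^ 2 := by
  have e1 := pop_time h.ti ht hy S ((hasDerivAt_id t).const_sub S.τ₀)
  have e2 := pop_add h.ti ht hy S ((smAt_const S.τ₀).sub smAt_t)
    ((smAt_const 2).mul (h.sm_β.smAt ht hy)).exp
  have e3 : exp (2 * S.β t y) = S.hh t y ^ 2 := by
    have := S.sg_eq t y
    simp only [St.sg] at this
    linarith
  refine e2.trans ?_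
  rw [h.id2_h ht hy 2, e3]
  simp only [id] at e1
  rw [e1, S.f2_eq]; ring
theorem id2_sd : SmAt (Icc 0 t₁) (fun s z => S.f2 s z * S.B s z + 4 * (1 - 2 * z)) t y :=
  ((h.sm_f2.smAt ht hy).mul (h.sm_B.smAt ht hy)).add ((smAt_const 4).mul (h.id2_sc ht hy))
/-- The commutator of `𝒫` and `'`. -/
theorem pop_dX {u : Fn} (hu : SmAt (Icc 0 t₁) u t y) : S.Pop (Icc 0 t₁) (dX u) t y =
    dX (S.Pop (Icc 0 t₁) u) t y - 2 * S.aa t y * S.Pop (Icc 0 t₁) u t y -
      2 * S.aa t y * dX (dX u) t y - (4 + S.WW t y) * dX u t y := by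
  have s0 := hu.dT h.ti ht hy
  have s1 := hu.dX h.ti ht hy
  have s2 := s1.dX h.ti ht hy
  have sf := h.sm_f2.smAt ht hy
  have sd := h.id2_sd ht hy
  have e1 : dX (S.Pop (Icc 0 t₁) u) t y = _ := dX_sub h.ti ht hy ((sf.mul s0).sub (sd.mul s1)) s2
  rw [dX_sub h.ti ht hy (sf.mul s0) (sd.mul s1), dX_mul h.ti ht hy sf s0, dX_mul h.ti ht hy sd s1,
    h.dX_f2 ht hy, h.dX_drift ht hy, ← dT_dX h.ti ht hy hu] at e1
  rw [e1]
  simp only [St.Pop]; ring
theorem smAt_pop {u : Fn} (hu : SmAt (Icc 0 t₁) u t y) :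
    SmAt (Icc 0 t₁) (S.Pop (Icc 0 t₁) u) t y := by
  have s1 := hu.dX h.ti ht hy
  exact (((h.sm_f2.smAt ht hy).mul (hu.dT h.ti ht hy)).sub ((h.id2_sd ht hy).mul s1)).sub
    (s1.dX h.ti ht hy)
theorem pop_aa : S.Pop (Icc 0 t₁) S.aa t y =
    -2 * S.aa t y * dX S.aa t y + (4 - S.WW t y) * S.aa t y := by
  have sA := h.sm_A.smAt ht hy
  have sc := h.id2_sc ht hy
  have sv := h.id2_sv ht hy
  have sd := h.id2_sd ht hy
  have e1 : S.Pop (Icc 0 t₁) S.aa t y = _ := pop_add h.ti ht hy S sc (sA.dX h.ti ht hy)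
  have e2 : dX (S.Pop (Icc 0 t₁) S.A) t y = dX (fun s z => (S.f2 s z * S.B s z + 4 * (1 - 2 * z)) *
      (1 - 2 * z) - (4 * ((1 - 2 * z) * (1 - 2 * z)) + 20 * (z * (1 - z)))) t y :=
    dX_congr_on ro_Icc (fun z hz => (h.pop_A ht hz).trans (by ring)) hy
  rw [dX_sub h.ti ht hy (sd.mul sc) (((smAt_const 4).mul (sc.mul sc)).add ((smAt_const 20).mul sv)),
    dX_add h.ti ht hy ((smAt_const 4).mul (sc.mul sc)) ((smAt_const 20).mul sv),
    dX_mul h.ti ht hy sd sc, (h.id2_cm ht hy (sc.mul sc) 4).1, (h.id2_cm ht hy sv 20).1,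
    dX_mul h.ti ht hy sc sc, h.dX_drift ht hy, h.id2_c ht hy, h.id2_v ht hy] at e2
  have e3 : dX S.A t y = S.aa t y - (1 - 2 * y) := by simp only [St.aa]; ring
  rw [e1, h.pop_dX ht hy sA, e2, h.id2_pc ht hy, h.pop_A ht hy, h.dX_aa ht hy, e3]; ring
theorem pop_bb : S.Pop (Icc 0 t₁) S.bb t y =
    -2 * S.aa t y * dX S.bb t y + (8 * S.th t y - 4 - S.WW t y) * S.bb t y := by
  have e2 : dX (S.Pop (Icc 0 t₁) S.β) t y = dX (fun s z => -4 * S.th s z) t y :=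
    dX_congr_on ro_Icc (fun z hz => h.pop_β ht hz) hy
  rw [(h.id2_cm ht hy (h.sm_th.smAt ht hy) (-4)).1, h.dX_th ht hy] at e2
  refine (h.pop_dX ht hy (h.sm_β.smAt ht hy)).trans ?_
  rw [e2, h.pop_β ht hy]
  simp only [St.bb]; ring
theorem pop_EE : S.Pop (Icc 0 t₁) S.EE t y =
    S.C1 t y * S.nn t y + S.cE t y * S.Sg t y * S.EE t y := by
  refine (pop_sub h.ti ht hy S (h.sm_HH.smAt ht hy) (h.sm_KK.smAt ht hy)).trans ?_
  have e : 3 + S.th t y ≠ 0 := by linarith [S.th_nonneg (t := t) hy]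
  rw [h.pop_HH ht hy, h.pop_KK ht hy]
  simp only [St.C1, St.cE, St.nn, St.Sg, St.EE, St.kk]
  rw [S.KK_eq, S.HH_eq]
  field_simp
  ring
theorem pop_Sg : S.Pop (Icc 0 t₁) S.Sg t y = -2 * S.aa t y * dX S.Sg t y -
    S.Gam t y / 3 * S.Sg t y - (27 + S.th t y) * S.vt t y ^ 2 := by
  have sa := h.sm_aa.smAt ht hy
  have sb := h.sm_bb.smAt ht hy
  have st := h.sm_th.smAt ht hy
  have s1 := (smAt_const 3).mul (sa.add sb)
  have e1 : S.Pop (Icc 0 t₁) S.Sg t y = _ := pop_sub h.ti ht hy S (s1.sub (smAt_const 3)) st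
  have e2 : dX S.Sg t y = _ := dX_sub h.ti ht hy (s1.sub (smAt_const 3)) st
  rw [pop_sub h.ti ht hy S s1 (smAt_const 3), pop_const h.ti ht hy, (h.id2_cm ht hy (sa.add sb) 3).2,
    pop_add h.ti ht hy S sa sb, h.pop_aa ht hy, h.pop_bb ht hy, h.pop_th ht hy] at e1
  rw [dX_sub h.ti ht hy s1 (smAt_const 3), dX_time h.ti ht hy fun _ => 3,
    (h.id2_cm ht hy (sa.add sb) 3).1, dX_add h.ti ht hy sa sb, h.dX_th ht hy] at e2
  rw [e1, e2]
  simp only [St.Gam, St.Sg, St.vt, St.WW]; ring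
theorem pop_nn : S.Pop (Icc 0 t₁) S.nn t y = (S.C1 t y - 2 * S.aa t y) * dX S.nn t y +
    (dX S.C1 t y - 2 * S.aa t y * S.C1 t y - 4 - S.WW t y) * S.nn t y +
    (dX (fun s z => S.cE s z * S.Sg s z * S.EE s z) t y -
      2 * S.aa t y * (S.cE t y * S.Sg t y * S.EE t y)) := by
  have sE := h.sm_EE.smAt ht hy
  have sC := h.sm_C1.smAt ht hy
  have sn := h.sm_nn.smAt ht hy
  have s3 := ((h.sm_cE.smAt ht hy).mul (h.sm_Sg.smAt ht hy)).mul sE
  have e1 : S.Pop (Icc 0 t₁) S.nn t y = S.Pop (Icc 0 t₁) (dX S.EE) t y :=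
    pop_congr h.ti ht hy S ro_Icc hy fun s hs z hz => (h.dX_EE hs hz).symm
  have e2 : dX (S.Pop (Icc 0 t₁) S.EE) t y =
      dX (fun s z => S.C1 s z * S.nn s z + S.cE s z * S.Sg s z * S.EE s z) t y :=
    dX_congr_on ro_Icc (fun z hz => h.pop_EE ht hz) hy
  have e3 : dX (dX S.EE) t y = dX S.nn t y := dX_congr_on ro_Icc (fun z hz => h.dX_EE ht hz) hy
  rw [dX_add h.ti ht hy (sC.mul sn) s3, dX_mul h.ti ht hy sC sn] at e2
  rw [e1, h.pop_dX ht hy sE, e2, e3, h.pop_EE ht hy, h.dX_EE ht hy]; ring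

end St.Sol

end Vale.Agent.P244
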