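import Vale.Agent.P244.N.Out
import Vale.Agent.P244.N.Trans

/-!
BLOCK N (notes/P244.md, Part A-N): the cone region and the exit directions.
-/

namespace Vale.Agent.P244

open scoped ContDiff Topology
open Set Filter Real

variable {κ : Cst}

theorem n_out (hκ : κ.Adm) : ∀ᶠ r in fam κ, ∀ t ∈ r.I, ∀ y ∈ Icc 0 (r.s ^ 3),
    κ.η * r.tau t ≤ r.S.rho t y → |r.S.u1 t y| ≤ 40 ∧ |r.S.EE t y| ≤ 40 * r.S.sg t y ^ 3 ∧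
      |1 - r.S.th t y| ≤ 1 / 10 ∧ r.tau t ^ 3 ≤ 4 * r.S.HH t y ∧
      (r.S.rho t y = κ.η * r.tau t → |r.S.nn t y| ≤ 4 * r.S.f2 t y * r.tau t ^ 2 ∧
        |r.S.EE t y - r.tau t ^ 3| ≤ r.tau t ^ 3 / 10) :=
  n_out' hκ

theorem n_trans (hκ : κ.Adm) : ∀ᶠ r in fam κ, ∀ t ∈ Ico 0 r.t₁, ∀ x,
    Ex (κ.ws r.s) r.S t x → ∀ j, |x j| < 1 :=
  n_trans' hκ


end Vale.Agent.P244
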