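import Vale.Agent.P244.I.MainN
import Vale.Agent.P244.I.MainS

/-!
BLOCK I (notes/P244.md, Part A-I): the bubble region and the barriers for `n` and `Σ`.
-/

namespace Vale.Agent.P244

open scoped ContDiff Topology
open Set Filter Real

variable {κ : Cst}

theorem i_E (hκ : κ.Adm) : ∀ᶠ r in fam κ, ∀ t ∈ r.I, ∀ y ∈ Icc 0 (r.s ^ 3),
    r.S.rho t y ≤ κ.η * r.tau t → r.tau t ^ 3 / 2 ≤ r.S.EE t y ∧ r.S.EE t y ≤ 2 * r.tau t ^ 3 ∧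
      r.S.hh t y ^ 2 ≤ 3 * κ.η * r.tau t :=
  i_E' hκ

theorem i_n : ∃ M, ∀ κ : Cst, κ.Adm → ∀ᶠ r in fam κ, ∀ t ∈ r.I, ∀ y ∈ Icc 0 (r.s ^ 3),
    r.S.rho t y ≤ κ.η * r.tau t → |r.S.u1 t y| ≤ M :=
  i_n'

theorem i_S : ∃ M : ℝ → ℝ → ℝ, ∀ κ : Cst, κ.Adm → ∀ᶠ r in fam κ, ∀ t ∈ r.I,
    ∀ y ∈ Icc 0 (r.s ^ 3), |r.S.u2 t y| ≤ M κ.Am κ.AE :=
  i_S'


end Vale.Agent.P244
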