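import Vale.Agent.P244.A.Inn
import Vale.Agent.P244.A.Fin1
import Vale.Agent.P244.A.Fin2
import Vale.Agent.P244.A.Fin3

/-!
BLOCK A, final form: the choice of the constants.
-/

namespace Vale.Agent.P244

open Set Filter

theorem ev_impr {κ : Cst} (hκ : κ.Adm) {M1 Mn MS : ℝ} (h1 : 2 * M1 ≤ κ.A1) (hn : 2 * Mn ≤ κ.Am)
    (hn' : 80 ≤ κ.Am) (hE : 80 ≤ κ.AE) (hS : 2 * MS ≤ κ.AS)
    (e1 : ∀ᶠ r in fam κ, ∀ t ∈ r.I, ∀ y ∈ Icc (0 : ℝ) 1,
      |XX r.S.A t y| ≤ M1 ∧ |XX (XX r.S.A) t y| ≤ M1 ∧ |XX r.S.β t y| ≤ M1 ∧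
        |XX (XX r.S.β) t y| ≤ M1)
    (en : ∀ᶠ r in fam κ, ∀ t ∈ r.I, ∀ y ∈ Icc 0 (r.s ^ 3),
      r.S.rho t y ≤ κ.η * r.tau t → |r.S.u1 t y| ≤ Mn)
    (eS : ∀ᶠ r in fam κ, ∀ t ∈ r.I, ∀ y ∈ Icc 0 (r.s ^ 3), |r.S.u2 t y| ≤ MS) :
    ∀ᶠ r in fam κ, ∀ t ∈ r.I, Tr (κ.ws r.s) r.S (1 / 2) t := by
  filter_upwards [e1, en, eS, bas_I hκ, far_X hκ (ε := 1 / 2) (by norm_num), n_out hκ, i_E hκ,
    f_h hκ] with r e1 en eS eb ef eo ei eh t ht
  have hτ := r.tau_pos ht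
  refine ⟨fun y hy => ?_, fun y hy => ef 0 (by norm_num) t ht y hy, fun y hy => ?_⟩
  · obtain ⟨a, b, c, d⟩ := e1 t ht y hy
    simp only [Cst.ws]
    exact ⟨by linarith, by linarith, by linarith, by linarith⟩
  · have hb := eb t ht y hy
    have hy1 : y ∈ Icc (0 : ℝ) 1 := ⟨hb.mem.1, hb.mem.2.trans (by norm_num)⟩
    have hh := r.S.hh_pos t y
    have hsg : r.tau t ≤ r.S.sg t y := by
      rw [St.sg_eq]
      nlinarith
    have hs3 : r.tau t ^ 3 ≤ r.S.sg t y ^ 3 := pow_le_pow_left₀ hτ.le hsg 3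
    have ht3 : 0 < r.tau t ^ 3 := pow_pos hτ 3
    have hK := r.S.KK_nonneg (t := t) hy1
    have hk := abs_le.1 hb.k
    have hth := hb.th
    have hhs := (eh t ht).1 y hy
    have hu2 := eS t ht y hy
    simp only [Rn.tau] at hs3 ht3
    rcases le_total (r.S.rho t y) (κ.η * r.tau t) with hc | hc
    · obtain ⟨a, b, -⟩ := ei t ht y hy hc
      have hu := en t ht y hy hc
      simp only [Rn.tau] at a b
      have hH : r.S.EE t y = r.S.HH t y - r.S.KK t y := rfl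
      have hE' := r.S.EE_eq t y
      have h3 : 0 < r.S.hh t y ^ 3 := pow_pos hh 3
      refine ⟨?_, ?_, ?_, ?_, ?_, ?_, ?_⟩ <;> (try simp only [Cst.ws])
      · linarith
      · linarith
      · linarith
      · rw [abs_of_pos (by linarith)]
        nlinarith
      · by_contra hcon
        have : (1 - r.S.th t y) * r.S.hh t y ^ 3 < 0 := mul_neg_of_neg_of_pos (by linarith) h3
        linarith
      · linarith
      · linarith
    · obtain ⟨a, b, c, d, -⟩ := eo t ht y hy hc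
      have c' := abs_le.1 c
      simp only [Rn.tau] at d
      refine ⟨?_, ?_, ?_, ?_, ?_, ?_, ?_⟩ <;> (try simp only [Cst.ws])
      · linarith
      · linarith
      · linarith
      · nlinarith
      · linarith
      · linarith
      · linarith

theorem apriori : ∃ (κ : Cst) (τ₀ : ℝ), κ.Pos ∧ 0 < τ₀ ∧ τ₀ ≤ 1 ∧ GoodData κ τ₀ ∧ GoodRun κ τ₀ := by
  obtain ⟨M1, e1⟩ := f_F1
  obtain ⟨Mn, en⟩ := i_n
  obtain ⟨MS, eS⟩ := i_S
  obtain ⟨MD, eD⟩ := data_good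
  have p1 := le_abs_self M1
  have p2 := le_abs_self Mn
  have p3 := le_abs_self MD
  have q1 := abs_nonneg M1
  have q2 := abs_nonneg Mn
  have q3 := abs_nonneg MD
  obtain ⟨Am, hAm⟩ : ∃ Am : ℝ, Am = 80 + 2 * |Mn| + |MD| := ⟨_, rfl⟩
  obtain ⟨AE, hAE⟩ : ∃ AE : ℝ, AE = 80 + |MD| := ⟨_, rfl⟩
  have p4 := le_abs_self (MS Am AE)
  have q4 := abs_nonneg (MS Am AE)
  have hAm0 : 0 < Am := by linarith
  let κ : Cst := ⟨1 + 2 * |M1| + |MD|, Am, AE, 1 + 2 * |MS Am AE| + |MD|, 1 / (1000 * Am), 1 / 100, 1⟩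
  have hη : 0 < κ.η := by positivity
  have hηA : κ.η * κ.Am = 1 / 1000 := by
    simp only [κ]
    field_simp
  have hκ : κ.Adm := ⟨by simp only [κ]; linarith, by simp only [κ]; linarith,
    by simp only [κ]; linarith, by simp only [κ]; linarith, hη, hηA.le, by simp only [κ]; norm_num,
    le_rfl⟩
  obtain ⟨CR, eR⟩ := f_R hκ
  obtain ⟨N, eN⟩ := f_N hκ
  have eI := ev_impr hκ (M1 := M1) (Mn := Mn) (MS := MS Am AE) (by simp only [κ]; linarith)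
    (by simp only [κ]; linarith) (by simp only [κ]; linarith) (by simp only [κ]; linarith)
    (by simp only [κ]; linarith) (e1 κ hκ) (en κ hκ) (eS κ hκ)
  obtain ⟨s₀, hs₀, H⟩ := eventually_fam.1
    (eI.and ((f_h hκ).and ((n_trans hκ).and (eR.and (eN.and (i_E hκ))))))
  obtain ⟨s₁, hs₁, HD⟩ := eD κ hκ (by simp only [κ]; linarith) (by simp only [κ]; linarith)
    (by simp only [κ]; linarith) (by simp only [κ]; linarith)
  obtain ⟨s, hs, hs0, hs1, hs2⟩ : ∃ s : ℝ, 0 < s ∧ s ≤ s₀ ∧ s ≤ s₁ ∧ s ≤ 1 / 10 :=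
    ⟨min s₀ (min s₁ (1 / 10)), lt_min hs₀ (lt_min hs₁ (by norm_num)), min_le_left _ _,
      (min_le_right _ _).trans (min_le_left _ _), (min_le_right _ _).trans (min_le_right _ _)⟩
  obtain ⟨τ₁, hτ₁, H⟩ := H s ⟨hs, hs0⟩
  obtain ⟨τ₂, hτ₂, HD⟩ := HD s ⟨hs, hs1⟩
  obtain ⟨τ₀, h0, h1, h2, h3⟩ : ∃ τ : ℝ, 0 < τ ∧ τ ≤ τ₁ ∧ τ ≤ τ₂ ∧ τ ≤ 1 :=
    ⟨min τ₁ (min τ₂ 1), lt_min hτ₁ (lt_min hτ₂ one_pos), min_le_left _ _,
      (min_le_right _ _).trans (min_le_left _ _), (min_le_right _ _).trans (min_le_right _ _)⟩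
  have K := fun S c t₁ (e : S.τ₀ = τ₀) (run : Run (κ.ws s) S c t₁) =>
    H ⟨s, S, c, t₁, hs, run⟩ rfl (e ▸ h1)
  have hη' : κ.η ≤ 1 / 100 := by
    have := hκ.Am
    nlinarith
  refine ⟨κ.ws s, τ₀, ⟨hκ.A1, hκ.Am, hκ.AE, hκ.AS, hη, hη', hκ.δ, hκ.δ', hs, hs2⟩, h0, h3,
    HD τ₀ ⟨h0, h2⟩, fun S c t₁ e run => (K S c t₁ e run).1, fun S c t₁ e run t ht => ?_,
    fun S c t₁ e run => (K S c t₁ e run).2.2.1,
    ⟨CR s, fun S c t₁ e run => (K S c t₁ e run).2.2.2.1⟩,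
    fun T hT => ⟨N s (τ₀ - T), fun S c t₁ e run hle t ht => ?_⟩, fun S c t₁ e run t ht => ?_⟩
  · exact e ▸ ((K S c t₁ e run).2.1 t ht).2
  · refine (K S c t₁ e run).2.2.2.2.1 (τ₀ - T) (by linarith) t ht ?_
    have := ht.2
    simp only [Rn.tau, e]
    linarith
  · have hτ : 0 < S.τ₀ - t := by
      have := run.sol.lt
      have := ht.2
      linarith
    have h := ((K S c t₁ e run).2.2.2.2.2 t ht 0 ⟨le_rfl, by positivity⟩ (by
      rw [St.rho_zero]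
      exact (mul_pos hη hτ).le)).2.1
    simp only [Rn.tau, St.EE, St.KK, e, zero_mul, sub_zero] at h
    exact h

end Vale.Agent.P244
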