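import Vale.Agent.P244.A.Bas
import Vale.Agent.P244.P0.Ind

/-!
BLOCK P0 (notes/P244.md, Part A-P): global bounds for all Euler derivatives.
-/

namespace Vale.Agent.P244

open scoped ContDiff Topology
open Set Filter Real

variable {κ : Cst}

theorem p0_base (hκ : κ.Adm) : ∀ᶠ r in fam κ,
    P0.Hy (180000 * κ.A1 ^ 2 + 200 + κ.A1) 2 r.S r.t₁ := by
  filter_upwards [bas_G hκ] with r hr
  have a0 := hκ.A1
  have a1 : 0 ≤ κ.A1 ^ 2 := sq_nonneg _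
  refine ⟨r.sol, fun t ht y hy => ?_, fun i i1 i2 t ht y hy => ?_⟩
  · obtain ⟨w, p, th, -, b0, b1⟩ := hr t ht y hy
    have e : exp (2 * r.S.A t y) * exp (-2 * r.S.A t y) = 1 := by
      rw [← exp_add]
      simp
    have e0 := exp_pos (2 * r.S.A t y)
    have p0 : 0 ≤ y * exp (2 * r.S.A t y) := mul_nonneg hy.1 e0.le
    have b2 : 0 ≤ y * r.S.B t y := mul_nonneg hy.1 b0
    refine ⟨?_, ?_, ?_⟩
    · have : 1 / 100 ≤ exp (2 * r.S.A t y) := by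
        linarith [mul_le_mul_of_nonneg_left w e0.le]
      have := mul_le_mul_of_nonneg_left this hy.1
      simp only [P0.psi]
      linarith
    · have e1 : P0.mu r.S t y = y * exp (2 * r.S.A t y) * (y * r.S.B t y) := by
        simp only [P0.mu, P0.psi]
        ring
      rw [e1, abs_of_nonneg (mul_nonneg p0 b2)]
      linarith [mul_le_mul p b1 b2 (by norm_num)]
    · have e1 : P0.tt r.S t y = y * exp (2 * r.S.A t y - 2 * r.S.β t y) := by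
        simp only [P0.tt, P0.psi]
        rw [mul_assoc, ← exp_add, neg_mul, ← sub_eq_add_neg]
      rw [e1, abs_of_nonneg (mul_nonneg hy.1 (exp_pos _).le)]
      linarith
  · obtain ⟨f1, f2, f3, f4⟩ := (r.tr ht).F1 y hy
    have e : (1 : ℝ) * (κ.ws r.s).A1 ≤ 180000 * κ.A1 ^ 2 + 200 + κ.A1 := by
      change 1 * κ.A1 ≤ _
      linarith
    interval_cases i
    · exact ⟨f1.trans e, f3.trans e⟩
    · exact ⟨f2.trans e, f4.trans e⟩

theorem p0_hy (hκ : κ.Adm) (l : ℕ) : ∃ K, 0 ≤ K ∧ ∀ᶠ r in fam κ, P0.Hy K (l + 2) r.S r.t₁ := by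
  induction l with
  | zero => exact ⟨_, by linarith [hκ.A1, sq_nonneg κ.A1], p0_base hκ⟩
  | succ l ih =>
    obtain ⟨K, K0, hK⟩ := ih
    obtain ⟨M, hM⟩ := data_X (l + 3)
    obtain ⟨K', K1, h⟩ := P0.ind K M K0 l
    refine ⟨K', K1, ?_⟩
    filter_upwards [hK, ev_dok hκ] with r h1 h2
    exact h _ _ h1 (hM _ _ _ h2 (l + 3) (by omega) le_rfl)

theorem p0 (hκ : κ.Adm) (n : ℕ) : ∃ C, ∀ᶠ r in fam κ, ∀ i, 1 ≤ i → i ≤ n → ∀ t ∈ r.I,
    ∀ y ∈ Icc (0 : ℝ) 1, |XX^[i] r.S.A t y| ≤ C ∧ |XX^[i] r.S.β t y| ≤ C := by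
  obtain ⟨K, -, hK⟩ := p0_hy hκ n
  exact ⟨K, hK.mono fun r h i i1 i2 => h.X i i1 (by omega)⟩

theorem p0_ab (hκ : κ.Adm) (n : ℕ) : ∃ C, ∀ᶠ r in fam κ, ∀ i ≤ n, ∀ t ∈ r.I,
    ∀ y ∈ Icc (0 : ℝ) 1, |dX^[i] r.S.aa t y| ≤ C ∧ |dX^[i] r.S.bb t y| ≤ C := by
  obtain ⟨K, K0, hK⟩ := p0_hy hκ n
  let q : Rn κ → Prop := fun r => P0.Hy K (n + 2) r.S r.t₁
  have hN : ∀ (_ : Ix q) (_ : ℝ), (1 : ℝ) ≤ 1 := fun _ _ => le_rfl
  have ht : ∀ i : Ix q, i.1.2 ∈ Icc 0 i.1.1.t₁ := fun i => i.2.2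
  have hA : P0.S1 (P0.cx (fun _ _ => 1) hN) n fun i => XX i.1.1.S.A i.1.2 := by
    refine Ctx.Sy.pred (Ctx.sy_of_iter
      (P0.cx_smo ht fun i => P0.sm_XX i.1.1.ti i.1.1.sol.sm_A) (fun k hk => ?_) ?_)
    · rw [P0.cx_iter]
      exact ⟨K, K0, fun i y hy => by
        simpa using (i.2.1.X (k + 1) (by omega) (by omega) _ (ht i) y hy).1⟩
    · rw [P0.cx_iter]
      exact ⟨K, K0, fun i y hy => by
        simpa [P0.cx] using (i.2.1.X (n + 1 + 1) (by omega) (by omega) _ (ht i) y hy).1⟩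
  have hβ : P0.S1 (P0.cx (fun _ _ => 1) hN) n fun i => XX i.1.1.S.β i.1.2 := by
    refine Ctx.Sy.pred (Ctx.sy_of_iter
      (P0.cx_smo ht fun i => P0.sm_XX i.1.1.ti i.1.1.sol.sm_β) (fun k hk => ?_) ?_)
    · rw [P0.cx_iter]
      exact ⟨K, K0, fun i y hy => by
        simpa using (i.2.1.X (k + 1) (by omega) (by omega) _ (ht i) y hy).2⟩
    · rw [P0.cx_iter]
      exact ⟨K, K0, fun i y hy => by
        simpa [P0.cx] using (i.2.1.X (n + 1 + 1) (by omega) (by omega) _ (ht i) y hy).2⟩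
  obtain ⟨C1, h1⟩ := P0.conv n (g := fun i : Ix q => i.1.1.S.aa i.1.2)
    (((Ctx.sy_poly (φ := fun y => 1 - 2 * y) (by fun_prop)).add
      (P0.s1_pmul (φ := fun y => 2 * (1 - y)) (by fun_prop) hA)).congr fun i y _ => by
        simp only [St.aa, St.dX_eq_XX])
  obtain ⟨C2, h2⟩ := P0.conv n (g := fun i : Ix q => i.1.1.S.bb i.1.2)
    ((P0.s1_pmul (φ := fun y => 2 * (1 - y)) (by fun_prop) hβ).congr fun i y _ => by
        simp only [St.bb, St.dX_eq_XX])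
  refine ⟨max C1 C2, hK.mono fun r h i hi t ht y hy => ?_⟩
  rw [dX_iter_eq_dl, dX_iter_eq_dl]
  exact ⟨(h1 i hi ⟨(r, t), h, ht⟩ y hy).trans (le_max_left _ _),
    (h2 i hi ⟨(r, t), h, ht⟩ y hy).trans (le_max_right _ _)⟩

end Vale.Agent.P244
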