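import Vale.Agent.P244.A.Bas

/-!
Symbol estimates of the basic quantities in the inner region, for any context over runs.
Plan: `sy_of_log` with `dX_f2`, `dX_hh`, `dX_th` (`c.D (F g) i y = dX (g S) t y` by `hc.cf`);
`σ = τ + h²` with `sy_const`, `h² ≤ σ`, `τ ≤ σ`; inverses by `Sy.inv`; polynomials by `Sy.mul`,
`Sy.add`, `Sy.mono`, `Sy.congr`.  Smoothness from `A/Id0` (`SmAt.slice`).
-/

namespace Vale.Agent.P244

open scoped ContDiff Topology
open Set Filter Real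

/-- A quantity as a family of functions of `y`. -/
def F {κ : Cst} {q : Rn κ → Prop} (g : St → Fn) : Ix q → ℝ → ℝ := fun i => g i.1.1.S i.1.2

/-- A context in the inner region with `a`, `b` symbols of level `n + 1`. -/
structure IC {κ : Cst} {q : Rn κ → Prop} (c : Ctx (Ix q)) (n : ℕ) : Prop where
  cf : c.cf = fun y => 2 * (y * (1 - y))
  J : ∀ i, c.J i ⊆ Ico 0 1
  bas : ∀ i, ∀ y ∈ c.Ω i, BasI i.1.1.S i.1.2 y
  aa : c.Sy (n + 1) (fun _ _ => 1) (F St.aa)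
  bb : c.Sy (n + 1) (fun _ _ => 1) (F St.bb)

theorem syI_bd {ι : Type} {c : Ctx ι} {w g : ι → ℝ → ℝ} (C : ℝ) (hC : 0 ≤ C)
    (h : ∀ i, ∀ y ∈ c.Ω i, 0 ≤ g i y ∧ g i y ≤ C * w i y) : c.Bd w g :=
  ⟨C, hC, fun i y hy => by
    rw [abs_of_nonneg (h i y hy).1]
    exact (h i y hy).2.trans (mul_le_mul_of_nonneg_left (le_abs_self _) hC)⟩

theorem syI_eq {ι : Type} {c : Ctx ι} {w w' g : ι → ℝ → ℝ} {n : ℕ} (h : c.Sy n w g)
    (e : ∀ i, ∀ y ∈ c.Ω i, w' i y = w i y) : c.Sy n w' g :=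
  h.mono ((Ctx.Bd.refl' c w).congr' (fun _ _ _ => rfl) e)

theorem syI_mul {ι : Type} {c : Ctx ι} {w g g' : ι → ℝ → ℝ} {n : ℕ} (h : c.Sy (n + 1) w g)
    (h' : c.Sy (n + 1) (fun _ _ => 1) g') : c.Sy (n + 1) w (fun i y => g i y * g' i y) :=
  syI_eq (h.mul h') fun _ _ _ => (mul_one _).symm

theorem syI_const {ι : Type} (c : Ctx ι) (n : ℕ) (a : ℝ) :
    c.Sy n (fun _ _ => 1) (fun _ _ => a) :=
  Ctx.sy_const (fun _ => a) ⟨|a|, abs_nonneg a, fun _ _ _ => by simp⟩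

namespace IC

variable {κ : Cst} {q : Rn κ → Prop} {c : Ctx (Ix q)} {n : ℕ} (hc : IC c n)
include hc

theorem memJ {i : Ix q} {y : ℝ} (hy : y ∈ c.J i) : y ∈ Icc (0 : ℝ) 1 :=
  Ico_subset_Icc_self (hc.J i hy)
theorem memΩ {i : Ix q} {y : ℝ} (hy : y ∈ c.Ω i) : y ∈ Icc (0 : ℝ) 1 := hc.memJ (c.sub i hy)
omit hc in
theorem tle (i : Ix q) : i.1.2 ≤ i.1.1.S.τ₀ := i.2.2.2.trans i.1.1.sol.lt.le
omit hc in
theorem sq_le (i : Ix q) (y : ℝ) : F St.hh i y ^ 2 ≤ F St.sg i y := by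
  have := tle i
  simp only [F, St.sg_eq]
  linarith

theorem D_F (g : St → Fn) : c.D (F g) = F fun S => dX (g S) := by
  funext i y
  simp only [Ctx.D, F, hc.cf, dX_eq_dl]
theorem iter_F (g : St → Fn) (k : ℕ) : c.D^[k] (F g) = F fun S => dX^[k] (g S) := by
  funext i
  rw [Ctx.D_iter, hc.cf]
  exact (dX_iter_eq_dl _ _ k).symm
theorem smo {g : St → Fn} (h : ∀ (S : St) t₁, S.Sol t₁ → Sm (Icc 0 t₁) (g S)) : c.Smo (F g) := by
  exact fun i y hy => (h _ _ i.1.1.sol).slice i.2.2 y (hc.memJ hy)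
theorem smo_u2 : c.Smo (F St.u2) := by
  exact fun i y hy => (i.1.1.sol.sm_u2 i.2.2 (hc.J i hy)).slice i.2.2
theorem f2 : c.Sy (n + 1) (F St.f2) (F St.f2) := by
  refine Ctx.sy_of_log (hc.smo fun _ _ h => h.sm_f2) (hc.aa.pred.cmul 2) fun i y hy => ?_
  rw [hc.D_F]
  exact i.1.1.sol.dX_f2 i.2.2 (hc.memJ hy)
theorem hh : c.Sy (n + 1) (F St.hh) (F St.hh) := by
  refine Ctx.sy_of_log (hc.smo fun _ _ h => h.sm_hh) hc.bb.pred fun i y hy => ?_
  rw [hc.D_F]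
  exact i.1.1.sol.dX_hh i.2.2 (hc.memJ hy)
theorem hh_inv : c.Sy (n + 1) (fun i y => (F St.hh i y)⁻¹) (fun i y => (F St.hh i y)⁻¹) := by
  exact hc.hh.inv (fun i y _ => (St.hh_pos _ _ _).ne') (Ctx.Bd.refl' _ _)
    fun i y _ => (St.hh_pos _ _ _).ne'
theorem th : c.Sy (n + 1) (F St.th) (F St.th) := by
  refine Ctx.sy_of_log (hc.smo fun _ _ h => h.sm_th) ((hc.aa.sub hc.bb).pred.cmul 2)
    fun i y hy => ?_
  rw [hc.D_F]
  exact i.1.1.sol.dX_th i.2.2 (hc.memJ hy)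
theorem th1 : c.Sy (n + 1) (fun _ _ => 1) (F St.th) := by
  exact hc.th.mono (syI_bd 2 zero_le_two fun i y hy =>
    ⟨St.th_nonneg _ (hc.memΩ hy), (hc.bas i y hy).th.trans_eq (mul_one _).symm⟩)
theorem th3_inv : c.Sy (n + 1) (fun _ _ => 1) (fun i y => (3 + F St.th i y)⁻¹) := by
  have h0 : ∀ i, ∀ y ∈ c.J i, 0 ≤ F St.th i y := fun i y hy => St.th_nonneg _ (hc.memJ hy)
  refine syI_eq (((syI_const c _ 3).add hc.th1).inv (fun i y hy => ?_)
    (syI_bd 1 zero_le_one fun i y hy => ⟨zero_le_one, ?_⟩) fun _ _ _ => one_ne_zero)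
    fun _ _ _ => inv_one.symm
  · linarith [h0 i y hy]
  · linarith [h0 i y (c.sub i hy)]
theorem KK : c.Sy (n + 1) (F St.KK) (F St.KK) := by
  refine Ctx.sy_of_log (hc.smo fun _ _ h => h.sm_KK) ((hc.aa.cmul 2).add hc.bb).pred
    fun i y hy => ?_
  rw [hc.D_F]
  exact i.1.1.sol.dX_KK i.2.2 (hc.memJ hy)
theorem sg : c.Sy (n + 1) (F St.sg) (F St.sg) := by
  have h1 : c.Sy (n + 1) (F St.sg) fun i _ => i.1.1.S.τ₀ - i.1.2 := by
    refine Ctx.sy_const _ (syI_bd 1 zero_le_one fun i y _ => ⟨sub_nonneg.2 (tle i), ?_⟩)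
    simp only [F, St.sg_eq]
    linarith [sq_nonneg (i.1.1.S.hh i.1.2 y)]
  have h2 : c.Sy (n + 1) (F St.sg) fun i y => F St.hh i y * F St.hh i y :=
    (hc.hh.mul hc.hh).mono (syI_bd 1 zero_le_one fun i y _ =>
      ⟨mul_self_nonneg _, by linarith [sq_le i y]⟩)
  refine (h1.add h2).congr fun i y _ => ?_
  simp only [F, St.sg_eq]
  ring
theorem sg_inv : c.Sy (n + 1) (fun i y => (F St.sg i y)⁻¹) (fun i y => (F St.sg i y)⁻¹) := by
  exact hc.sg.inv (fun i y _ => (St.sg_pos _ (tle i)).ne') (Ctx.Bd.refl' _ _)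
    fun i y _ => (St.sg_pos _ (tle i)).ne'
theorem kk : c.Sy (n + 1) (fun _ _ => 1) (F St.kk) := by
  exact (hc.aa.cmul 2).add hc.bb
theorem WW : c.Sy (n + 1) (fun _ _ => 1) (F St.WW) := by
  refine (((syI_mul hc.aa hc.aa).cmul 4).add ((syI_mul hc.bb hc.bb).cmul 5)).congr
    fun i y _ => ?_
  simp only [F, St.WW]
  ring
theorem C1 : c.Sy (n + 1) (fun _ _ => 1) (F St.C1) := by
  refine (((syI_mul hc.kk.neg hc.th1).sub (hc.bb.cmul 3)).sub (syI_mul (syI_mul (syI_mul hc.th1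
    ((syI_const c _ 1).sub hc.th1)) (hc.kk.add (syI_const c _ 2))) hc.th3_inv)).congr
    fun i y _ => ?_
  simp only [F, St.C1, div_eq_mul_inv]
theorem cE : c.Sy (n + 1) (F St.th) (F St.cE) := by
  refine (syI_mul (syI_mul (hc.th.cmul 2) (hc.kk.add (syI_const c _ 2))) hc.th3_inv).congr
    fun i y _ => ?_
  simp only [F, St.cE, div_eq_mul_inv]
theorem Gam : c.Sy (n + 1) (fun _ _ => 1) (F St.Gam) := by
  have ab := hc.aa.add hc.bb
  have e := (syI_const c _ 1).add (hc.th1.cmul (1 / 3))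
  refine (((((((syI_mul ab ab).add (syI_mul ab e)).add (syI_mul e e)).cmul 12).sub
    (syI_const c _ 12)).sub (syI_mul hc.bb (((ab.add e).cmul 24).sub (hc.th1.cmul 4)))).add
    ((syI_mul hc.bb hc.bb).cmul 27)).congr fun i y _ => ?_
  simp only [F, St.Gam]
  ring
theorem ls : c.Sy (n + 1) (fun _ _ => 1) (F St.ls) := by
  have h1 : c.Sy (n + 1) (fun _ _ => 1)
      fun i y => F St.hh i y * F St.hh i y * (F St.sg i y)⁻¹ := by
    refine ((hc.hh.mul hc.hh).mul hc.sg_inv).mono (syI_bd 1 zero_le_one fun i y _ => ?_)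
    have h0 : 0 < F St.sg i y := St.sg_pos _ (tle i)
    refine ⟨mul_nonneg (mul_self_nonneg _) (inv_pos.2 h0).le, ?_⟩
    rw [← div_eq_mul_inv, div_le_iff₀ h0]
    linarith [sq_le i y]
  refine (syI_mul (hc.bb.cmul 2) h1).congr fun i y _ => ?_
  simp only [F, St.ls]
  ring

section

variable {m : ℕ} (hm : m ≤ n) (h1 : c.Sy (m + 1) (fun _ _ => 1) (F St.u1))
  (h2 : c.Sy (m + 1) (fun _ _ => 1) (F St.u2))

include hm h1 in
theorem nn : c.Sy (m + 1) (fun i y => F St.f2 i y * F St.sg i y ^ 2) (F St.nn) := by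
  have s := hc.sg.of_le (Nat.succ_le_succ hm)
  refine syI_eq ((syI_mul ((hc.f2.of_le (Nat.succ_le_succ hm)).mul (s.mul s)) h1).congr
    fun i y _ => ?_) fun i y _ => by rw [sq]
  simp only [F, St.nn_eq _ (tle i)]
  ring
include hm h1 in
theorem EE (hE : c.Bd (fun i y => F St.sg i y ^ 3) (F St.EE)) :
    c.Sy (m + 2) (fun i y => F St.sg i y ^ 3) (F St.EE) := by
  refine Ctx.sy_succ (hc.smo fun _ _ h => h.sm_EE) hE
    (((hc.nn hm h1).mono (syI_bd 2 zero_le_two fun i y hy => ?_)).congr fun i y hy => ?_)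
  · have a1 : 0 ≤ F St.th i y := St.th_nonneg _ (hc.memΩ hy)
    have a2 : F St.th i y ≤ 2 := (hc.bas i y hy).th
    have a3 : F St.f2 i y = F St.th i y * F St.hh i y ^ 2 := St.f2_eq _ _ _
    have a4 := sq_le i y
    have a5 : F St.f2 i y ≤ 2 * F St.sg i y :=
      a3.trans_le (mul_le_mul a2 a4 (sq_nonneg _) zero_le_two)
    refine ⟨mul_nonneg (St.f2_nonneg _ (hc.memΩ hy)) (sq_nonneg _), ?_⟩
    have a6 := mul_le_mul_of_nonneg_right a5 (sq_nonneg (F St.sg i y))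
    linarith
  · rw [hc.D_F]
    exact i.1.1.sol.dX_EE i.2.2 (hc.memJ hy)
include hm h2 in
theorem Sg : c.Sy (m + 1) (F St.f2) (F St.Sg) := by
  exact (syI_mul (hc.f2.of_le (Nat.succ_le_succ hm)) h2).congr fun i y hy =>
    St.Sg_eq _ (hc.J i hy).2.ne
include hm h1 in
theorem mm : c.Sy (m + 1) (fun i y => F St.th i y * (F St.sg i y ^ 2 / F St.hh i y)) (F St.mm) := by
  have s := hc.sg.of_le (Nat.succ_le_succ hm)
  refine syI_eq ((syI_mul ((hc.th.of_le (Nat.succ_le_succ hm)).mul ((s.mul s).mul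
    (hc.hh_inv.of_le (Nat.succ_le_succ hm)))) h1).congr fun i y _ => ?_)
    fun i y _ => by rw [sq, div_eq_mul_inv]
  simp only [F, St.mm_eq _ (tle i)]
  ring
include hm h1 in
theorem mm' : c.Sy (m + 1)
    (fun i y => F St.th i y * (F St.sg i y ^ 2 / F St.hh i y + F St.hh i y ^ 2)) (F St.mm) := by
  refine (hc.mm hm h1).mono (syI_bd 1 zero_le_one fun i y hy => ?_)
  have a1 : 0 ≤ F St.th i y := St.th_nonneg _ (hc.memΩ hy)
  have a2 : 0 < F St.hh i y := St.hh_pos _ _ _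
  refine ⟨by positivity, ?_⟩
  rw [one_mul]
  exact mul_le_mul_of_nonneg_left (le_add_of_nonneg_right (sq_nonneg _)) a1
include hm h2 in
theorem Sg' : c.Sy (m + 1)
    (fun i y => F St.th i y * (F St.sg i y ^ 2 / F St.hh i y + F St.hh i y ^ 2)) (F St.Sg) := by
  refine (hc.Sg hm h2).mono (syI_bd 1 zero_le_one fun i y hy => ?_)
  have a1 : 0 ≤ F St.th i y := St.th_nonneg _ (hc.memΩ hy)
  have a2 : 0 < F St.hh i y := St.hh_pos _ _ _
  have a3 : F St.f2 i y = F St.th i y * F St.hh i y ^ 2 := St.f2_eq _ _ _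
  refine ⟨St.f2_nonneg _ (hc.memΩ hy), ?_⟩
  rw [one_mul, a3]
  exact mul_le_mul_of_nonneg_left (le_add_of_nonneg_left (by positivity)) a1
include hm h1 h2 in
/-- `ϑ` and `k - 2` are symbols of weight `θ (σ² / h + h²)`. -/
theorem vt : c.Sy (m + 1)
    (fun i y => F St.th i y * (F St.sg i y ^ 2 / F St.hh i y + F St.hh i y ^ 2)) (F St.vt) := by
  refine (syI_mul ((hc.mm' hm h1).add ((syI_mul (hc.Sg' hm h2)
    (hc.th1.of_le (Nat.succ_le_succ hm))).cmul (2 / 3)))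
    (hc.th3_inv.of_le (Nat.succ_le_succ hm))).congr fun i y hy => ?_
  simp only [F, St.vt_eq _ (hc.memJ hy)]
  ring
include hm h1 h2 in
theorem kk2 : c.Sy (m + 1)
    (fun i y => F St.th i y * (F St.sg i y ^ 2 / F St.hh i y + F St.hh i y ^ 2))
    (fun i y => F St.kk i y - 2) := by
  refine (syI_mul (((hc.Sg' hm h2).cmul 2).sub (hc.mm' hm h1))
    (hc.th3_inv.of_le (Nat.succ_le_succ hm))).congr fun i y hy => ?_
  simp only [F, St.kk_eq _ (hc.memJ hy), div_eq_mul_inv]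
include hm h1 h2 in
theorem ze : c.Sy (m + 1) (fun _ _ => 1) (F St.ze) := by
  have s := (hc.sg.mul hc.hh_inv).of_le (Nat.succ_le_succ hm)
  have s1 : c.Sy (m + 1) (fun _ _ => 1) fun i y => F St.sg i y * (F St.hh i y)⁻¹ := by
    refine s.mono (syI_bd 3 zero_le_three fun i y hy => ?_)
    have a1 : 0 < F St.sg i y := St.sg_pos _ (tle i)
    have a2 : 0 < F St.hh i y := St.hh_pos _ _ _
    have a3 : F St.sg i y ≤ 3 * F St.hh i y := (hc.bas i y hy).sg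
    refine ⟨by positivity, ?_⟩
    rw [← div_eq_mul_inv, div_le_iff₀ a2]
    linarith
  have s2 : c.Sy (m + 1) (fun _ _ => 1) (F St.hh) :=
    (hc.hh.of_le (Nat.succ_le_succ hm)).mono (syI_bd 1 zero_le_one fun i y hy =>
      ⟨(St.hh_pos _ _ _).le, (hc.bas i y hy).h.trans (by norm_num)⟩)
  refine ((syI_mul (syI_mul s1 s1) h1).add (syI_mul (syI_mul
    ((hc.th1.of_le (Nat.succ_le_succ hm)).cmul (2 / 3)) s2) h2)).congr fun i y _ => ?_
  simp only [F, St.ze]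
  ring

end

end IC


end Vale.Agent.P244
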