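import Vale.Agent.P244.A.Far
import Vale.Agent.P244.A.SyI
import Vale.Agent.P244.P1.Base
import Vale.Agent.P244.P1.Step

/-!
BLOCK P1 (notes/P244.md, Part A-P): bounds for all `ξ`-derivatives of `u₁`, `u₂` in the inner region.
-/

namespace Vale.Agent.P244

open scoped ContDiff Topology
open Set Filter Real

variable {κ : Cst}

/-- The context of the induction step. -/
noncomputable def p1Ctx (q : Rn κ → Prop) (hq : ∀ r, q r → r.s ^ 3 < 1) (l : ℕ) : Ctx (Ix q) where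
  cf := fun y => 2 * (y * (1 - y))
  J := fun _ => Ioo 0 1
  Ω := fun i => Ioo 0 (i.1.1.s ^ 3)
  N := fun i y => 1 + |dX^[l + 1] i.1.1.S.u1 i.1.2 y| + |dX^[l + 1] i.1.1.S.u2 i.1.2 y|
  sm := by fun_prop
  ro := fun _ => ro_Ioo
  sub := fun i => Ioo_subset_Ioo_right (hq _ i.2.1).le
  one := fun _ _ _ => le_add_of_le_of_nonneg (le_add_of_nonneg_right (abs_nonneg _)) (abs_nonneg _)

theorem p1_pop {q : Rn κ → Prop} {l : ℕ} {C Ca : ℝ} (hq : ∀ r, q r → r.s ^ 3 < 1)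
    (hb : ∀ r, q r → ∀ t ∈ r.I, ∀ y ∈ Icc 0 (r.s ^ 3), BasI r.S t y)
    (ha : ∀ r, q r → ∀ i ≤ l + 2, ∀ t ∈ r.I, ∀ y ∈ Icc (0 : ℝ) 1,
      |dX^[i] r.S.aa t y| ≤ Ca ∧ |dX^[i] r.S.bb t y| ≤ Ca)
    (hu : ∀ r, q r → ∀ i ≤ l, ∀ t ∈ r.I, ∀ y ∈ Icc 0 (r.s ^ 3),
      |dX^[i] r.S.u1 t y| ≤ C ∧ |dX^[i] r.S.u2 t y| ≤ C) :
    ∃ K, ∀ r, q r → ∀ t ∈ r.I, ∀ y ∈ Ioo 0 (r.s ^ 3),
      |r.S.Pop r.I (dX^[l] r.S.u1) t y| ≤
        K * (1 + |dX^[l + 1] r.S.u1 t y| + |dX^[l + 1] r.S.u2 t y|) ∧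
      |r.S.Pop r.I (dX^[l] r.S.u2) t y| ≤
        K * (1 + |dX^[l + 1] r.S.u1 t y| + |dX^[l + 1] r.S.u2 t y|) ∧
      |r.S.Pop r.I (dX^[l + 1] r.S.u1) t y| ≤
        K * (1 + |dX^[l + 1] r.S.u1 t y| + |dX^[l + 1] r.S.u2 t y| + |dX^[l + 2] r.S.u1 t y| +
          |dX^[l + 2] r.S.u2 t y|) ∧
      |r.S.Pop r.I (dX^[l + 1] r.S.u2) t y| ≤
        K * (1 + |dX^[l + 1] r.S.u1 t y| + |dX^[l + 1] r.S.u2 t y| + |dX^[l + 2] r.S.u1 t y| +
          |dX^[l + 2] r.S.u2 t y|) := by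
  let c := p1Ctx q hq l
  have it : ∀ (g : St → Fn) (k : ℕ) (i : Ix q), c.D^[k] (F g) i = dX^[k] (g i.1.1.S) i.1.2 :=
    fun g k i => by rw [Ctx.D_iter, dX_iter_eq_dl]; rfl
  have hΩ : ∀ i : Ix q, ∀ y ∈ c.Ω i, y ∈ Icc (0 : ℝ) 1 := fun i y hy =>
    Ioo_subset_Icc_self (c.sub i hy)
  have smo : ∀ {g : St → Fn}, SmQ g → c.Smo (F g) := fun {g} h i y hy =>
    (h _ _ i.1.1.sol _ i.2.2 y (Ioo_subset_Ico_self hy)).slice i.2.2
  have bd : ∀ {g : Ix q → ℝ → ℝ} {B : ℝ}, (∀ i, ∀ y ∈ c.Ω i, |g i y| ≤ B) →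
      c.Bd (fun _ _ => 1) g := fun {g B} h =>
    ⟨|B|, abs_nonneg _, fun i y hy => by simpa using (h i y hy).trans (le_abs_self _)⟩
  have hc : IC c (l + 1) := by
    refine ⟨rfl, fun _ => Ioo_subset_Ico_self, fun i y hy =>
      hb _ i.2.1 _ i.2.2 y (Ioo_subset_Icc_self hy), ?_, ?_⟩
    · have b : ∀ k ≤ l + 2, c.Bd (fun _ _ => 1) (c.D^[k] (F St.aa)) := fun k hk =>
        bd fun i y hy => by rw [it]; exact (ha _ i.2.1 k hk _ i.2.2 y (hΩ i y hy)).1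
      exact Ctx.sy_of_iter (smo fun _ _ hS _ ht _ hy => hS.sm_aa.smAt ht (Ico_subset_Icc_self hy))
        (fun k hk => b k hk.le) (b _ le_rfl).toN
    · have b : ∀ k ≤ l + 2, c.Bd (fun _ _ => 1) (c.D^[k] (F St.bb)) := fun k hk =>
        bd fun i y hy => by rw [it]; exact (ha _ i.2.1 k hk _ i.2.2 y (hΩ i y hy)).2
      exact Ctx.sy_of_iter (smo fun _ _ hS _ ht _ hy => hS.sm_bb.smAt ht (Ico_subset_Icc_self hy))
        (fun k hk => b k hk.le) (b _ le_rfl).toN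
  have h1 : c.Sy (l + 1) (fun _ _ => 1) (F St.u1) := by
    refine Ctx.sy_of_iter (smo smQ_u1) (fun k hk => bd (B := C) fun i y hy => ?_)
      ⟨1, zero_le_one, fun i y hy => ?_⟩
    · rw [it]; exact (hu _ i.2.1 k (by omega) _ i.2.2 y (Ioo_subset_Icc_self hy)).1
    · rw [it, one_mul]
      refine le_trans ?_ (le_abs_self _)
      simp only [c, p1Ctx]
      linarith [abs_nonneg (dX^[l + 1] i.1.1.S.u2 i.1.2 y)]
  have h2 : c.Sy (l + 1) (fun _ _ => 1) (F St.u2) := by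
    refine Ctx.sy_of_iter (smo smQ_u2) (fun k hk => bd (B := C) fun i y hy => ?_)
      ⟨1, zero_le_one, fun i y hy => ?_⟩
    · rw [it]; exact (hu _ i.2.1 k (by omega) _ i.2.2 y (Ioo_subset_Icc_self hy)).2
    · rw [it, one_mul]
      refine le_trans ?_ (le_abs_self _)
      simp only [c, p1Ctx]
      linarith [abs_nonneg (dX^[l + 1] i.1.1.S.u1 i.1.2 y)]
  have hE : c.Bd (fun i y => F St.sg i y ^ 3) (F St.EE) := by
    refine ⟨|κ.AE|, abs_nonneg _, fun i y hy => ?_⟩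
    have := ((i.1.1.tr i.2.2).I y (Ioo_subset_Icc_self hy)).E
    refine this.trans ?_
    rw [← abs_mul, one_mul]
    exact le_abs_self _
  have L1 := hc.lin_u1 (fun _ => Subset.rfl) h1 h2 hE
  have L2 := hc.lin_u2 (fun _ => Subset.rfl) h1 h2
  obtain ⟨K₁, k₁, b₁⟩ := (hc.lin_iter smQ_u1 h1 h2 L1 (j := l) (m := 0 + 1) (by omega)).bd
  obtain ⟨K₂, k₂, b₂⟩ := (hc.lin_iter smQ_u2 h2 h1 L2 (j := l) (m := 0 + 1) (by omega)).bd
  obtain ⟨K₃, k₃, b₃⟩ := (hc.lin_iter smQ_u1 h1 h2 L1 (j := l + 1) (m := 0) (by omega)).bd_top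
  obtain ⟨K₄, k₄, b₄⟩ := (hc.lin_iter smQ_u2 h2 h1 L2 (j := l + 1) (m := 0) (by omega)).bd_top
  refine ⟨K₁ + K₂ + K₃ + K₄, fun r hr t ht y hy => ?_⟩
  have a₁ := b₁ ⟨(r, t), hr, ht⟩ y hy
  have a₂ := b₂ ⟨(r, t), hr, ht⟩ y hy
  have a₃ := b₃ ⟨(r, t), hr, ht⟩ y hy
  have a₄ := b₄ ⟨(r, t), hr, ht⟩ y hy
  simp only [it, PF] at a₁ a₂ a₃ a₄
  simp only [c, p1Ctx] at a₃ a₄
  refine ⟨a₁.trans ?_, a₂.trans ?_, a₃.trans ?_, a₄.trans ?_⟩
  · gcongr; linarith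
  · rw [add_right_comm (1 : ℝ)]; gcongr; linarith
  · gcongr; linarith
  · rw [add_right_comm (1 + _ + _ : ℝ)]; gcongr; linarith

theorem p1 (hκ : κ.Adm) (n : ℕ) : ∃ C, ∀ᶠ r in fam κ, ∀ i ≤ n, ∀ t ∈ r.I,
    ∀ y ∈ Icc 0 (r.s ^ 3), |dX^[i] r.S.u1 t y| ≤ C ∧ |dX^[i] r.S.u2 t y| ≤ C := by
  induction n with
  | zero =>
    refine ⟨max κ.Am κ.AS, Eventually.of_forall fun r i hi t ht y hy => ?_⟩
    obtain rfl : i = 0 := by omega
    have h := (r.tr ht).I y hy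
    exact ⟨h.u1.trans (by rw [one_mul]; exact le_max_left _ _),
      h.u2.trans (by rw [one_mul]; exact le_max_right _ _)⟩
  | succ l ih =>
    obtain ⟨C, hC⟩ := ih
    obtain ⟨Ca, hCa⟩ := p0_ab hκ (l + 2)
    obtain ⟨M0, hM0⟩ := data_u (l + 1)
    have hs : ∀ᶠ r in fam κ, r.s ^ 3 ≤ 1 / 4 := by
      filter_upwards [ev_s κ (ε := 1 / 2) (by norm_num)] with r hr
      exact (pow_le_pow_left₀ r.hs.le hr 3).trans (by norm_num)
    have hall := hs.and ((bas_I hκ).and (hCa.and hC))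
    obtain ⟨K, hK⟩ := p1_pop (κ := κ) (q := fun r => r.s ^ 3 ≤ 1 / 4 ∧
      (∀ t ∈ r.I, ∀ y ∈ Icc 0 (r.s ^ 3), BasI r.S t y) ∧
      (∀ i ≤ l + 2, ∀ t ∈ r.I, ∀ y ∈ Icc (0 : ℝ) 1,
        |dX^[i] r.S.aa t y| ≤ Ca ∧ |dX^[i] r.S.bb t y| ≤ Ca) ∧
      ∀ i ≤ l, ∀ t ∈ r.I, ∀ y ∈ Icc 0 (r.s ^ 3),
        |dX^[i] r.S.u1 t y| ≤ C ∧ |dX^[i] r.S.u2 t y| ≤ C) (l := l) (C := C) (Ca := Ca)
      (fun r hr => hr.1.trans_lt (by norm_num)) (fun r hr => hr.2.1) (fun r hr => hr.2.2.1)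
      (fun r hr => hr.2.2.2)
    obtain ⟨M, hM⟩ := p1_step (|C| + |K| + |M0| + 1)
    refine ⟨max C M, ?_⟩
    filter_upwards [hall, ev_dok hκ, far_u hκ (l + 1) one_pos] with r hr hd hf
    have hs0 : 0 < r.s ^ 3 := pow_pos r.hs 3
    have a0 := abs_nonneg C
    have a1 := abs_nonneg K
    have a2 := abs_nonneg M0
    have b0 := le_abs_self C
    have b1 := le_abs_self K
    have b2 := le_abs_self M0
    have hKle : K ≤ |C| + |K| + |M0| + 1 := by linarith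
    have hdat := fun y (hy : y ∈ Icc 0 (r.s ^ 3)) =>
      hM0 _ _ _ hd (l + 1) le_rfl y ⟨hy.1, hy.2.trans hr.1⟩
    have key := hM r.S r.t₁ (r.s ^ 3) (dX^[l] r.S.u1) (dX^[l] r.S.u2) r.sol.pos hs0
      (hr.1.trans_lt (by norm_num))
      (fun t ht y hy => ⟨smQ_u1.iter l _ _ r.sol t ht y hy, smQ_u2.iter l _ _ r.sol t ht y hy⟩)
      (fun t ht y hy => by
        obtain ⟨e1, e2⟩ := hr.2.2.2 l le_rfl t ht y hy
        constructor <;> linarith)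
      (fun t ht y hy => by
        obtain ⟨e1, e2, e3, e4⟩ := hK r hr t ht y hy
        simp only [Function.iterate_succ_apply'] at e1 e2 e3 e4
        refine ⟨e1.trans ?_, e2.trans ?_, e3.trans ?_, e4.trans ?_⟩ <;> gcongr)
      (fun y hy => by
        obtain ⟨e1, e2⟩ := hdat y hy
        simp only [Function.iterate_succ_apply'] at e1 e2
        constructor <;> linarith)
      (fun t ht => by
        obtain ⟨e1, e2⟩ := hdat _ ⟨hs0.le, le_rfl⟩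
        obtain ⟨e3, e4⟩ := hf (l + 1) le_rfl t ht
        simp only [Function.iterate_succ_apply'] at e1 e2 e3 e4
        have := abs_sub_abs_le_abs_sub (dX (dX^[l] r.S.u1) t (r.s ^ 3))
          (dX (dX^[l] r.S.u1) 0 (r.s ^ 3))
        have := abs_sub_abs_le_abs_sub (dX (dX^[l] r.S.u2) t (r.s ^ 3))
          (dX (dX^[l] r.S.u2) 0 (r.s ^ 3))
        constructor <;> linarith)
    intro i hi t ht y hy
    rcases Nat.lt_or_eq_of_le hi with h | h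
    · obtain ⟨e1, e2⟩ := hr.2.2.2 i (by omega) t ht y hy
      exact ⟨e1.trans (le_max_left _ _), e2.trans (le_max_left _ _)⟩
    · obtain ⟨e1, e2⟩ := key t ht y hy
      rw [h, Function.iterate_succ_apply', Function.iterate_succ_apply']
      exact ⟨e1.trans (le_max_right _ _), e2.trans (le_max_right _ _)⟩

end Vale.Agent.P244
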